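import Vale.Agent.P063K.Mid

open Finset

namespace P063K

/-! ### Asymptotic facts -/

lemma as_ev_pow (k : ℕ) {b ε : ℝ} (hb : 0 < b) (hε : 0 < ε) :
    ∀ᶠ t : ℝ in Filter.atTop, t ^ k * Real.exp (-(b * t)) ≤ ε := by
  have h := (isLittleO_pow_exp_pos_mul_atTop k hb).bound hε
  filter_upwards [h, Filter.eventually_ge_atTop 0] with t ht ht0
  rw [Real.norm_of_nonneg (by positivity), Real.norm_of_nonneg (Real.exp_pos _).le] at ht
  rw [Real.exp_neg, ← div_eq_mul_inv, div_le_iff₀ (Real.exp_pos _)]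
  exact ht

lemma as_ev_log {ε : ℝ} (hε : 0 < ε) :
    ∀ᶠ t : ℝ in Filter.atTop, Real.log t ≤ ε * t := by
  have h := Real.isLittleO_log_id_atTop.bound hε
  filter_upwards [h, Filter.eventually_ge_atTop 1] with t ht ht0
  rw [Real.norm_of_nonneg (Real.log_nonneg ht0), id, Real.norm_of_nonneg (by linarith)] at ht
  exact ht

lemma as_ev_const {c ε : ℝ} (hε : 0 < ε) :
    ∀ᶠ t : ℝ in Filter.atTop, c ≤ ε * t := by
  filter_upwards [Filter.eventually_ge_atTop (c / ε)] with t ht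
  rw [div_le_iff₀ hε] at ht
  linarith

lemma as_large (r : ℕ) (hr : 2 ≤ r) (v0 : ℝ) (hv0 : 0 < v0) :
    ∀ᶠ t : ℝ in Filter.atTop, 1 ≤ t ∧
    16384 * Real.log t ≤ t ∧ (t ^ 2 + 1) * r ≤ Real.exp (t / 2) ∧
    64 * (Real.log (1 + t ^ 3) + (r + 1) * t * (t ^ 3 * Real.exp (-(3 / 8192 * t))) + 9 +
      r ^ 2 * t ^ 4 * Real.exp (-(1 / 2 * t))) ≤ v0 / 16 * t ∧
    t ^ 5 * Real.exp (-(5119 / 10240 * t)) ≤ v0 / 16 := by
  have hr0 : (0 : ℝ) < r := by
    have : (2 : ℝ) ≤ r := by exact_mod_cast hr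
    linarith
  have e1 := as_ev_log (ε := 1 / 16384) (by norm_num)
  have e2 := as_ev_pow 2 (b := 1 / 2) (ε := 1 / (2 * r)) (by norm_num) (by positivity)
  have e3 := as_ev_log (ε := v0 / (64 * 16 * 15)) (by positivity)
  have e4 := as_ev_pow 3 (b := 3 / 8192) (ε := v0 / (64 * 16 * 5 * (r + 1)))
    (by norm_num) (by positivity)
  have e5 := as_ev_const (c := 9) (ε := v0 / (64 * 16 * 5)) (by positivity)
  have e6 := as_ev_pow 4 (b := 1 / 2) (ε := v0 / (64 * 16 * 5 * r ^ 2))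
    (by norm_num) (by positivity)
  have e7 := as_ev_pow 5 (b := 5119 / 10240) (ε := v0 / 16) (by norm_num) (by positivity)
  have e8 := as_ev_const (c := Real.log 2) (ε := v0 / (64 * 16 * 5)) (by positivity)
  filter_upwards [e1, e2, e3, e4, e5, e6, e7, e8, Filter.eventually_ge_atTop 1] with
    t h1 h2 h3 h4 h5 h6 h7 h8 ht
  refine ⟨ht, by linarith, ?_, ?_, h7⟩
  · have hexp : Real.exp (t / 2) = (Real.exp (-(1 / 2 * t)))⁻¹ := by
      rw [← Real.exp_neg]; congr 1; ring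
    rw [hexp, ← one_div, le_div_iff₀ (Real.exp_pos _)]
    have h9 : t ^ 2 * Real.exp (-(1 / 2 * t)) * (2 * r) ≤ 1 := by
      rw [le_div_iff₀ (by positivity)] at h2
      exact h2
    have h10 : (1 : ℝ) ≤ t ^ 2 := one_le_pow₀ ht
    calc (t ^ 2 + 1) * r * Real.exp (-(1 / 2 * t))
        ≤ (t ^ 2 + t ^ 2) * r * Real.exp (-(1 / 2 * t)) := by
          gcongr
      _ = t ^ 2 * Real.exp (-(1 / 2 * t)) * (2 * r) := by ring
      _ ≤ 1 := h9
  · have hlog : Real.log (1 + t ^ 3) ≤ v0 / (64 * 16 * 5) * t + v0 / (64 * 16 * 5) * t := by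
      have h10 : (1 : ℝ) ≤ t ^ 3 := one_le_pow₀ ht
      calc Real.log (1 + t ^ 3) ≤ Real.log (2 * t ^ 3) :=
            Real.log_le_log (by positivity) (by linarith)
        _ = Real.log 2 + 3 * Real.log t := by
            rw [Real.log_mul (by norm_num) (by positivity), Real.log_pow]; norm_num
        _ ≤ v0 / (64 * 16 * 5) * t + 3 * (v0 / (64 * 16 * 15) * t) := by linarith
        _ = _ := by ring
    have hA : (r + 1) * t * (t ^ 3 * Real.exp (-(3 / 8192 * t))) ≤ v0 / (64 * 16 * 5) * t := by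
      calc (r + 1) * t * (t ^ 3 * Real.exp (-(3 / 8192 * t)))
          ≤ (r + 1) * t * (v0 / (64 * 16 * 5 * (r + 1))) := by gcongr
        _ = _ := by field_simp
    have hB : (r : ℝ) ^ 2 * t ^ 4 * Real.exp (-(1 / 2 * t)) ≤ v0 / (64 * 16 * 5) * t := by
      calc (r : ℝ) ^ 2 * t ^ 4 * Real.exp (-(1 / 2 * t))
          = (r : ℝ) ^ 2 * (t ^ 4 * Real.exp (-(1 / 2 * t))) := by ring
        _ ≤ (r : ℝ) ^ 2 * (v0 / (64 * 16 * 5 * r ^ 2)) := by gcongr
        _ = v0 / (64 * 16 * 5) * 1 := by field_simp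
        _ ≤ v0 / (64 * 16 * 5) * t := by gcongr
    have hsum : Real.log (1 + t ^ 3) + (r + 1) * t * (t ^ 3 * Real.exp (-(3 / 8192 * t))) + 9 +
        r ^ 2 * t ^ 4 * Real.exp (-(1 / 2 * t)) ≤ 5 * (v0 / (64 * 16 * 5) * t) := by
      linarith
    calc 64 * _ ≤ 64 * (5 * (v0 / (64 * 16 * 5) * t)) := by gcongr
      _ = v0 / 16 * t := by ring

/-! ### Elementary inequalities -/

lemma as_slog {s : ℝ} (hs0 : 0 < s) : s * Real.log (1 / s ^ 2) ≤ 1 := by
  have h1 : Real.log (1 / s) ≤ (1 / s) / 2 := by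
    have h2 := Real.log_le_sub_one_of_pos (show (0 : ℝ) < 1 / s / 2 by positivity)
    rw [Real.log_div (by positivity) (by norm_num)] at h2
    have h3 : Real.log 2 ≤ 1 := by
      have := Real.log_two_lt_d9; linarith
    linarith
  have h4 : Real.log (1 / s ^ 2) = 2 * Real.log (1 / s) := by
    rw [show 1 / s ^ 2 = (1 / s) ^ 2 by rw [div_pow, one_pow], Real.log_pow]; norm_num
  rw [h4]
  calc s * (2 * Real.log (1 / s)) ≤ s * (2 * ((1 / s) / 2)) := by gcongr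
    _ = 1 := by field_simp

lemma as_choose_ge (r : ℕ) (hr : 1 ≤ r) (n : ℕ) (hn : r + 1 ≤ n) : n ≤ n.choose r := by
  induction n, hn using Nat.le_induction with
  | base => simp
  | succ k hk ih =>
    obtain ⟨q, rfl⟩ : ∃ q, r = q + 1 := ⟨r - 1, by omega⟩
    rw [Nat.choose_succ_succ']
    have : 1 ≤ k.choose q := Nat.choose_pos (by omega)
    omega

lemma as_card (n r : ℕ) : Fintype.card (Edge n r) = n.choose r := by
  rw [Fintype.card_finset_len, Fintype.card_fin]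

/-! ### Facts about the Fourier weights -/

section
variable {α : Type*} [Fintype α] [DecidableEq α]

lemma as_Vr_le {p : ℝ} (h0 : 0 < p) (h1 : p < 1) {f : (α → Bool) → ℝ} (hf : IsSign f) :
    Vr p f ≤ 1 := by
  rw [← sum_fh_sq h0 h1 hf]
  exact Finset.sum_le_sum_of_subset_of_nonneg (Finset.filter_subset _ _)
    (fun _ _ _ => sq_nonneg _)

lemma as_Vr_le_I {p : ℝ} (h0 : 0 < p) (h1 : p < 1) (f : (α → Bool) → ℝ) :
    Vr p f ≤ 4 * p * (1 - p) * ∑ i, tinf p f i := by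
  rw [← sum_card_fh h0 h1 f]
  calc Vr p f ≤ ∑ S ∈ univ.filter (fun S : Finset α => S.Nonempty), (S.card : ℝ) * fh p f S ^ 2 := by
        refine Finset.sum_le_sum fun S hS => ?_
        have h2 : (1 : ℝ) ≤ S.card := by
          exact_mod_cast Finset.card_pos.2 (Finset.mem_filter.1 hS).2
        nlinarith [sq_nonneg (fh p f S)]
    _ ≤ _ := Finset.sum_le_sum_of_subset_of_nonneg (Finset.filter_subset _ _)
        (fun _ _ _ => by positivity)

lemma as_high {p : ℝ} (h0 : 0 < p) (h1 : p < 1) (f : (α → Bool) → ℝ) (m : ℕ) :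
    (m : ℝ) * ∑ S ∈ univ.filter (fun S : Finset α => m < S.card), fh p f S ^ 2 ≤
      4 * p * (1 - p) * ∑ i, tinf p f i := by
  rw [← sum_card_fh h0 h1 f, Finset.mul_sum]
  calc _ ≤ ∑ S ∈ univ.filter (fun S : Finset α => m < S.card), (S.card : ℝ) * fh p f S ^ 2 := by
        refine Finset.sum_le_sum fun S hS => ?_
        have h2 : (m : ℝ) ≤ S.card := by
          exact_mod_cast (Finset.mem_filter.1 hS).2.le
        gcongr
    _ ≤ _ := Finset.sum_le_sum_of_subset_of_nonneg (Finset.filter_subset _ _)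
        (fun _ _ _ => by positivity)

lemma as_split {p : ℝ} (f : (α → Bool) → ℝ) (m : ℕ) {δ : ℝ} (hδ : 0 < δ) :
    Vr p f ≤ ∑ S ∈ univ.filter (fun S : Finset α => S.Nonempty ∧ S.card ≤ ⌊1 / δ⌋₊), fh p f S ^ 2
      + ∑ S ∈ univ.filter (fun S : Finset α => 1 ≤ δ * (S.card : ℝ) ∧ S.card ≤ m), fh p f S ^ 2
      + ∑ S ∈ univ.filter (fun S : Finset α => m < S.card), fh p f S ^ 2 := by
  unfold Vr
  simp only [Finset.sum_filter]
  rw [← Finset.sum_add_distrib, ← Finset.sum_add_distrib]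
  refine Finset.sum_le_sum fun S _ => ?_
  have hsq := sq_nonneg (fh p f S)
  by_cases hS : S.Nonempty
  · rw [if_pos hS]
    by_cases h1 : S.card ≤ ⌊1 / δ⌋₊
    · rw [if_pos ⟨hS, h1⟩]
      have a1 : 0 ≤ (if 1 ≤ δ * (S.card : ℝ) ∧ S.card ≤ m then fh p f S ^ 2 else 0) := by
        split_ifs <;> simp [hsq]
      have a2 : 0 ≤ (if m < S.card then fh p f S ^ 2 else 0) := by
        split_ifs <;> simp [hsq]
      linarith
    · have h2 : 1 ≤ δ * (S.card : ℝ) := by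
        push Not at h1
        have h3 := (Nat.floor_lt (by positivity)).1 h1
        rw [div_lt_iff₀ hδ] at h3
        linarith
      have a1 : 0 ≤ (if S.Nonempty ∧ S.card ≤ ⌊1 / δ⌋₊ then fh p f S ^ 2 else 0) := by
        split_ifs <;> simp [hsq]
      by_cases h4 : S.card ≤ m
      · rw [if_pos (show 1 ≤ δ * (S.card : ℝ) ∧ S.card ≤ m from ⟨h2, h4⟩), if_neg (not_lt.2 h4)]
        linarith
      · have a2 : 0 ≤ (if 1 ≤ δ * (S.card : ℝ) ∧ S.card ≤ m then fh p f S ^ 2 else 0) := by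
          split_ifs <;> simp [hsq]
        rw [if_pos (show m < S.card from not_le.1 h4)]
        linarith
  · rw [if_neg hS]
    have a0 : 0 ≤ (if S.Nonempty ∧ S.card ≤ ⌊1 / δ⌋₊ then fh p f S ^ 2 else 0) := by
      split_ifs <;> simp [hsq]
    have a1 : 0 ≤ (if 1 ≤ δ * (S.card : ℝ) ∧ S.card ≤ m then fh p f S ^ 2 else 0) := by
      split_ifs <;> simp [hsq]
    have a2 : 0 ≤ (if m < S.card then fh p f S ^ 2 else 0) := by
      split_ifs <;> simp [hsq]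
    linarith

end

/-! ### The main regime -/

lemma as_floor_half {y : ℝ} (hy : 1 ≤ y) : y / 2 ≤ (⌊y⌋₊ : ℝ) := by
  have h1 := Nat.lt_floor_add_one y
  have h2 : (1 : ℝ) ≤ (⌊y⌋₊ : ℝ) := by
    exact_mod_cast (Nat.le_floor (by simpa using hy) : 1 ≤ ⌊y⌋₊)
  linarith

lemma as_params_k {x s t l : ℝ} (hxpos : 0 < x) (hs0 : 0 < s) (ht1 : 1 ≤ t)
    (hl0 : 0 < l) (hldef : l = Real.log (1 / x)) (hslog : s * l ≤ 1)
    (hN1 : 16384 * Real.log t ≤ t) (hxt : 1 ≤ x * t ^ 2) :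
    ∃ k : ℕ, (k : ℝ) * l ≤ t / 8192 ∧ s * t ^ 2 / 16384 ≤ (k : ℝ) * (1 / s) * (s * t) := by
  have ht0 : 0 < t := by linarith
  have hllog : l ≤ 2 * Real.log t := by
    have h2 : 1 / x ≤ t ^ 2 := by
      rw [div_le_iff₀ hxpos]; linarith
    calc l = Real.log (1 / x) := hldef
      _ ≤ Real.log (t ^ 2) := Real.log_le_log (by positivity) h2
      _ = 2 * Real.log t := by rw [Real.log_pow]; norm_num
  have hk1 : 1 ≤ t / (8192 * l) := by
    rw [le_div_iff₀ (by positivity)]; linarith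
  have hk2 : (⌊t / (8192 * l)⌋₊ : ℝ) ≤ t / (8192 * l) := Nat.floor_le (by positivity)
  have hk3 := as_floor_half hk1
  refine ⟨⌊t / (8192 * l)⌋₊, ?_, ?_⟩
  · rw [le_div_iff₀ (by positivity)] at hk2
    linarith
  · have e3 : t / (8192 * l) / 2 = t / (16384 * l) := by field_simp; norm_num
    rw [e3] at hk3
    have e4 : s * t ^ 2 / 16384 ≤ t / (16384 * l) * t := by
      rw [div_mul_eq_mul_div, div_le_div_iff₀ (by positivity) (by positivity)]
      have : s * t ^ 2 * (16384 * l) = (s * l) * (t ^ 2 * 16384) := by ring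
      rw [this]
      calc s * l * (t ^ 2 * 16384) ≤ 1 * (t ^ 2 * 16384) := by gcongr
        _ = t * t * 16384 := by ring
    calc s * t ^ 2 / 16384 ≤ t / (16384 * l) * t := e4
      _ ≤ (⌊t / (8192 * l)⌋₊ : ℝ) * t := by gcongr
      _ = _ := by field_simp

lemma as_params {r : ℕ} (hr : 2 ≤ r) {x t a : ℝ} (hxpos : 0 < x) (hx4 : x ≤ 1 / 4) (ht1 : 1 ≤ t)
    (hadef : a = (r : ℝ) / ((r : ℝ) - 1))
    (hN1 : 16384 * Real.log t ≤ t) (hA : 1342177280 * (r : ℝ) ≤ x * t ^ a) :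
    ∃ (δ : ℝ) (k m : ℕ), 0 < δ ∧ δ ≤ 1 ∧ (m : ℝ) ≤ t ^ 2 ∧ 8 * δ * (m : ℝ) ≤ k ∧
      δ * ((r : ℝ) * (m : ℝ)) ^ (((r : ℝ) - 1) / (r : ℝ)) ≤ 1 / 2 ∧
      x * t ^ a / (1342177280 * (r : ℝ)) / 2 ≤ m ∧
      (k : ℝ) * Real.log (1 / x) ≤ t / 8192 ∧ 1 / δ * Real.log (1 / x) ≤ t / 10240 ∧
      2 * (3 + 1 / √x) * (2 / δ) ≤ t / 1024 := by
  have hr2 : (2 : ℝ) ≤ r := by exact_mod_cast hr
  have hr0 : (0 : ℝ) < r := by linarith
  have ht0 : 0 < t := by linarith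
  have hr1 : 0 < (r : ℝ) - 1 := by linarith
  have ha2 : a ≤ 2 := by rw [hadef, div_le_iff₀ hr1]; linarith
  have ha0 : 0 < a := by rw [hadef]; positivity
  have hainv : ((r : ℝ) - 1) / (r : ℝ) = a⁻¹ := by rw [hadef, inv_div]
  have hta2 : t ^ a ≤ t ^ 2 := by
    have := Real.rpow_le_rpow_of_exponent_le ht1 ha2
    rwa [show (2 : ℝ) = ((2 : ℕ) : ℝ) by norm_num, Real.rpow_natCast] at this
  have hta0 : 0 < t ^ a := Real.rpow_pos_of_pos ht0 a
  -- s
  obtain ⟨s, hsdef⟩ : ∃ s : ℝ, s = √x := ⟨_, rfl⟩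
  have hs0 : 0 < s := by rw [hsdef]; exact Real.sqrt_pos.2 hxpos
  have hs2 : s ^ 2 = x := by rw [hsdef]; exact Real.sq_sqrt hxpos.le
  have hs1 : s ≤ 1 / 2 := by
    refine le_of_sq_le_sq ?_ (by norm_num)
    rw [hs2]; linarith
  have hslog := as_slog hs0
  rw [hs2] at hslog
  rw [← hsdef]
  -- ℓ
  obtain ⟨l, hldef⟩ : ∃ l : ℝ, l = Real.log (1 / x) := ⟨_, rfl⟩
  rw [← hldef] at hslog ⊢
  have hl0 : 0 < l := by
    rw [hldef]
    refine Real.log_pos ?_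
    rw [lt_div_iff₀ hxpos]; linarith
  have hxt : 1 ≤ x * t ^ 2 := by
    have : x * t ^ a ≤ x * t ^ 2 := by gcongr
    linarith
  obtain ⟨k, hkl, hk4⟩ := as_params_k hxpos hs0 ht1 hl0 hldef hslog hN1 hxt
  -- y
  obtain ⟨y, hydef⟩ : ∃ y : ℝ, y = x * t ^ a := ⟨_, rfl⟩
  rw [← hydef] at hA ⊢
  have hy0 : 0 < y := by rw [hydef]; positivity
  have hyt2 : y ≤ s ^ 2 * t ^ 2 := by
    rw [hydef, hs2]; gcongr
  have hyA : 1 ≤ y / (1342177280 * (r : ℝ)) := by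
    rw [le_div_iff₀ (by positivity)]; linarith
  obtain ⟨m, hmdef⟩ : ∃ m : ℕ, m = ⌊y / (1342177280 * (r : ℝ))⌋₊ := ⟨_, rfl⟩
  have hm1 : (m : ℝ) ≤ y / (1342177280 * (r : ℝ)) := by
    rw [hmdef]; exact Nat.floor_le (by positivity)
  have hm2 : y / (1342177280 * (r : ℝ)) / 2 ≤ m := by rw [hmdef]; exact as_floor_half hyA
  have hst : 10240 ≤ s * t := by
    have : (10240 : ℝ) ^ 2 ≤ (s * t) ^ 2 := by
      rw [mul_pow]; linarith
    exact le_of_sq_le_sq this (by positivity)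
  have hst0 : 0 < s * t := by positivity
  refine ⟨10240 / (s * t), k, m, by positivity, ?_, ?_, ?_, ?_, hm2, hkl, ?_, ?_⟩
  · rw [div_le_one (by positivity)]; exact hst
  · have h2 : y / (1342177280 * (r : ℝ)) ≤ y := div_le_self hy0.le (by linarith)
    have h3 : s ^ 2 * t ^ 2 ≤ 1 * t ^ 2 := by
      gcongr
      rw [hs2]; linarith
    linarith
  · have e1 : y / (1342177280 * (r : ℝ)) ≤ s ^ 2 * t ^ 2 / (1342177280 * 1) := by
      gcongr
      linarith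
    have e5 : 81920 * (m : ℝ) ≤ (k : ℝ) * (s * t) := by
      have e2 : 81920 * (s ^ 2 * t ^ 2 / (1342177280 * 1)) = s * (s * t ^ 2 / 16384) := by ring
      calc 81920 * (m : ℝ) ≤ 81920 * (s ^ 2 * t ^ 2 / (1342177280 * 1)) := by
            linarith
        _ = s * (s * t ^ 2 / 16384) := e2
        _ ≤ s * ((k : ℝ) * (1 / s) * (s * t)) := by gcongr
        _ = (k : ℝ) * (s * t) := by field_simp
    calc 8 * (10240 / (s * t)) * (m : ℝ) = 81920 * (m : ℝ) / (s * t) := by ring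
      _ ≤ k := by
        rw [div_le_iff₀ hst0]; exact e5
  · have e1 : (r : ℝ) * m ≤ (s * t / 20480) ^ a := by
      have e2 : (r : ℝ) * m ≤ y / 1342177280 := by
        calc (r : ℝ) * m ≤ r * (y / (1342177280 * (r : ℝ))) := by gcongr
          _ = y / 1342177280 := by field_simp
      have e3 : (s * t / 20480) ^ a = s ^ a * t ^ a / 20480 ^ a := by
        rw [Real.div_rpow (by positivity) (by norm_num), Real.mul_rpow hs0.le ht0.le]
      have e4 : (20480 : ℝ) ^ a ≤ 20480 ^ 2 := by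
        have := Real.rpow_le_rpow_of_exponent_le (show (1 : ℝ) ≤ 20480 by norm_num) ha2
        rwa [show (2 : ℝ) = ((2 : ℕ) : ℝ) by norm_num, Real.rpow_natCast] at this
      have e5 : s ^ 2 ≤ s ^ a := by
        have := Real.rpow_le_rpow_of_exponent_ge hs0 (by linarith) ha2
        rwa [show (2 : ℝ) = ((2 : ℕ) : ℝ) by norm_num, Real.rpow_natCast] at this
      rw [e3]
      calc (r : ℝ) * m ≤ y / 1342177280 := e2
        _ ≤ y / 20480 ^ 2 := by gcongr; norm_num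
        _ = s ^ 2 * t ^ a / 20480 ^ 2 := by rw [hydef, hs2]
        _ ≤ s ^ a * t ^ a / 20480 ^ a := by gcongr
    have e6 : ((r : ℝ) * (m : ℝ)) ^ (((r : ℝ) - 1) / (r : ℝ)) ≤ s * t / 20480 := by
      rw [hainv]
      calc ((r : ℝ) * (m : ℝ)) ^ a⁻¹ ≤ ((s * t / 20480) ^ a) ^ a⁻¹ :=
            Real.rpow_le_rpow (by positivity) e1 (by positivity)
        _ = s * t / 20480 := Real.rpow_rpow_inv (by positivity) ha0.ne'
    calc _ ≤ 10240 / (s * t) * (s * t / 20480) := by gcongr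
      _ = 1 / 2 := by field_simp; norm_num
  · rw [one_div_div]
    calc s * t / 10240 * l = (s * l) * (t / 10240) := by ring
      _ ≤ 1 * (t / 10240) := by gcongr
      _ = t / 10240 := one_mul _
  · have e1 : 2 * (3 + 1 / s) * (2 / (10240 / (s * t))) = 4 * (3 * s + 1) * (t / 10240) := by
      field_simp; ring
    rw [e1]
    calc 4 * (3 * s + 1) * (t / 10240) ≤ 4 * (3 * (1 / 2) + 1) * (t / 10240) := by gcongr
      _ = t / 1024 := by ring

lemma as_low_num {x t I M n δ v0 : ℝ} (hx0 : 0 < x) (ht1 : 1 ≤ t) (hδ0 : 0 < δ)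
    (hx1 : x ≤ 1) (hnexp : n = Real.exp t)
    (hI0 : 0 ≤ I) (hI : I ≤ t ^ 3) (hM : n ≤ M) (hδ : 1 / δ * Real.log (1 / x) ≤ t / 10240)
    (hN4 : t ^ 5 * Real.exp (-(5119 / 10240 * t)) ≤ v0 / 16) :
    (1 / x) ^ ⌊1 / δ⌋₊ * (I * √(I / M)) ≤ v0 / 16 := by
  have hn0 : 0 < n := by rw [hnexp]; exact Real.exp_pos _
  have hM0 : 0 < M := by linarith
  have hlog0 : 0 ≤ Real.log (1 / x) := Real.log_nonneg (by rw [le_div_iff₀ hx0]; linarith)
  have e1 : (1 / x) ^ ⌊1 / δ⌋₊ ≤ Real.exp (t / 10240) := by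
    have h1x : 0 < 1 / x := by positivity
    rw [← Real.exp_log h1x, ← Real.exp_nat_mul, Real.exp_le_exp]
    calc (⌊1 / δ⌋₊ : ℝ) * Real.log (1 / x) ≤ 1 / δ * Real.log (1 / x) := by
          gcongr
          exact Nat.floor_le (by positivity)
      _ ≤ _ := hδ
  have e2 : √(I / M) ≤ t ^ 2 * Real.exp (-(1 / 2 * t)) := by
    rw [Real.sqrt_le_left (by positivity)]
    have e3 : (t ^ 2 * Real.exp (-(1 / 2 * t))) ^ 2 = t ^ 4 / n := by
      have e4 : Real.exp (((2 : ℕ) : ℝ) * -(1 / 2 * t)) = (Real.exp t)⁻¹ := by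
        rw [← Real.exp_neg]; congr 1; push_cast; ring
      rw [hnexp, mul_pow, ← Real.exp_nat_mul, e4]
      ring
    rw [e3]
    have h34 : t ^ 3 ≤ t ^ 4 := pow_le_pow_right₀ ht1 (by norm_num)
    gcongr
    linarith
  calc (1 / x) ^ ⌊1 / δ⌋₊ * (I * √(I / M))
      ≤ Real.exp (t / 10240) * (t ^ 3 * (t ^ 2 * Real.exp (-(1 / 2 * t)))) := by gcongr
    _ = t ^ 5 * (Real.exp (t / 10240) * Real.exp (-(1 / 2 * t))) := by ring
    _ = t ^ 5 * Real.exp (-(5119 / 10240 * t)) := by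
        rw [← Real.exp_add]; congr 2; ring
    _ ≤ _ := hN4

lemma as_mid_num {x t I M n v0 V κ Wm WL : ℝ} {r k Λ : ℕ} (hx0 : 0 < x) (ht1 : 1 ≤ t)
    (hx1 : x ≤ 1 / 4) (hnexp : n = Real.exp t) (hr : 2 ≤ r) (hn2 : 2 ≤ n)
    (hI0 : 0 ≤ I) (hI : I ≤ t ^ 3) (hM0 : 0 ≤ M) (hM : M ≤ n ^ r)
    (hk : (k : ℝ) * Real.log (1 / x) ≤ t / 8192)
    (hΛ : Real.exp (t / 2) / r / 2 ≤ Λ) (hWL : (Λ : ℝ) * WL ≤ 4 * x * I)
    (hV0 : 0 ≤ V) (hV1 : V ≤ 1) (hκ : κ ≤ t / 1024)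
    (hmid : t / 64 * Wm ≤ κ * V + V * Real.log (1 / Real.exp (-(t / 1024))) + Real.log (1 + I) +
      Real.log (M + 1) * (√(Real.exp (-(t / 1024))) * (1 / x) ^ k * I) + 8 + V +
      r * t / 2 * WL)
    (hN3 : 64 * (Real.log (1 + t ^ 3) + (r + 1) * t * (t ^ 3 * Real.exp (-(3 / 8192 * t))) + 9 +
      r ^ 2 * t ^ 4 * Real.exp (-(1 / 2 * t))) ≤ v0 / 16 * t) :
    Wm ≤ V / 8 + v0 / 16 := by
  have ht0 : 0 < t := by linarith
  have hr2 : (2 : ℝ) ≤ r := by exact_mod_cast hr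
  have hr0 : (0 : ℝ) < r := by linarith
  have hn0 : 0 < n := by linarith
  have e1 : κ * V ≤ t / 1024 * V := by gcongr
  have e2 : Real.log (1 / Real.exp (-(t / 1024))) = t / 1024 := by
    rw [one_div, ← Real.exp_neg, Real.log_exp]; ring
  have e3 : Real.log (1 + I) ≤ Real.log (1 + t ^ 3) :=
    Real.log_le_log (by linarith) (by linarith)
  have e4 : Real.log (M + 1) ≤ (r + 1) * t := by
    have h1 : M + 1 ≤ n ^ (r + 1) := by
      have h2 : (1 : ℝ) ≤ n ^ r := one_le_pow₀ (by linarith)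
      calc M + 1 ≤ n ^ r + n ^ r := by linarith
        _ = 2 * n ^ r := by ring
        _ ≤ n * n ^ r := by gcongr
        _ = n ^ (r + 1) := by ring
    calc Real.log (M + 1) ≤ Real.log (n ^ (r + 1)) := Real.log_le_log (by linarith) h1
      _ = (r + 1) * t := by rw [Real.log_pow, hnexp, Real.log_exp]; push_cast; ring
  have e4' : 0 ≤ Real.log (M + 1) := Real.log_nonneg (by linarith)
  have e5 : √(Real.exp (-(t / 1024))) * (1 / x) ^ k * I ≤ t ^ 3 * Real.exp (-(3 / 8192 * t)) := by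
    have h1x : 0 < 1 / x := by positivity
    have h1 : (1 / x) ^ k ≤ Real.exp (t / 8192) := by
      rw [← Real.exp_log h1x, ← Real.exp_nat_mul, Real.exp_le_exp]
      exact hk
    have h2 : √(Real.exp (-(t / 1024))) = Real.exp (-(t / 2048)) := by
      rw [← Real.exp_half]; congr 1; ring
    rw [h2]
    calc Real.exp (-(t / 2048)) * (1 / x) ^ k * I
        ≤ Real.exp (-(t / 2048)) * Real.exp (t / 8192) * t ^ 3 := by gcongr
      _ = t ^ 3 * Real.exp (-(3 / 8192 * t)) := by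
        rw [← Real.exp_add, mul_comm]; congr 2; ring
  have e5' : 0 ≤ √(Real.exp (-(t / 1024))) * (1 / x) ^ k * I := by positivity
  have e6 : Real.log (M + 1) * (√(Real.exp (-(t / 1024))) * (1 / x) ^ k * I) ≤
      (r + 1) * t * (t ^ 3 * Real.exp (-(3 / 8192 * t))) := by
    gcongr
  have hE : 0 < Real.exp (t / 2) := Real.exp_pos _
  have hΛ0 : (0 : ℝ) < Λ := lt_of_lt_of_le (by positivity) hΛ
  have e7 : r * t / 2 * WL ≤ r ^ 2 * t ^ 4 * Real.exp (-(1 / 2 * t)) := by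
    have h1 : (Λ : ℝ) * WL ≤ t ^ 3 := by nlinarith
    have h2 : WL ≤ t ^ 3 / Λ := by
      rw [le_div_iff₀ hΛ0]; linarith
    have h3 : t ^ 3 / (Λ : ℝ) ≤ t ^ 3 / (Real.exp (t / 2) / r / 2) := by gcongr
    have h4 : t ^ 3 / (Real.exp (t / 2) / r / 2) = 2 * r * t ^ 3 * Real.exp (-(1 / 2 * t)) := by
      rw [show -(1 / 2 * t) = -(t / 2) by ring, Real.exp_neg]
      field_simp
    calc r * t / 2 * WL ≤ r * t / 2 * (2 * r * t ^ 3 * Real.exp (-(1 / 2 * t))) := by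
          gcongr; linarith
      _ = _ := by ring
  have e8 : t / 64 * Wm ≤ t * V / 512 + v0 / 16 * t / 64 := by
    rw [e2] at hmid
    linarith
  have e9 : t / 64 * Wm ≤ t / 64 * (V / 8 + v0 / 16) := by
    calc t / 64 * Wm ≤ t * V / 512 + v0 / 16 * t / 64 := e8
      _ = _ := by ring
  exact le_of_mul_le_mul_left e9 (by positivity)

lemma as_core {r : ℕ} (hr : 2 ≤ r) {v0 t : ℝ} (hv0 : 0 < v0) {n : ℕ} (hn : r + 1 ≤ n)
    (ht : Real.log n = t) (ht1 : 1 ≤ t)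
    (hN1 : 16384 * Real.log t ≤ t) (hN2 : (t ^ 2 + 1) * r ≤ Real.exp (t / 2))
    (hN3 : 64 * (Real.log (1 + t ^ 3) + (r + 1) * t * (t ^ 3 * Real.exp (-(3 / 8192 * t))) + 9 +
      r ^ 2 * t ^ 4 * Real.exp (-(1 / 2 * t))) ≤ v0 / 16 * t)
    (hN4 : t ^ 5 * Real.exp (-(5119 / 10240 * t)) ≤ v0 / 16)
    {f : (Edge n r → Bool) → ℝ} (hf : IsSign f) (hinv : IsInv f) {p : ℝ} (h0 : 0 < p)
    (h1 : p < 1) (hV : v0 ≤ Vr p f) (hI : ∑ i, tinf p f i ≤ t ^ 3) {a : ℝ}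
    (hadef : a = (r : ℝ) / ((r : ℝ) - 1))
    (hA : 1342177280 * (r : ℝ) ≤ p * (1 - p) * t ^ a) :
    v0 / (16 * (1342177280 * r)) * t ^ a ≤ ∑ i, tinf p f i := by
  have hr2 : (2 : ℝ) ≤ r := by exact_mod_cast hr
  have hr0 : (0 : ℝ) < r := by linarith
  have ht0 : 0 < t := by linarith
  have hxpos : 0 < p * (1 - p) := mul_pos h0 (by linarith)
  have hx4 : p * (1 - p) ≤ 1 / 4 := by nlinarith [sq_nonneg (p - 1 / 2)]
  obtain ⟨δ, k, m, hδ0, hδ1, hmt, hkm, hcm, hm2, hkl, hδl, hκ⟩ :=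
    as_params hr hxpos hx4 ht1 hadef hN1 hA
  have hI0 : 0 ≤ ∑ i, tinf p f i := Finset.sum_nonneg fun i _ => tinf_nonneg h0.le h1.le f i
  have hVle := as_Vr_le h0 h1 hf
  have h4x : 4 * p * (1 - p) = 4 * (p * (1 - p)) := by ring
  have hnpos : (0 : ℝ) < n := by
    have : 0 < n := by omega
    exact_mod_cast this
  have hnexp : (n : ℝ) = Real.exp t := by rw [← ht, Real.exp_log hnpos]
  have hsqn : √(n : ℝ) = Real.exp (t / 2) := by
    rw [hnexp, Real.exp_half]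
  obtain ⟨Λ, hΛdef⟩ : ∃ Λ : ℕ, Λ = ⌊Real.exp (t / 2) / r⌋₊ := ⟨_, rfl⟩
  have hΛ1 : (Λ : ℝ) ≤ Real.exp (t / 2) / r := by
    rw [hΛdef]; exact Nat.floor_le (by positivity)
  have hbig : t ^ 2 + 1 ≤ Real.exp (t / 2) / r := by
    rw [le_div_iff₀ hr0]; exact hN2
  have hΛ2 : Real.exp (t / 2) / r / 2 ≤ Λ := by
    rw [hΛdef]; refine as_floor_half ?_
    have := sq_nonneg t
    linarith
  have hΛ3 : ((r * Λ : ℕ) : ℝ) ≤ √(n : ℝ) := by
    rw [hsqn]; push_cast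
    rw [le_div_iff₀ hr0] at hΛ1
    linarith
  have hmΛ : m ≤ Λ := by
    rw [hΛdef]
    exact Nat.le_floor (by linarith)
  have hMr : (Fintype.card (Edge n r) : ℝ) ≤ (n : ℝ) ^ r := by
    rw [as_card]; exact_mod_cast Nat.choose_le_pow n r
  have hMn : (n : ℝ) ≤ (Fintype.card (Edge n r) : ℝ) := by
    rw [as_card]; exact_mod_cast as_choose_ge r (by omega) n hn
  have hmid := midLevel (show 2 ≤ n by omega) hr h0 h1 hf hinv hδ0 hδ1
    (Real.exp_pos (-(t / 1024))) (Real.exp_le_one_iff.2 (by linarith)) k Λ m hmΛ hΛ3 hkm hcm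
  rw [ht] at hmid
  have hlow := lowLevel h0 h1 hf ⌊1 / δ⌋₊ (tinf_const hinv)
  have hlow2 := as_low_num hxpos ht1 hδ0 (by linarith) hnexp hI0 hI hMn hδl hN4
  have hsplit := as_split (p := p) f m hδ0
  have hhighΛ := as_high h0 h1 f Λ
  have hhighm := as_high h0 h1 f m
  rw [h4x] at hhighΛ hhighm
  have hmid2 := as_mid_num hxpos ht1 hx4 hnexp hr (by exact_mod_cast (show 2 ≤ n by omega))
    hI0 hI (by positivity) hMr hkl hΛ2 hhighΛ (by linarith) hVle hκ hmid hN3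
  have hta0 : 0 < t ^ a := Real.rpow_pos_of_pos ht0 a
  have hhi : Vr p f / 2 ≤
      ∑ S ∈ univ.filter (fun S : Finset (Edge n r) => m < S.card), fh p f S ^ 2 := by
    linarith
  have hVh : v0 / 2 ≤
      ∑ S ∈ univ.filter (fun S : Finset (Edge n r) => m < S.card), fh p f S ^ 2 := by
    linarith
  have hfin : p * (1 - p) * t ^ a / (1342177280 * (r : ℝ)) / 2 * (v0 / 2) ≤
      4 * (p * (1 - p)) * ∑ i, tinf p f i := by
    calc _ ≤ (m : ℝ) * ∑ S ∈ univ.filter (fun S : Finset (Edge n r) => m < S.card),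
          fh p f S ^ 2 := by gcongr
      _ ≤ _ := hhighm
  have hfin2 : 4 * (p * (1 - p)) * (v0 / (16 * (1342177280 * r)) * t ^ a) ≤
      4 * (p * (1 - p)) * ∑ i, tinf p f i := by
    calc _ = p * (1 - p) * t ^ a / (1342177280 * (r : ℝ)) / 2 * (v0 / 2) := by ring
      _ ≤ _ := hfin
  exact le_of_mul_le_mul_left hfin2 (by positivity)

/-- Total influence lower bound for all `r`-uniform hypergraph properties and all biases. -/
theorem infl_lower (r : ℕ) (hr : 2 ≤ r) (ε : ℝ) (hε0 : 0 < ε) (hε1 : ε < 1 / 2) :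
    ∃ c : ℝ, 0 < c ∧ ∃ n0 : ℕ, ∀ n : ℕ, n0 ≤ n → ∀ f : (Edge n r → Bool) → ℝ, IsSign f →
      IsInv f → ∀ p : ℝ, 0 < p → p < 1 → 4 * ε * (1 - ε) ≤ Vr p f →
        c * (Real.log n) ^ ((r : ℝ) / ((r : ℝ) - 1)) ≤ ∑ i, tinf p f i := by
  have hr2 : (2 : ℝ) ≤ r := by exact_mod_cast hr
  have hr0 : (0 : ℝ) < r := by linarith
  obtain ⟨v0, hv0def⟩ : ∃ v0 : ℝ, v0 = 4 * ε * (1 - ε) := ⟨_, rfl⟩
  have hv0 : 0 < v0 := by rw [hv0def]; have : 0 < 1 - ε := by linarith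
                          positivity
  rw [← hv0def]
  obtain ⟨t0, ht0⟩ := Filter.eventually_atTop.1 (as_large r hr v0 hv0)
  obtain ⟨N, hN⟩ : ∃ N : ℕ, Real.exp t0 ≤ N := exists_nat_ge _
  refine ⟨min 1 (v0 / (16 * (1342177280 * r))), lt_min one_pos (by positivity), max N (r + 1), ?_⟩
  intro n hn f hf hinv p h0 h1 hV
  have hnr : r + 1 ≤ n := le_trans (le_max_right _ _) hn
  have hnN : N ≤ n := le_trans (le_max_left _ _) hn
  have hnpos : (0 : ℝ) < n := by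
    have : 0 < n := by omega
    exact_mod_cast this
  have htn : t0 ≤ Real.log n := by
    rw [Real.le_log_iff_exp_le hnpos]
    exact hN.trans (by exact_mod_cast hnN)
  obtain ⟨t, htdef⟩ : ∃ t : ℝ, t = Real.log n := ⟨_, rfl⟩
  obtain ⟨a, hadef⟩ : ∃ a : ℝ, a = (r : ℝ) / ((r : ℝ) - 1) := ⟨_, rfl⟩
  obtain ⟨ht1, hN1, hN2, hN3, hN4⟩ := ht0 _ htn
  rw [← htdef] at ht1 hN1 hN2 hN3 hN4 ⊢
  rw [← hadef]
  have hr1 : 0 < (r : ℝ) - 1 := by linarith
  have ha2 : a ≤ 2 := by rw [hadef, div_le_iff₀ hr1]; linarith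
  have hta0 : 0 < t ^ a := Real.rpow_pos_of_pos (by linarith) a
  have hta3 : t ^ a ≤ t ^ 3 := by
    have := Real.rpow_le_rpow_of_exponent_le ht1 (show a ≤ 3 by linarith)
    rwa [show (3 : ℝ) = ((3 : ℕ) : ℝ) by norm_num, Real.rpow_natCast] at this
  by_cases hI : ∑ i, tinf p f i ≤ t ^ 3
  · by_cases hA : 1342177280 * (r : ℝ) ≤ p * (1 - p) * t ^ a
    · refine le_trans ?_ (as_core hr hv0 hnr htdef.symm ht1 hN1 hN2 hN3 hN4 hf hinv h0 h1 hV hI
        hadef hA)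
      gcongr
      exact min_le_right _ _
    · have hVI := as_Vr_le_I h0 h1 f
      have hI0 : 0 ≤ ∑ i, tinf p f i := Finset.sum_nonneg fun i _ => tinf_nonneg h0.le h1.le f i
      have h2 : v0 * t ^ a ≤ 4 * (1342177280 * (r : ℝ)) * ∑ i, tinf p f i := by
        calc v0 * t ^ a ≤ (4 * p * (1 - p) * ∑ i, tinf p f i) * t ^ a := by
              gcongr; linarith
          _ = 4 * (p * (1 - p) * t ^ a) * ∑ i, tinf p f i := by ring
          _ ≤ 4 * (1342177280 * (r : ℝ)) * ∑ i, tinf p f i :=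
              mul_le_mul_of_nonneg_right
                (mul_le_mul_of_nonneg_left (not_le.1 hA).le (by norm_num)) hI0
      calc min 1 (v0 / (16 * (1342177280 * r))) * t ^ a
          ≤ v0 / (16 * (1342177280 * r)) * t ^ a := by
            gcongr; exact min_le_right _ _
        _ = (v0 * t ^ a) / (16 * (1342177280 * r)) := by ring
        _ ≤ (4 * (1342177280 * (r : ℝ)) * ∑ i, tinf p f i) / (16 * (1342177280 * r)) := by
            gcongr
        _ = (∑ i, tinf p f i) / 4 := by field_simp; ring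
        _ ≤ _ := by linarith
  · calc min 1 (v0 / (16 * (1342177280 * r))) * t ^ a ≤ 1 * t ^ a := by
          gcongr; exact min_le_left _ _
      _ = t ^ a := one_mul _
      _ ≤ t ^ 3 := hta3
      _ ≤ _ := (not_le.1 hI).le

end P063K
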