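import Vale.Agent.P063K.Defs

open Finset

namespace P063K

variable {α : Type*} [Fintype α] [DecidableEq α]

lemma wt_nonneg {p : ℝ} (h0 : 0 ≤ p) (h1 : p ≤ 1) (b : Bool) : 0 ≤ wt p b := by
  unfold wt; split_ifs <;> linarith

lemma W_nonneg {p : ℝ} (h0 : 0 ≤ p) (h1 : p ≤ 1) (ω : α → Bool) : 0 ≤ W p ω :=
  prod_nonneg fun _ _ => wt_nonneg h0 h1 _

lemma Ex_add (p : ℝ) (g h : (α → Bool) → ℝ) : Ex p (fun ω => g ω + h ω) = Ex p g + Ex p h := by
  simp only [Ex, mul_add, sum_add_distrib]

lemma Ex_sub (p : ℝ) (g h : (α → Bool) → ℝ) : Ex p (fun ω => g ω - h ω) = Ex p g - Ex p h := by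
  simp only [Ex, mul_sub, sum_sub_distrib]

lemma Ex_mul_left (p c : ℝ) (h : (α → Bool) → ℝ) : Ex p (fun ω => c * h ω) = c * Ex p h := by
  simp only [Ex, mul_sum]
  exact sum_congr rfl fun ω _ => by ring

lemma Ex_mul_right (p c : ℝ) (h : (α → Bool) → ℝ) : Ex p (fun ω => h ω * c) = Ex p h * c := by
  simp only [Ex, sum_mul]
  exact sum_congr rfl fun ω _ => by ring

lemma Ex_sum (p : ℝ) {ι : Type*} (s : Finset ι) (h : ι → (α → Bool) → ℝ) :
    Ex p (fun ω => ∑ i ∈ s, h i ω) = ∑ i ∈ s, Ex p (h i) := by
  simp only [Ex, mul_sum]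
  exact sum_comm

/-- Independence: expectation of a product of one-coordinate functions. -/
lemma Ex_prod (p : ℝ) (g : α → Bool → ℝ) :
    Ex p (fun ω => ∏ i, g i (ω i)) = ∏ i, ((1 - p) * g i false + p * g i true) := by
  have h := Finset.prod_univ_sum (fun _ : α => (univ : Finset Bool))
    (fun i b => wt p b * g i b)
  rw [Fintype.piFinset_univ] at h
  have h2 : ∀ i : α, ∑ b : Bool, wt p b * g i b = (1 - p) * g i false + p * g i true := by
    intro i
    rw [Fintype.sum_bool]
    simp [wt, add_comm]
  simp only [h2] at h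
  rw [h]
  unfold Ex W
  refine sum_congr rfl fun ω _ => ?_
  rw [prod_mul_distrib]

lemma Ex_const (p c : ℝ) : Ex p (fun _ : α → Bool => c) = c := by
  have h := Ex_prod (α := α) p (fun _ _ => 1)
  simp only [prod_const_one, mul_one, sub_add_cancel] at h
  have : Ex p (fun _ : α → Bool => c) = Ex p (fun _ : α → Bool => c * 1) := by simp
  rw [this, Ex_mul_left, h, mul_one]

lemma Ex_mono {p : ℝ} (h0 : 0 ≤ p) (h1 : p ≤ 1) {g h : (α → Bool) → ℝ} (hgh : ∀ ω, g ω ≤ h ω) :
    Ex p g ≤ Ex p h :=
  sum_le_sum fun ω _ => mul_le_mul_of_nonneg_left (hgh ω) (W_nonneg h0 h1 ω)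

lemma Ex_nonneg {p : ℝ} (h0 : 0 ≤ p) (h1 : p ≤ 1) {h : (α → Bool) → ℝ} (hh : ∀ ω, 0 ≤ h ω) :
    0 ≤ Ex p h :=
  sum_nonneg fun ω _ => mul_nonneg (W_nonneg h0 h1 ω) (hh ω)

lemma W_split (p : ℝ) (i : α) (ω : α → Bool) :
    W p ω = wt p (ω i) * ∏ j ∈ univ.erase i, wt p (ω j) := by
  unfold W
  rw [mul_prod_erase univ (fun j => wt p (ω j)) (mem_univ i)]

/-- Averaging over one coordinate. -/
lemma Ex_avg (p : ℝ) (i : α) (h : (α → Bool) → ℝ) :
    Ex p h = Ex p (fun ω => (1 - p) * h (Function.update ω i false) +
      p * h (Function.update ω i true)) := by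
  set H : (α → Bool) → ℝ := fun ω => (1 - p) * h (Function.update ω i false) +
      p * h (Function.update ω i true) with hH
  set fl : (α → Bool) → (α → Bool) := fun ω => Function.update ω i (!ω i) with hfl
  have hinv : Function.Involutive fl := by
    intro ω
    simp [hfl]
  let e : (α → Bool) ≃ (α → Bool) := hinv.toPerm fl
  have hflip : ∀ G : (α → Bool) → ℝ, ∑ ω, G ω = (1 / 2) * ∑ ω, (G ω + G (fl ω)) := by
    intro G
    have h1 : ∑ ω, G (fl ω) = ∑ ω, G ω := Equiv.sum_comp e G
    rw [sum_add_distrib, h1]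
    ring
  set W' : (α → Bool) → ℝ := fun ω => ∏ j ∈ univ.erase i, wt p (ω j) with hW'
  have hW'u : ∀ ω b, W' (Function.update ω i b) = W' ω := by
    intro ω b
    simp only [hW']
    refine prod_congr rfl fun j hj => ?_
    rw [Function.update_of_ne (ne_of_mem_erase hj)]
  have hWu : ∀ ω b, W p (Function.update ω i b) = wt p b * W' ω := by
    intro ω b
    rw [W_split p i, Function.update_self]
    congr 1
    exact hW'u ω b
  have key : ∀ G : (α → Bool) → ℝ, ∀ ω, W p ω * G ω + W p (fl ω) * G (fl ω) =
      W' ω * ((1 - p) * G (Function.update ω i false) + p * G (Function.update ω i true)) := by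
    intro G ω
    rcases Bool.eq_false_or_eq_true (ω i) with hb | hb
    · have h1 : Function.update ω i true = ω := by
        rw [← hb, Function.update_eq_self]
      have h2 : fl ω = Function.update ω i false := by simp [hfl, hb]
      rw [h2, hWu ω false]
      have h3 : W p ω = p * W' ω := by
        have := hWu ω true
        rw [h1] at this
        simpa [wt] using this
      rw [h3, h1]
      simp [wt]
      ring
    · have h1 : Function.update ω i false = ω := by
        rw [← hb, Function.update_eq_self]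
      have h2 : fl ω = Function.update ω i true := by simp [hfl, hb]
      rw [h2, hWu ω true]
      have h3 : W p ω = (1 - p) * W' ω := by
        have := hWu ω false
        rw [h1] at this
        simpa [wt] using this
      rw [h3, h1]
      simp [wt]
      ring
  unfold Ex
  rw [hflip (fun ω => W p ω * h ω), hflip (fun ω => W p ω * H ω)]
  congr 1
  refine sum_congr rfl fun ω _ => ?_
  rw [key h ω, key H ω]
  simp only [hH, Function.update_idem]
  ring

lemma chi_update_notMem (p : ℝ) {F : Finset α} {i : α} (hi : i ∉ F) (y : α → Bool) (b : Bool) :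
    chi p F (Function.update y i b) = chi p F y := by
  unfold chi
  refine prod_congr rfl fun j hj => ?_
  rw [Function.update_of_ne]
  rintro rfl
  exact hi hj

lemma chi_insert_update (p : ℝ) {F : Finset α} {i : α} (hi : i ∉ F) (y : α → Bool) (b : Bool) :
    chi p (insert i F) (Function.update y i b) = ph p b * chi p F y := by
  unfold chi
  rw [prod_insert hi, Function.update_self]
  congr 1
  exact chi_update_notMem p hi y b

lemma piecewise_insert_update {J : Finset α} {i : α} (hi : i ∉ J) (y ω : α → Bool) (b : Bool) :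
    (insert i J).piecewise (Function.update y i b) ω = J.piecewise y (Function.update ω i b) := by
  funext j
  by_cases hji : j = i
  · subst hji
    simp [Finset.piecewise, hi]
  · by_cases hj : j ∈ J
    · simp [Finset.piecewise, hj, hji]
    · simp [Finset.piecewise, hj, hji]

lemma piecewise_update_mem {J : Finset α} {i : α} (hi : i ∈ J) (y ω : α → Bool) (b : Bool) :
    J.piecewise (Function.update y i b) ω = Function.update (J.piecewise y ω) i b := by
  funext j
  by_cases hji : j = i
  · subst hji
    simp [Finset.piecewise, hi]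
  · by_cases hj : j ∈ J
    · simp [Finset.piecewise, hj, hji]
    · simp [Finset.piecewise, hj, hji]

lemma co_update_mem (p : ℝ) (f : (α → Bool) → ℝ) {J : Finset α} (F : Finset α) {i : α}
    (hi : i ∈ J) (ω : α → Bool) (b : Bool) :
    co p f J F (Function.update ω i b) = co p f J F ω := by
  unfold co
  have : ∀ y, J.piecewise y (Function.update ω i b) = J.piecewise y ω := by
    intro y
    funext j
    by_cases hj : j ∈ J
    · simp [Finset.piecewise, hj]
    · have hji : j ≠ i := by rintro rfl; exact hj hi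
      simp [Finset.piecewise, hj, hji]
  simp only [this]

lemma co_univ (p : ℝ) (f : (α → Bool) → ℝ) (F : Finset α) (ω : α → Bool) :
    co p f univ F ω = fh p f F := by
  unfold co fh
  simp only [Finset.piecewise_univ]

lemma co_empty (p : ℝ) (f : (α → Bool) → ℝ) (ω : α → Bool) :
    co p f ∅ ∅ ω = f ω := by
  unfold co
  simp only [Finset.piecewise_empty, chi, prod_empty, mul_one]
  exact Ex_const p (f ω)

lemma co_insert_avg (p : ℝ) (f : (α → Bool) → ℝ) {J F : Finset α} {i : α} (hi : i ∉ J)
    (hF : F ⊆ J) (ω : α → Bool) :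
    co p f (insert i J) F ω = (1 - p) * co p f J F (Function.update ω i false) +
      p * co p f J F (Function.update ω i true) := by
  have hiF : i ∉ F := fun h => hi (hF h)
  unfold co
  rw [Ex_avg p i]
  simp only [piecewise_insert_update hi, chi_update_notMem p hiF]
  rw [Ex_add, Ex_mul_left, Ex_mul_left]

lemma sqrt_aux1 {p : ℝ} (h0 : 0 < p) (h1 : p < 1) : p * √((1 - p) / p) = √(p * (1 - p)) := by
  have hq : 0 < 1 - p := by linarith
  have : p * (1 - p) = p ^ 2 * ((1 - p) / p) := by field_simp
  rw [this, Real.sqrt_mul (by positivity), Real.sqrt_sq h0.le]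

lemma sqrt_aux2 {p : ℝ} (h0 : 0 < p) (h1 : p < 1) :
    (1 - p) * √(p / (1 - p)) = √(p * (1 - p)) := by
  have hq : 0 < 1 - p := by linarith
  have : p * (1 - p) = (1 - p) ^ 2 * (p / (1 - p)) := by field_simp
  rw [this, Real.sqrt_mul (by positivity), Real.sqrt_sq hq.le]

lemma p_ph_true {p : ℝ} (h0 : 0 < p) (h1 : p < 1) : p * ph p true = √(p * (1 - p)) := by
  simp only [ph, if_true]; exact sqrt_aux1 h0 h1

lemma q_ph_false {p : ℝ} (h0 : 0 < p) (h1 : p < 1) :
    (1 - p) * ph p false = -√(p * (1 - p)) := by
  simp only [ph, Bool.false_eq_true, if_false, mul_neg]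
  rw [sqrt_aux2 h0 h1]

lemma sqrt_ph_true {p : ℝ} (h0 : 0 < p) (h1 : p < 1) : ph p true * √(p * (1 - p)) = 1 - p := by
  have hq : 0 < 1 - p := by linarith
  simp only [ph, if_true]
  rw [← Real.sqrt_mul (by positivity)]
  have : (1 - p) / p * (p * (1 - p)) = (1 - p) ^ 2 := by field_simp
  rw [this, Real.sqrt_sq hq.le]

lemma sqrt_ph_false {p : ℝ} (h0 : 0 < p) (h1 : p < 1) : ph p false * √(p * (1 - p)) = -p := by
  have hq : 0 < 1 - p := by linarith
  simp only [ph, Bool.false_eq_true, if_false, neg_mul]
  rw [← Real.sqrt_mul (by positivity)]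
  have : p / (1 - p) * (p * (1 - p)) = p ^ 2 := by field_simp
  rw [this, Real.sqrt_sq h0.le]

lemma ph_true_sq {p : ℝ} (h0 : 0 < p) (h1 : p < 1) : ph p true ^ 2 = (1 - p) / p := by
  have hq : 0 < 1 - p := by linarith
  simp only [ph, if_true]
  rw [Real.sq_sqrt (by positivity)]

lemma ph_false_sq {p : ℝ} (h0 : 0 < p) (h1 : p < 1) : ph p false ^ 2 = p / (1 - p) := by
  have hq : 0 < 1 - p := by linarith
  simp only [ph, Bool.false_eq_true, if_false]
  rw [neg_sq, Real.sq_sqrt (by positivity)]

lemma co_insert_diff {p : ℝ} (h0 : 0 < p) (h1 : p < 1) (f : (α → Bool) → ℝ) {J F : Finset α}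
    {i : α} (hi : i ∉ J) (hF : F ⊆ J) (ω : α → Bool) :
    co p f (insert i J) (insert i F) ω = √(p * (1 - p)) *
      (co p f J F (Function.update ω i true) - co p f J F (Function.update ω i false)) := by
  have hiF : i ∉ F := fun h => hi (hF h)
  unfold co
  rw [Ex_avg p i]
  simp only [piecewise_insert_update hi, chi_insert_update p hiF]
  have e1 : ∀ y : α → Bool, (1 - p) * (f (J.piecewise y (Function.update ω i false)) *
      (ph p false * chi p F y)) + p * (f (J.piecewise y (Function.update ω i true)) *
      (ph p true * chi p F y)) =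
      (-√(p * (1 - p))) * (f (J.piecewise y (Function.update ω i false)) * chi p F y) +
      √(p * (1 - p)) * (f (J.piecewise y (Function.update ω i true)) * chi p F y) := by
    intro y
    rw [← p_ph_true h0 h1]
    have := q_ph_false h0 h1
    rw [← p_ph_true h0 h1] at this
    rw [← this]
    ring
  simp only [e1]
  rw [Ex_add, Ex_mul_left, Ex_mul_left]
  ring

/-- `f̂_z(F) = a + φ(z_i) c`. -/
lemma co_decomp {p : ℝ} (h0 : 0 < p) (h1 : p < 1) (f : (α → Bool) → ℝ) {J F : Finset α}
    {i : α} (hi : i ∉ J) (hF : F ⊆ J) (ω : α → Bool) (b : Bool) :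
    co p f J F (Function.update ω i b) = co p f (insert i J) F ω +
      ph p b * co p f (insert i J) (insert i F) ω := by
  rw [co_insert_avg p f hi hF, co_insert_diff h0 h1 f hi hF]
  set u0 := co p f J F (Function.update ω i false)
  set u1 := co p f J F (Function.update ω i true)
  cases b
  · have := sqrt_ph_false h0 h1
    rw [← mul_assoc, this]
    ring
  · have := sqrt_ph_true h0 h1
    rw [← mul_assoc, this]
    ring

lemma Q_univ (p : ℝ) (f : (α → Bool) → ℝ) (F : Finset α) : Q p f univ F = fh p f F ^ 2 := by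
  unfold Q
  simp only [co_univ]
  exact Ex_const p _

lemma Q_nonneg {p : ℝ} (h0 : 0 ≤ p) (h1 : p ≤ 1) (f : (α → Bool) → ℝ) (J F : Finset α) :
    0 ≤ Q p f J F := Ex_nonneg h0 h1 fun _ => sq_nonneg _

lemma Q_step {p : ℝ} (h0 : 0 < p) (h1 : p < 1) (f : (α → Bool) → ℝ) {J F : Finset α}
    {i : α} (hi : i ∉ J) (hF : F ⊆ J) :
    Q p f J F = Q p f (insert i J) F + Q p f (insert i J) (insert i F) := by
  unfold Q
  rw [Ex_avg p i, ← Ex_add]
  congr 1
  funext ω
  rw [co_decomp h0 h1 f hi hF, co_decomp h0 h1 f hi hF]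
  set a := co p f (insert i J) F ω
  set c := co p f (insert i J) (insert i F) ω
  have hq : 0 < 1 - p := by linarith
  have e1 := q_ph_false h0 h1
  have e2 := p_ph_true h0 h1
  have e3 : (1 - p) * ph p false ^ 2 = p := by
    rw [ph_false_sq h0 h1]; field_simp
  have e4 : p * ph p true ^ 2 = 1 - p := by
    rw [ph_true_sq h0 h1]; field_simp
  calc (1 - p) * (a + ph p false * c) ^ 2 + p * (a + ph p true * c) ^ 2
      = a ^ 2 + 2 * a * c * ((1 - p) * ph p false + p * ph p true) +
        c ^ 2 * ((1 - p) * ph p false ^ 2 + p * ph p true ^ 2) := by ring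
    _ = a ^ 2 + c ^ 2 := by rw [e1, e2, e3, e4]; ring

lemma Q_eq_aux {p : ℝ} (h0 : 0 < p) (h1 : p < 1) (f : (α → Bool) → ℝ) (K : Finset α) :
    ∀ F : Finset α, F ⊆ Kᶜ →
      Q p f Kᶜ F = ∑ S ∈ univ.filter (fun S : Finset α => S ∩ Kᶜ = F), fh p f S ^ 2 := by
  induction K using Finset.induction_on with
  | empty =>
    intro F _
    have : univ.filter (fun S : Finset α => S ∩ (∅ : Finset α)ᶜ = F) = {F} := by
      ext S; simp
    rw [this, sum_singleton, compl_empty, Q_univ]
  | insert i K hiK ih =>
    intro F hF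
    have hins : insert i (insert i K)ᶜ = Kᶜ := by
      ext j
      simp only [mem_insert, mem_compl, not_or]
      constructor
      · rintro (rfl | h)
        · exact hiK
        · exact h.2
      · intro h
        by_cases hji : j = i
        · left; exact hji
        · right; exact ⟨hji, h⟩
    have hi : i ∉ (insert i K)ᶜ := by simp
    have hiF : i ∉ F := fun h => hi (hF h)
    rw [Q_step h0 h1 f hi hF, hins, ih F, ih (insert i F)]
    · rw [← sum_union]
      · refine sum_congr ?_ fun _ _ => rfl
        ext S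
        simp only [mem_union, mem_filter, mem_univ, true_and]
        constructor
        · rintro (h | h)
          · rw [← hins] at h
            have : S ∩ (insert i K)ᶜ = (S ∩ insert i (insert i K)ᶜ).erase i := by
              ext j; simp only [mem_inter, mem_erase, mem_insert, mem_compl]
              tauto
            rw [this, h, erase_eq_of_notMem hiF]
          · rw [← hins] at h
            have : S ∩ (insert i K)ᶜ = (S ∩ insert i (insert i K)ᶜ).erase i := by
              ext j; simp only [mem_inter, mem_erase, mem_insert, mem_compl]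
              tauto
            rw [this, h, erase_insert hiF]
        · intro h
          by_cases hiS : i ∈ S
          · right
            rw [← hins, ← h]
            ext j
            simp only [mem_inter, mem_insert]
            constructor
            · rintro ⟨hjS, hj | hj⟩
              · exact Or.inl hj
              · exact Or.inr ⟨hjS, hj⟩
            · rintro (hj | hj)
              · exact ⟨hj ▸ hiS, Or.inl hj⟩
              · exact ⟨hj.1, Or.inr hj.2⟩
          · left
            rw [← hins, ← h]
            ext j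
            simp only [mem_inter, mem_insert]
            constructor
            · rintro ⟨hjS, hj | hj⟩
              · exact absurd (hj ▸ hjS) hiS
              · exact ⟨hjS, hj⟩
            · rintro ⟨hjS, hj⟩
              exact ⟨hjS, Or.inr hj⟩
      · rw [disjoint_filter]
        intro S _ hS1 hS2
        rw [hS1] at hS2
        exact hiF (hS2 ▸ mem_insert_self i F)
    · rw [← hins]
      exact insert_subset_insert i hF
    · rw [← hins]
      exact hF.trans (subset_insert _ _)

lemma Q_eq {p : ℝ} (h0 : 0 < p) (h1 : p < 1) (f : (α → Bool) → ℝ) {J F : Finset α}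
    (hF : F ⊆ J) :
    Q p f J F = ∑ S ∈ univ.filter (fun S : Finset α => S ∩ J = F), fh p f S ^ 2 := by
  have := Q_eq_aux h0 h1 f Jᶜ F (by rwa [compl_compl])
  rwa [compl_compl] at this

/-- Parseval for a restriction. -/
lemma sum_co_sq {p : ℝ} (h0 : 0 < p) (h1 : p < 1) {f : (α → Bool) → ℝ} (hf : IsSign f)
    (J : Finset α) (ω : α → Bool) : ∑ F ∈ J.powerset, co p f J F ω ^ 2 = 1 := by
  induction J using Finset.induction_on generalizing ω with
  | empty =>
    rw [powerset_empty, sum_singleton, co_empty]
    rcases hf ω with h | h <;> rw [h] <;> norm_num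
  | insert i J hi ih =>
    rw [sum_powerset_insert hi]
    rw [← sum_add_distrib]
    have key : ∀ F ∈ J.powerset, co p f (insert i J) F ω ^ 2 +
        co p f (insert i J) (insert i F) ω ^ 2 =
        (1 - p) * co p f J F (Function.update ω i false) ^ 2 +
          p * co p f J F (Function.update ω i true) ^ 2 := by
      intro F hF
      rw [mem_powerset] at hF
      rw [co_insert_avg p f hi hF, co_insert_diff h0 h1 f hi hF, mul_pow,
        Real.sq_sqrt (by nlinarith)]
      ring
    rw [sum_congr rfl key, sum_add_distrib, ← mul_sum, ← mul_sum, ih, ih]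
    ring

lemma sum_fh_sq {p : ℝ} (h0 : 0 < p) (h1 : p < 1) {f : (α → Bool) → ℝ} (hf : IsSign f) :
    ∑ S : Finset α, fh p f S ^ 2 = 1 := by
  have h := sum_co_sq h0 h1 hf univ (fun _ => false)
  simp only [co_univ, powerset_univ] at h
  exact h

lemma infl_nonneg {p : ℝ} (h0 : 0 ≤ p) (h1 : p ≤ 1) (f : (α → Bool) → ℝ) (J : Finset α) (i : α)
    (ω : α → Bool) : 0 ≤ infl p f J i ω :=
  div_nonneg (Ex_nonneg h0 h1 fun _ => sq_nonneg _) (by norm_num)

lemma tinf_nonneg {p : ℝ} (h0 : 0 ≤ p) (h1 : p ≤ 1) (f : (α → Bool) → ℝ) (i : α) :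
    0 ≤ tinf p f i :=
  div_nonneg (Ex_nonneg h0 h1 fun _ => sq_nonneg _) (by norm_num)

lemma infl_univ (p : ℝ) (f : (α → Bool) → ℝ) (i : α) (ω : α → Bool) :
    infl p f univ i ω = tinf p f i := by
  unfold infl tinf
  simp only [Finset.piecewise_univ]

/-- Independent resampling. -/
lemma Ex_piecewise (p : ℝ) (J : Finset α) (h : (α → Bool) → ℝ) :
    Ex p (fun ω => Ex p (fun y => h (J.piecewise y ω))) = Ex p h := by
  induction J using Finset.induction_on with
  | empty =>
    simp only [Finset.piecewise_empty]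
    congr 1
    funext ω
    exact Ex_const p (h ω)
  | insert i J hi ih =>
    have h1 : ∀ ω : α → Bool, Ex p (fun y => h ((insert i J).piecewise y ω)) =
        (1 - p) * Ex p (fun y => h (J.piecewise y (Function.update ω i false))) +
          p * Ex p (fun y => h (J.piecewise y (Function.update ω i true))) := by
      intro ω
      rw [Ex_avg p i]
      simp only [piecewise_insert_update hi]
      rw [Ex_add, Ex_mul_left, Ex_mul_left]
    simp only [h1]
    rw [← Ex_avg p i (fun ω => Ex p (fun y => h (J.piecewise y ω)))]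
    exact ih

lemma Ex_infl (p : ℝ) (f : (α → Bool) → ℝ) {J : Finset α} {i : α} (hi : i ∈ J) :
    Ex p (fun ω => infl p f J i ω) = tinf p f i := by
  unfold infl tinf
  simp only [piecewise_update_mem hi, div_eq_mul_inv]
  rw [Ex_mul_right]
  rw [Ex_piecewise p J (fun w => (f (Function.update w i true) -
    f (Function.update w i false)) ^ 2)]

lemma sum_fh_mem {p : ℝ} (h0 : 0 < p) (h1 : p < 1) (f : (α → Bool) → ℝ) (i : α) :
    ∑ S ∈ univ.filter (fun S : Finset α => i ∈ S), fh p f S ^ 2 = 4 * p * (1 - p) * tinf p f i := by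
  have hq : 0 < 1 - p := by linarith
  have h := Q_eq h0 h1 f (subset_refl ({i} : Finset α))
  have hset : univ.filter (fun S : Finset α => S ∩ {i} = {i}) =
      univ.filter (fun S : Finset α => i ∈ S) := by
    ext S
    simp only [mem_filter, mem_univ, true_and]
    rw [inter_eq_right, singleton_subset_iff]
  rw [hset] at h
  rw [← h]
  unfold Q tinf
  have hi : i ∉ (∅ : Finset α) := by simp
  have hco : ∀ ω, co p f {i} {i} ω = √(p * (1 - p)) *
      (f (Function.update ω i true) - f (Function.update ω i false)) := by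
    intro ω
    have := co_insert_diff h0 h1 f hi (subset_refl ∅) ω
    rw [co_empty, co_empty] at this
    simpa using this
  simp only [hco, mul_pow]
  rw [Ex_mul_left, Real.sq_sqrt (by positivity)]
  ring

lemma sum_card_fh {p : ℝ} (h0 : 0 < p) (h1 : p < 1) (f : (α → Bool) → ℝ) :
    ∑ S : Finset α, (S.card : ℝ) * fh p f S ^ 2 = 4 * p * (1 - p) * ∑ i, tinf p f i := by
  rw [mul_sum]
  simp only [← sum_fh_mem h0 h1 f]
  simp only [sum_filter]
  rw [sum_comm]
  refine sum_congr rfl fun S _ => ?_
  rw [← sum_filter, filter_mem_eq_inter, univ_inter, sum_const, nsmul_eq_mul]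

end P063K
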