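import Vale.Agent.P063K.Hyp

open Finset

namespace P063K

variable {α : Type*} [Fintype α] [DecidableEq α]

lemma ca_gibbs {x q : ℝ} (hx : 0 ≤ x) (hq : 0 < q) :
    Real.negMulLog x ≤ x * (-Real.log q) + q := by
  rcases hx.eq_or_lt with h | h
  · rw [← h]
    simp [hq.le]
  · have h1 := Real.log_le_sub_one_of_pos (div_pos hq h)
    rw [Real.log_div hq.ne' h.ne'] at h1
    have h2 : x * (Real.log q - Real.log x) ≤ x * (q / x - 1) :=
      mul_le_mul_of_nonneg_left h1 h.le
    have h3 : x * (q / x - 1) = q - x := by field_simp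
    rw [h3] at h2
    unfold Real.negMulLog
    nlinarith

omit [Fintype α] [DecidableEq α] in
lemma ca_th_le_one (k : ℕ) (F : Finset α) : th k F ≤ 1 := by
  unfold th
  split_ifs with h
  · have : (1 : ℝ) ≤ (F.card : ℝ) := by exact_mod_cast h.1
    rw [div_le_one (by linarith)]
    exact this
  · norm_num

omit [Fintype α] [DecidableEq α] in
lemma ca_th_nonneg (k : ℕ) (F : Finset α) : 0 ≤ th k F := by
  unfold th
  split_ifs
  · exact div_nonneg zero_le_one (Nat.cast_nonneg _)
  · exact le_rfl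

/-- Pointwise (for a fixed `ω`) Gibbs bound. -/
lemma ca_point {p : ℝ} (h0 : 0 < p) (h1 : p < 1) {f : (α → Bool) → ℝ} (hf : IsSign f)
    (J : Finset α) (k : ℕ) {τ : ℝ} (hτ0 : 0 < τ) (hτ1 : τ ≤ 1) (ω : α → Bool) :
    ∑ F ∈ J.powerset, th k F * Real.negMulLog (co p f J F ω ^ 2) ≤
      (1 - co p f J ∅ ω ^ 2) * Real.log (1 / τ) + Real.log (1 + ∑ i ∈ J, infl p f J i ω) +
        Real.log (Fintype.card α + 1) *
          (√τ * (1 / (p * (1 - p))) ^ k * ∑ i ∈ J, infl p f J i ω) + 8 := by
  classical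
  set x : Finset α → ℝ := fun F => co p f J F ω ^ 2 with hx
  have hx0 : ∀ F, 0 ≤ x F := fun F => sq_nonneg _
  have hxsum : ∑ F ∈ J.powerset, x F = 1 := sum_co_sq h0 h1 hf J ω
  set P : α → ℝ := fun i => infl p f J i ω with hP
  have hP0 : ∀ i, 0 ≤ P i := fun i => infl_nonneg h0.le h1.le f J i ω
  set L : Finset α := J.filter (fun i => τ < P i) with hL
  have hLJ : L ⊆ J := filter_subset _ _
  set M : ℝ := (Fintype.card α : ℝ) with hM
  have hM0 : 0 ≤ M := Nat.cast_nonneg _
  set l : ℝ := (L.card : ℝ) with hl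
  have hl0 : 0 ≤ l := Nat.cast_nonneg _
  set q : α → ℝ := fun i => if i ∈ L then 1 / (l + 1) else 1 / (M + 1) with hq
  have hq0 : ∀ i, 0 < q i := by
    intro i
    simp only [hq]
    split_ifs
    · exact div_pos one_pos (by linarith)
    · exact div_pos one_pos (by linarith)
  set B : ℝ := 1 / (p * (1 - p)) with hB
  have hB0 : 0 ≤ B := by
    rw [hB]
    exact div_nonneg zero_le_one (mul_nonneg h0.le (by linarith))
  set I : ℝ := ∑ i ∈ J, P i with hI
  have hI0 : 0 ≤ I := sum_nonneg fun i _ => hP0 i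
  have hlogl : 0 ≤ Real.log (l + 1) := Real.log_nonneg (by linarith)
  have hlogM : 0 ≤ Real.log (M + 1) := Real.log_nonneg (by linarith)
  -- negative logarithm of the product
  have hlogq : ∀ F : Finset α, -Real.log (∏ i ∈ F, q i) ≤
      (F.card : ℝ) * Real.log (l + 1) +
        (if F ⊆ L then 0 else (F.card : ℝ) * Real.log (M + 1)) := by
    intro F
    rw [Real.log_prod (fun i _ => (hq0 i).ne'), ← sum_neg_distrib]
    by_cases hFL : F ⊆ L
    · rw [if_pos hFL, add_zero]
      have : ∀ i ∈ F, -Real.log (q i) = Real.log (l + 1) := by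
        intro i hi
        simp only [hq, if_pos (hFL hi), one_div, Real.log_inv, neg_neg]
      rw [sum_congr rfl this, sum_const, nsmul_eq_mul]
    · rw [if_neg hFL]
      have : ∀ i ∈ F, -Real.log (q i) ≤ Real.log (l + 1) + Real.log (M + 1) := by
        intro i _
        simp only [hq]
        split_ifs
        · rw [one_div, Real.log_inv, neg_neg]; linarith
        · rw [one_div, Real.log_inv, neg_neg]; linarith
      calc ∑ i ∈ F, -Real.log (q i) ≤ ∑ i ∈ F, (Real.log (l + 1) + Real.log (M + 1)) :=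
            sum_le_sum this
        _ = _ := by rw [sum_const, nsmul_eq_mul]; ring
  -- termwise bound
  have hterm : ∀ F ∈ J.powerset, th k F * Real.negMulLog (x F) ≤
      ((if F = ∅ then 0 else x F) * Real.log (l + 1) +
        (if ¬ F ⊆ L ∧ F.card ≤ k then x F else 0) * Real.log (M + 1)) + ∏ i ∈ F, q i := by
    intro F _
    have hqF : 0 < ∏ i ∈ F, q i := prod_pos fun i _ => hq0 i
    by_cases hF : 1 ≤ F.card ∧ F.card ≤ k
    · have hc0 : (0 : ℝ) < (F.card : ℝ) := by exact_mod_cast (show 0 < F.card by omega)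
      have hth : th k F * (F.card : ℝ) = 1 := by
        unfold th
        rw [if_pos hF, one_div, inv_mul_cancel₀ hc0.ne']
      have hFne : F ≠ ∅ := by
        rintro rfl
        simp at hF
      rw [if_neg hFne]
      have h3 := ca_gibbs (hx0 F) hqF
      have h4 := mul_le_mul_of_nonneg_left (hlogq F) (hx0 F)
      have h5 : th k F * Real.negMulLog (x F) ≤ th k F * (x F * ((F.card : ℝ) *
          Real.log (l + 1) + (if F ⊆ L then 0 else (F.card : ℝ) * Real.log (M + 1))) +
          ∏ i ∈ F, q i) :=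
        mul_le_mul_of_nonneg_left (by linarith) (ca_th_nonneg k F)
      have h6 : th k F * (∏ i ∈ F, q i) ≤ ∏ i ∈ F, q i := by
        have := mul_le_mul_of_nonneg_right (ca_th_le_one k F) hqF.le
        linarith
      by_cases hFL : F ⊆ L
      · rw [if_pos hFL] at h5
        rw [if_neg (by tauto)]
        calc th k F * Real.negMulLog (x F) ≤ _ := h5
          _ = (th k F * (F.card : ℝ)) * (x F * Real.log (l + 1)) + th k F * ∏ i ∈ F, q i := by
              ring
          _ ≤ _ := by rw [hth]; linarith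
      · rw [if_neg hFL] at h5
        rw [if_pos ⟨hFL, hF.2⟩]
        calc th k F * Real.negMulLog (x F) ≤ _ := h5
          _ = (th k F * (F.card : ℝ)) * (x F * Real.log (l + 1) + x F * Real.log (M + 1)) +
              th k F * ∏ i ∈ F, q i := by ring
          _ ≤ _ := by rw [hth]; linarith
    · have hth : th k F = 0 := by
        unfold th
        rw [if_neg hF]
      rw [hth, zero_mul]
      have h7 : 0 ≤ (if F = ∅ then 0 else x F) * Real.log (l + 1) := by
        apply mul_nonneg _ hlogl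
        split_ifs
        · exact le_rfl
        · exact hx0 F
      have h8 : 0 ≤ (if ¬ F ⊆ L ∧ F.card ≤ k then x F else 0) * Real.log (M + 1) := by
        apply mul_nonneg _ hlogM
        split_ifs
        · exact hx0 F
        · exact le_rfl
      linarith
  -- sum of the products
  have hprod : ∑ F ∈ J.powerset, ∏ i ∈ F, q i ≤ 8 := by
    have h9 : ∑ F ∈ J.powerset, ∏ i ∈ F, q i = ∏ i ∈ J, (1 + q i) := by
      rw [prod_one_add]
    rw [h9]
    have h10 : ∏ i ∈ J, (1 + q i) ≤ Real.exp (∑ i ∈ J, q i) := by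
      rw [Real.exp_sum]
      refine prod_le_prod (fun i _ => by linarith [hq0 i]) fun i _ => ?_
      rw [add_comm]
      exact Real.add_one_le_exp _
    have h11 : ∑ i ∈ J, q i ≤ 2 := by
      have ha : ∑ i ∈ J, q i ≤ ∑ i ∈ J, ((if i ∈ L then 1 / (l + 1) else 0) + 1 / (M + 1)) := by
        refine sum_le_sum fun i _ => ?_
        simp only [hq]
        have : 0 < 1 / (M + 1) := div_pos one_pos (by linarith)
        split_ifs <;> linarith
      rw [sum_add_distrib, sum_const, nsmul_eq_mul, sum_ite_mem, inter_eq_right.2 hLJ,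
        sum_const, nsmul_eq_mul] at ha
      have hb : (L.card : ℝ) * (1 / (l + 1)) ≤ 1 := by
        rw [← hl, mul_one_div, div_le_one (by linarith)]
        linarith
      have hc : (J.card : ℝ) * (1 / (M + 1)) ≤ 1 := by
        rw [mul_one_div, div_le_one (by linarith)]
        have : (J.card : ℝ) ≤ M := by
          rw [hM]
          exact_mod_cast card_le_univ J
        linarith
      linarith
    have h12 : Real.exp (∑ i ∈ J, q i) ≤ Real.exp 2 := Real.exp_le_exp.2 h11
    have h13 : Real.exp 2 = Real.exp 1 * Real.exp 1 := by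
      rw [← Real.exp_add]; norm_num
    have h14 := Real.exp_one_lt_d9
    have h15 := Real.exp_pos 1
    nlinarith
  -- weight of sets not contained in `L`
  have hsmall : ∑ F ∈ J.powerset, (if ¬ F ⊆ L ∧ F.card ≤ k then x F else 0) ≤
      √τ * B ^ k * I := by
    have ha : ∀ F ∈ J.powerset, (if ¬ F ⊆ L ∧ F.card ≤ k then x F else 0) ≤
        ∑ i ∈ J \ L, (if i ∈ F ∧ F.card ≤ k then x F else 0) := by
      intro F hF
      rw [mem_powerset] at hF
      have hnn : ∀ i ∈ J \ L, 0 ≤ (if i ∈ F ∧ F.card ≤ k then x F else 0) := by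
        intro i _
        split_ifs
        · exact hx0 F
        · exact le_rfl
      split_ifs with hc
      · obtain ⟨i, hiF, hiL⟩ := not_subset.1 hc.1
        have := single_le_sum hnn (mem_sdiff.2 ⟨hF hiF, hiL⟩)
        rwa [if_pos ⟨hiF, hc.2⟩] at this
      · exact sum_nonneg hnn
    calc ∑ F ∈ J.powerset, (if ¬ F ⊆ L ∧ F.card ≤ k then x F else 0)
        ≤ ∑ F ∈ J.powerset, ∑ i ∈ J \ L, (if i ∈ F ∧ F.card ≤ k then x F else 0) :=
          sum_le_sum ha
      _ = ∑ i ∈ J \ L, ∑ F ∈ J.powerset, (if i ∈ F ∧ F.card ≤ k then x F else 0) := sum_comm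
      _ ≤ ∑ i ∈ J \ L, √τ * B ^ k * P i := by
          refine sum_le_sum fun i hi => ?_
          rw [mem_sdiff] at hi
          rw [← sum_filter]
          refine (level_infl h0 h1 hf J hi.1 ω k).trans ?_
          have hle : P i ≤ τ := by
            by_contra hcon
            push Not at hcon
            exact hi.2 (mem_filter.2 ⟨hi.1, hcon⟩)
          have hs : √(P i) ≤ √τ := Real.sqrt_le_sqrt hle
          have hBk : 0 ≤ B ^ k := pow_nonneg hB0 k
          calc infl p f J i ω * √(infl p f J i ω) * (1 / (p * (1 - p))) ^ k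
              = (√(P i)) * (B ^ k * P i) := by simp only [hP, hB]; ring
            _ ≤ √τ * (B ^ k * P i) :=
                mul_le_mul_of_nonneg_right hs (mul_nonneg hBk (hP0 i))
            _ = _ := by ring
      _ = √τ * B ^ k * ∑ i ∈ J \ L, P i := by rw [mul_sum]
      _ ≤ √τ * B ^ k * I := by
          apply mul_le_mul_of_nonneg_left _ (mul_nonneg (Real.sqrt_nonneg _) (pow_nonneg hB0 k))
          exact sum_le_sum_of_subset_of_nonneg sdiff_subset fun i _ _ => hP0 i
  -- nonempty sets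
  have hV : ∑ F ∈ J.powerset, (if F = ∅ then 0 else x F) = 1 - x ∅ := by
    rw [← hxsum]
    have hb : ∀ F ∈ J.powerset, (if F = ∅ then 0 else x F) = x F - (if F = ∅ then x F else 0) := by
      intro F _
      split_ifs <;> ring
    rw [sum_congr rfl hb, sum_sub_distrib, sum_ite_eq', if_pos (empty_mem_powerset J)]
  have hV1 : 1 - x ∅ ≤ 1 := by linarith [hx0 ∅]
  have hV0 : 0 ≤ 1 - x ∅ := by
    rw [← hV]
    refine sum_nonneg fun F _ => ?_
    split_ifs
    · exact le_rfl
    · exact hx0 F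
  -- number of coordinates of large influence
  have hlI : l + 1 ≤ (1 + I) / τ := by
    have ha : l * τ ≤ I := by
      calc l * τ = ∑ i ∈ L, τ := by rw [sum_const, nsmul_eq_mul]
        _ ≤ ∑ i ∈ L, P i := sum_le_sum fun i hi => (mem_filter.1 hi).2.le
        _ ≤ I := sum_le_sum_of_subset_of_nonneg hLJ fun i _ _ => hP0 i
    rw [le_div_iff₀ hτ0]
    linarith
  have hlogl2 : (1 - x ∅) * Real.log (l + 1) ≤ (1 - x ∅) * Real.log (1 / τ) +
      Real.log (1 + I) := by
    have ha : Real.log (l + 1) ≤ Real.log (1 + I) + Real.log (1 / τ) := by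
      rw [← Real.log_mul (by linarith) (by positivity), mul_one_div]
      exact Real.log_le_log (by linarith) hlI
    have hb : 0 ≤ Real.log (1 + I) := Real.log_nonneg (by linarith)
    calc (1 - x ∅) * Real.log (l + 1) ≤ (1 - x ∅) * (Real.log (1 + I) + Real.log (1 / τ)) :=
          mul_le_mul_of_nonneg_left ha hV0
      _ = (1 - x ∅) * Real.log (1 / τ) + (1 - x ∅) * Real.log (1 + I) := by ring
      _ ≤ _ := by
          have := mul_le_mul_of_nonneg_right hV1 hb
          linarith
  calc ∑ F ∈ J.powerset, th k F * Real.negMulLog (x F)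
      ≤ ∑ F ∈ J.powerset, (((if F = ∅ then 0 else x F) * Real.log (l + 1) +
        (if ¬ F ⊆ L ∧ F.card ≤ k then x F else 0) * Real.log (M + 1)) + ∏ i ∈ F, q i) :=
        sum_le_sum hterm
    _ = (∑ F ∈ J.powerset, (if F = ∅ then 0 else x F)) * Real.log (l + 1) +
        (∑ F ∈ J.powerset, (if ¬ F ⊆ L ∧ F.card ≤ k then x F else 0)) * Real.log (M + 1) +
        ∑ F ∈ J.powerset, ∏ i ∈ F, q i := by
        rw [sum_add_distrib, sum_add_distrib, sum_mul, sum_mul]
    _ ≤ _ := by
        rw [hV]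
        have ha := mul_le_mul_of_nonneg_right hsmall hlogM
        linarith

lemma ca_Vr {p : ℝ} (h0 : 0 < p) (h1 : p < 1) {f : (α → Bool) → ℝ} (hf : IsSign f) :
    Vr p f = 1 - fh p f ∅ ^ 2 := by
  have h := sum_fh_sq h0 h1 hf
  unfold Vr
  rw [← h, ← sum_filter_add_sum_filter_not univ (fun S : Finset α => S.Nonempty)]
  have h2 : univ.filter (fun S : Finset α => ¬ S.Nonempty) = {∅} := by
    ext S
    simp
  rw [h2, sum_singleton]
  ring

lemma ca_Q_le {p : ℝ} (h0 : 0 < p) (h1 : p < 1) {f : (α → Bool) → ℝ} (hf : IsSign f)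
    (J : Finset α) : 1 - Q p f J ∅ ≤ Vr p f := by
  rw [ca_Vr h0 h1 hf, Q_eq h0 h1 f (empty_subset J)]
  have : fh p f ∅ ^ 2 ≤ ∑ S ∈ univ.filter (fun S : Finset α => S ∩ J = ∅), fh p f S ^ 2 :=
    single_le_sum (f := fun S : Finset α => fh p f S ^ 2) (fun S _ => sq_nonneg _) (by simp)
  linarith

lemma ca_log_tangent {a b : ℝ} (ha : 0 ≤ a) (hb : 0 ≤ b) :
    Real.log (1 + a) ≤ Real.log (1 + b) + (a - b) * (1 / (1 + b)) := by
  have h1 : 0 < (1 + a) / (1 + b) := by positivity
  have h2 := Real.log_le_sub_one_of_pos h1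
  rw [Real.log_div (by positivity) (by positivity)] at h2
  have h3 : (1 + a) / (1 + b) - 1 = (a - b) * (1 / (1 + b)) := by
    field_simp
    ring
  linarith

/-- The weighted conditional entropy of the low levels is small. -/
theorem caseOne {p : ℝ} (h0 : 0 < p) (h1 : p < 1) {f : (α → Bool) → ℝ} (hf : IsSign f)
    (J : Finset α) (k : ℕ) {τ : ℝ} (hτ0 : 0 < τ) (hτ1 : τ ≤ 1) :
    ∑ F ∈ J.powerset, th k F * Ex p (fun ω => Real.negMulLog (co p f J F ω ^ 2)) ≤
      Vr p f * Real.log (1 / τ) + Real.log (1 + ∑ i, tinf p f i) +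
        Real.log (Fintype.card α + 1) *
          (√τ * (1 / (p * (1 - p))) ^ k * ∑ i, tinf p f i) + 8 := by
  set I : ℝ := ∑ i, tinf p f i with hI
  have hI0 : 0 ≤ I := sum_nonneg fun i _ => tinf_nonneg h0.le h1.le f i
  set B : ℝ := 1 / (p * (1 - p)) with hB
  have hB0 : 0 ≤ B := by
    rw [hB]
    exact div_nonneg zero_le_one (mul_nonneg h0.le (by linarith))
  set c : ℝ := Real.log (Fintype.card α + 1) * (√τ * B ^ k) with hc
  have hlogM : 0 ≤ Real.log ((Fintype.card α : ℝ) + 1) :=
    Real.log_nonneg (by linarith [(Nat.cast_nonneg (Fintype.card α) : (0 : ℝ) ≤ _)])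
  have hc0 : 0 ≤ c := mul_nonneg hlogM (mul_nonneg (Real.sqrt_nonneg _) (pow_nonneg hB0 k))
  have hlogτ : 0 ≤ Real.log (1 / τ) := Real.log_nonneg (by
    rw [le_div_iff₀ hτ0]; linarith)
  have hl : ∑ F ∈ J.powerset, th k F * Ex p (fun ω => Real.negMulLog (co p f J F ω ^ 2)) =
      Ex p (fun ω => ∑ F ∈ J.powerset, th k F * Real.negMulLog (co p f J F ω ^ 2)) := by
    rw [Ex_sum]
    exact sum_congr rfl fun F _ => (Ex_mul_left _ _ _).symm
  rw [hl]
  have hpt : ∀ ω : α → Bool,
      ∑ F ∈ J.powerset, th k F * Real.negMulLog (co p f J F ω ^ 2) ≤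
      ((1 - co p f J ∅ ω ^ 2) * Real.log (1 / τ) +
        (1 / (1 + I) + c) * ∑ i ∈ J, infl p f J i ω) +
        (Real.log (1 + I) - I * (1 / (1 + I)) + 8) := by
    intro ω
    have ha := ca_point h0 h1 hf J k hτ0 hτ1 ω
    have hw0 : 0 ≤ ∑ i ∈ J, infl p f J i ω :=
      sum_nonneg fun i _ => infl_nonneg h0.le h1.le f J i ω
    have hb := ca_log_tangent hw0 hI0
    have he : Real.log (Fintype.card α + 1) *
          (√τ * (1 / (p * (1 - p))) ^ k * ∑ i ∈ J, infl p f J i ω) =
          c * ∑ i ∈ J, infl p f J i ω := by rw [hc, hB]; ring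
    rw [he] at ha
    linarith
  refine (Ex_mono h0.le h1.le hpt).trans ?_
  rw [Ex_add, Ex_add, Ex_mul_right, Ex_sub, Ex_const, Ex_const, Ex_mul_left, Ex_sum,
    sum_congr rfl (fun i hi => Ex_infl p f hi)]
  have hQ : Ex p (fun ω => co p f J ∅ ω ^ 2) = Q p f J ∅ := rfl
  rw [hQ]
  have hd : ∑ i ∈ J, tinf p f i ≤ I :=
    sum_le_sum_of_subset_of_nonneg (subset_univ _) fun i _ _ => tinf_nonneg h0.le h1.le f i
  have he : (1 / (1 + I) + c) * ∑ i ∈ J, tinf p f i ≤ (1 / (1 + I) + c) * I := by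
    apply mul_le_mul_of_nonneg_left hd
    have : 0 ≤ 1 / (1 + I) := by positivity
    linarith
  have hg := mul_le_mul_of_nonneg_right (ca_Q_le h0 h1 hf J) hlogτ
  have hh : Real.log (Fintype.card α + 1) * (√τ * B ^ k * I) = c * I := by rw [hc]; ring
  rw [hh]
  linarith

/-- Low levels have small weight if all influences are equal. -/
theorem lowLevel {p : ℝ} (h0 : 0 < p) (h1 : p < 1) {f : (α → Bool) → ℝ} (hf : IsSign f)
    (k : ℕ) (hsym : ∀ i j : α, tinf p f i = tinf p f j) :
    ∑ S ∈ univ.filter (fun S : Finset α => S.Nonempty ∧ S.card ≤ k), fh p f S ^ 2 ≤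
      (1 / (p * (1 - p))) ^ k * ((∑ i, tinf p f i) *
        √((∑ i, tinf p f i) / (Fintype.card α : ℝ))) := by
  set B : ℝ := 1 / (p * (1 - p)) with hB
  have hB0 : 0 ≤ B := by
    rw [hB]
    exact div_nonneg zero_le_one (mul_nonneg h0.le (by linarith))
  set I : ℝ := ∑ i, tinf p f i with hI
  have hI0 : 0 ≤ I := sum_nonneg fun i _ => tinf_nonneg h0.le h1.le f i
  have ht : ∀ i : α, tinf p f i = I / (Fintype.card α : ℝ) := by
    intro i
    have h2 : I = (Fintype.card α : ℝ) * tinf p f i := by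
      rw [hI, sum_congr rfl (fun j _ => hsym j i), sum_const, nsmul_eq_mul, card_univ]
    have h3 : (Fintype.card α : ℝ) ≠ 0 := by
      have : 0 < Fintype.card α := Fintype.card_pos_iff.2 ⟨i⟩
      exact_mod_cast this.ne'
    rw [h2]
    field_simp
  have hlev : ∀ i : α, ∑ S ∈ univ.filter (fun S : Finset α => i ∈ S ∧ S.card ≤ k),
      fh p f S ^ 2 ≤ B ^ k * (tinf p f i * √(I / (Fintype.card α : ℝ))) := by
    intro i
    have h2 := level_infl h0 h1 hf univ (mem_univ i) (fun _ => false) k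
    simp only [co_univ, infl_univ, powerset_univ] at h2
    refine h2.trans (le_of_eq ?_)
    rw [← ht i, ← hB]
    ring
  calc ∑ S ∈ univ.filter (fun S : Finset α => S.Nonempty ∧ S.card ≤ k), fh p f S ^ 2
      ≤ ∑ S : Finset α, ∑ i : α, (if i ∈ S ∧ S.card ≤ k then fh p f S ^ 2 else 0) := by
        rw [sum_filter]
        refine sum_le_sum fun S _ => ?_
        have hnn : ∀ i ∈ (univ : Finset α), 0 ≤
            (if i ∈ S ∧ S.card ≤ k then fh p f S ^ 2 else 0) := by
          intro i _
          split_ifs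
          · exact sq_nonneg _
          · exact le_rfl
        split_ifs with hS
        · obtain ⟨i, hi⟩ := hS.1
          have := single_le_sum hnn (mem_univ i)
          rwa [if_pos ⟨hi, hS.2⟩] at this
        · exact sum_nonneg hnn
    _ = ∑ i : α, ∑ S ∈ univ.filter (fun S : Finset α => i ∈ S ∧ S.card ≤ k), fh p f S ^ 2 := by
        rw [sum_comm]
        exact sum_congr rfl fun i _ => (sum_filter _ _).symm
    _ ≤ ∑ i : α, B ^ k * (tinf p f i * √(I / (Fintype.card α : ℝ))) :=
        sum_le_sum fun i _ => hlev i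
    _ = B ^ k * (I * √(I / (Fintype.card α : ℝ))) := by
        rw [← mul_sum, ← sum_mul]

end P063K
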