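import Mathlib

/-!
P063 (Friedgut-Kalai threshold width): basic definitions of the p-biased cube analysis.
`α` is the index set of the coordinates (later: the r-subsets of `Fin n`), configurations are
functions `α → Bool`, every coordinate is `true` with probability `p` independently.
-/

open Finset

namespace P063K

variable {α : Type*} [Fintype α] [DecidableEq α]

/-- Weight of one bit: `true` has weight `p`, `false` has weight `1 - p`. -/
noncomputable def wt (p : ℝ) (b : Bool) : ℝ := if b then p else 1 - p

/-- Product weight of a configuration. -/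
noncomputable def W (p : ℝ) (ω : α → Bool) : ℝ := ∏ i, wt p (ω i)

/-- Expectation with respect to the product measure of bias `p`. -/
noncomputable def Ex (p : ℝ) (h : (α → Bool) → ℝ) : ℝ := ∑ ω, W p ω * h ω

/-- The normalised one-bit character. -/
noncomputable def ph (p : ℝ) (b : Bool) : ℝ := if b then √((1 - p) / p) else -√(p / (1 - p))

/-- The character of a set of coordinates. -/
noncomputable def chi (p : ℝ) (F : Finset α) (ω : α → Bool) : ℝ := ∏ i ∈ F, ph p (ω i)

/-- Fourier coefficient at `F` of the restriction of `f` to the coordinates of `J`, the coordinates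
outside `J` being fixed to the values of `ω`. -/
noncomputable def co (p : ℝ) (f : (α → Bool) → ℝ) (J F : Finset α) (ω : α → Bool) : ℝ :=
  Ex p (fun y => f (J.piecewise y ω) * chi p F y)

/-- The `p`-biased Fourier coefficient of `f` at `S`. -/
noncomputable def fh (p : ℝ) (f : (α → Bool) → ℝ) (S : Finset α) : ℝ :=
  Ex p (fun y => f y * chi p S y)

/-- Mass of `F` under the law of `S ∩ J`, where `S` is a spectral sample of `f`. -/
noncomputable def Q (p : ℝ) (f : (α → Bool) → ℝ) (J F : Finset α) : ℝ :=
  Ex p (fun ω => co p f J F ω ^ 2)

/-- Influence of the coordinate `i` on the restriction of `f` to `J` (outside fixed to `ω`); for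
`±1`-valued `f` it is the probability that `i` is pivotal. -/
noncomputable def infl (p : ℝ) (f : (α → Bool) → ℝ) (J : Finset α) (i : α) (ω : α → Bool) : ℝ :=
  Ex p (fun y => (f (J.piecewise (Function.update y i true) ω) -
    f (J.piecewise (Function.update y i false) ω)) ^ 2) / 4

/-- Influence of the coordinate `i` on `f`. -/
noncomputable def tinf (p : ℝ) (f : (α → Bool) → ℝ) (i : α) : ℝ :=
  Ex p (fun y => (f (Function.update y i true) - f (Function.update y i false)) ^ 2) / 4

/-- The weights `θ(F) = 1/|F|` for `1 ≤ |F| ≤ k`, and `0` otherwise. -/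
noncomputable def th (k : ℕ) (F : Finset α) : ℝ :=
  if 1 ≤ F.card ∧ F.card ≤ k then 1 / (F.card : ℝ) else 0

/-- The set of coordinates which are `true` in `ω`. -/
def tset (ω : α → Bool) : Finset α := univ.filter (fun i => ω i = true)

/-- The variance of `f` in terms of the Fourier coefficients. -/
noncomputable def Vr (p : ℝ) (f : (α → Bool) → ℝ) : ℝ :=
  ∑ S ∈ univ.filter (fun S : Finset α => S.Nonempty), fh p f S ^ 2

/-- `f` takes only the values `1` and `-1`. -/
def IsSign (f : (α → Bool) → ℝ) : Prop := ∀ ω, f ω = 1 ∨ f ω = -1

/-- The `r`-subsets of `Fin n`, i.e. the possible edges. -/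
abbrev Edge (n r : ℕ) : Type := {e : Finset (Fin n) // e.card = r}

/-- Action of a vertex permutation on the edges. -/
def act {n r : ℕ} (σ : Equiv.Perm (Fin n)) (e : Edge n r) : Edge n r :=
  ⟨e.1.map σ.toEmbedding, by rw [Finset.card_map]; exact e.2⟩

/-- `f` is invariant under all vertex permutations. -/
def IsInv {n r : ℕ} (f : (Edge n r → Bool) → ℝ) : Prop :=
  ∀ (σ : Equiv.Perm (Fin n)) (ω : Edge n r → Bool), f (fun e => ω (act σ e)) = f ω

/-- Number of vertices touched by a set of edges. -/
def tv {n r : ℕ} (F : Finset (Edge n r)) : ℕ := (F.biUnion (fun e => e.1)).card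

end P063K
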