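import Vale.Agent.P063K.Basic

open Finset

namespace P063K

variable {α : Type*} [Fintype α] [DecidableEq α]

lemma hy_le_of_sq {x y : ℝ} (h : x ^ 2 ≤ y ^ 2) (hy : 0 ≤ y) : x ≤ y := by
  by_contra hc
  push Not at hc
  nlinarith

/-- Splitting a sum over all finsets according to membership of `i`. -/
lemma hy_split (i : α) (g : Finset α → ℝ) :
    ∑ F : Finset α, g F = ∑ F : Finset α, (if i ∈ F then 0 else g F) +
      ∑ F : Finset α, (if i ∈ F then 0 else g (insert i F)) := by
  have key : ∀ g : Finset α → ℝ, ∑ F : Finset α, g F =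
      ∑ F ∈ (univ.erase i).powerset, g F + ∑ F ∈ (univ.erase i).powerset, g (insert i F) := by
    intro g
    rw [← Finset.sum_powerset_insert (Finset.notMem_erase i univ) g,
      Finset.insert_erase (Finset.mem_univ i), Finset.powerset_univ]
  have h2 : ∀ g : Finset α → ℝ, ∑ F : Finset α, (if i ∈ F then 0 else g F) =
      ∑ F ∈ (univ.erase i).powerset, g F := by
    intro g
    rw [key]
    have e1 : ∑ F ∈ (univ.erase i).powerset, (if i ∈ insert i F then 0 else g (insert i F)) = 0 := by
      apply Finset.sum_eq_zero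
      intro F _
      simp
    rw [e1, add_zero]
    apply Finset.sum_congr rfl
    intro F hF
    have : i ∉ F := fun h => by
      have := Finset.mem_powerset.mp hF h
      simp at this
    simp [this]
  rw [h2, h2 (fun F => g (insert i F)), key]

lemma hy_chi_insert (p : ℝ) {i : α} {F : Finset α} (hi : i ∉ F) (y : α → Bool) :
    chi p (insert i F) y = ph p (y i) * chi p F y := by
  unfold chi
  rw [Finset.prod_insert hi]

lemma hy_chi_update (p : ℝ) {i : α} {F : Finset α} (hi : i ∉ F) (y : α → Bool) (b : Bool) :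
    chi p F (Function.update y i b) = chi p F y := by
  unfold chi
  apply Finset.prod_congr rfl
  intro j hj
  have : j ≠ i := fun h => hi (h ▸ hj)
  rw [Function.update_of_ne this]

/-- the part of `a` not containing `i`. -/
noncomputable def hyLo (i : α) (a : Finset α → ℝ) (F : Finset α) : ℝ := if i ∈ F then 0 else a F

/-- the part of `a` containing `i`, shifted. -/
noncomputable def hyHi (i : α) (a : Finset α → ℝ) (F : Finset α) : ℝ :=
  if i ∈ F then 0 else a (insert i F)

lemma hy_expand (p : ℝ) (i : α) (a : Finset α → ℝ) (y : α → Bool) :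
    ∑ F : Finset α, a F * chi p F y = ∑ F : Finset α, hyLo i a F * chi p F y +
      ph p (y i) * ∑ F : Finset α, hyHi i a F * chi p F y := by
  rw [hy_split i (fun F => a F * chi p F y), Finset.mul_sum]
  congr 1
  · apply Finset.sum_congr rfl
    intro F _
    unfold hyLo
    split_ifs <;> simp
  · apply Finset.sum_congr rfl
    intro F _
    unfold hyHi
    split_ifs with h
    · simp
    · rw [hy_chi_insert p h]; ring

lemma hy_sq (i : α) (a : Finset α → ℝ) :
    ∑ F : Finset α, a F ^ 2 = ∑ F : Finset α, hyLo i a F ^ 2 + ∑ F : Finset α, hyHi i a F ^ 2 := by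
  rw [hy_split i (fun F => a F ^ 2)]
  congr 1
  · apply Finset.sum_congr rfl
    intro F _
    unfold hyLo
    split_ifs <;> simp
  · apply Finset.sum_congr rfl
    intro F _
    unfold hyHi
    split_ifs <;> simp

lemma hy_indep (p : ℝ) (i : α) (a : Finset α → ℝ) (ha : ∀ F, i ∈ F → a F = 0) (y : α → Bool)
    (b : Bool) : ∑ F : Finset α, a F * chi p F (Function.update y i b) =
      ∑ F : Finset α, a F * chi p F y := by
  apply Finset.sum_congr rfl
  intro F _
  by_cases h : i ∈ F
  · simp [ha F h]
  · rw [hy_chi_update p h]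

/-- Cauchy-Schwarz. -/
lemma hy_cs {p : ℝ} (h0 : 0 ≤ p) (h1 : p ≤ 1) (u v : (α → Bool) → ℝ) :
    (Ex p (fun ω => u ω * v ω)) ^ 2 ≤ Ex p (fun ω => u ω ^ 2) * Ex p (fun ω => v ω ^ 2) := by
  have h := Finset.sum_mul_sq_le_sq_mul_sq (Finset.univ : Finset (α → Bool))
    (fun ω => √(W p ω) * u ω) (fun ω => √(W p ω) * v ω)
  have e : ∀ ω : α → Bool, √(W p ω) * √(W p ω) = W p ω := fun ω =>
    Real.mul_self_sqrt (W_nonneg h0 h1 ω)
  have e1 : ∑ ω : α → Bool, (√(W p ω) * u ω) * (√(W p ω) * v ω) = Ex p (fun ω => u ω * v ω) := by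
    unfold Ex
    apply Finset.sum_congr rfl
    intro ω _
    linear_combination (u ω * v ω) * e ω
  have e2 : ∀ w : (α → Bool) → ℝ, ∑ ω : α → Bool, (√(W p ω) * w ω) ^ 2 = Ex p (fun ω => w ω ^ 2) := by
    intro w
    unfold Ex
    apply Finset.sum_congr rfl
    intro ω _
    linear_combination (w ω ^ 2) * e ω
  rw [e1, e2, e2] at h
  exact h

lemma hy_ph_true {p : ℝ} : ph p true = √((1 - p) / p) := by simp [ph]

lemma hy_ph_false {p : ℝ} : ph p false = -√(p / (1 - p)) := by simp [ph]

/-- parametrisation by `t = √((1-p)/p)`. -/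
lemma hy_param {p : ℝ} (h0 : 0 < p) (h1 : p < 1) : ∃ t : ℝ, 0 < t ∧ ph p true = t ∧
    ph p false = -(1 / t) ∧ p = 1 / (1 + t ^ 2) := by
  have hq : 0 < 1 - p := by linarith
  refine ⟨√((1 - p) / p), Real.sqrt_pos.mpr (by positivity), hy_ph_true, ?_, ?_⟩
  · rw [hy_ph_false]
    congr 1
    rw [one_div, ← Real.sqrt_inv, inv_div]
  · rw [Real.sq_sqrt (by positivity)]
    field_simp
    ring

lemma hy_point {p : ℝ} (h0 : 0 < p) (h1 : p < 1) (A D : ℝ) :
    (1 - p) * (A + ph p false * D) ^ 4 + p * (A + ph p true * D) ^ 4 ≤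
      A ^ 4 + 2 * (1 / (p * (1 - p))) * (A ^ 2 * D ^ 2) + (1 / (p * (1 - p))) ^ 2 * D ^ 4 := by
  obtain ⟨t, ht, e1, e2, e3⟩ := hy_param h0 h1
  rw [e1, e2]
  have hB : 1 / (p * (1 - p)) = (t + 1 / t) ^ 2 := by
    rw [e3]
    field_simp
    ring
  rw [hB]
  have hid : (1 - p) * (A + -(1 / t) * D) ^ 4 + p * (A + t * D) ^ 4 =
      A ^ 4 + 6 * A ^ 2 * D ^ 2 + 4 * (t - 1 / t) * (A * D ^ 3) +
        (t ^ 2 - 1 + (1 / t) ^ 2) * D ^ 4 := by
    rw [e3]
    field_simp
    ring
  rw [hid]
  set s := 1 / t with hs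
  have hts : t * s = 1 := by rw [hs]; field_simp
  have hB4 : (t + s) ^ 2 = (t - s) ^ 2 + 4 := by nlinarith
  have h2 : t ^ 2 - 1 + s ^ 2 = (t - s) ^ 2 + 1 := by nlinarith
  rw [hB4, h2]
  set β := t - s with hβ
  nlinarith [sq_nonneg (β * A * D - D ^ 2), sq_nonneg (A * D), sq_nonneg (D ^ 2),
    mul_nonneg (sq_nonneg β) (sq_nonneg (D ^ 2)), mul_nonneg (sq_nonneg (β ^ 2)) (sq_nonneg (D ^ 2))]

lemma hy_B_ge {p : ℝ} (h0 : 0 < p) (h1 : p < 1) : 1 ≤ 1 / (p * (1 - p)) := by
  have hq : 0 < 1 - p := by linarith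
  rw [le_div_iff₀ (by positivity)]
  nlinarith

lemma hy_bonami_aux {p : ℝ} (h0 : 0 < p) (h1 : p < 1) (K : Finset α) :
    ∀ (k : ℕ) (a : Finset α → ℝ), (∀ F : Finset α, k < F.card → a F = 0) →
      (∀ F : Finset α, ¬ F ⊆ K → a F = 0) →
    Ex p (fun y => (∑ F : Finset α, a F * chi p F y) ^ 4) ≤
      ((1 / (p * (1 - p))) ^ k) ^ 2 * (∑ F : Finset α, a F ^ 2) ^ 2 := by
  induction K using Finset.induction_on with
  | empty =>
    intro k a _ ha
    have e1 : ∀ y : α → Bool, ∑ F : Finset α, a F * chi p F y = a ∅ := by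
      intro y
      rw [Finset.sum_eq_single ∅]
      · simp [chi]
      · intro F _ hF
        rw [ha F (by simpa using hF)]; simp
      · simp
    have e2 : ∑ F : Finset α, a F ^ 2 = a ∅ ^ 2 := by
      rw [Finset.sum_eq_single ∅]
      · intro F _ hF
        rw [ha F (by simpa using hF)]; simp
      · simp
    simp only [e1, e2]
    rw [Ex_const]
    have hB := hy_B_ge h0 h1
    have : 1 ≤ ((1 / (p * (1 - p))) ^ k) ^ 2 := one_le_pow₀ (one_le_pow₀ hB)
    nlinarith [sq_nonneg (a ∅ ^ 2)]
  | insert i K hiK ih =>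
    intro k a hk ha
    set B := 1 / (p * (1 - p)) with hBdef
    have hB : 1 ≤ B := hy_B_ge h0 h1
    set A : (α → Bool) → ℝ := fun y => ∑ F : Finset α, hyLo i a F * chi p F y with hA
    set D : (α → Bool) → ℝ := fun y => ∑ F : Finset α, hyHi i a F * chi p F y with hD
    have hlo0 : ∀ F : Finset α, i ∈ F → hyLo i a F = 0 := fun F hF => by simp [hyLo, hF]
    have hhi0 : ∀ F : Finset α, i ∈ F → hyHi i a F = 0 := fun F hF => by simp [hyHi, hF]
    have hsub : ∀ F : Finset α, i ∉ F → ¬ F ⊆ K → ¬ F ⊆ insert i K := by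
      intro F hi hF h
      apply hF
      intro x hx
      rcases Finset.mem_insert.mp (h hx) with e | e
      · exact absurd (e ▸ hx) hi
      · exact e
    have hloK : ∀ F : Finset α, ¬ F ⊆ K → hyLo i a F = 0 := by
      intro F hF
      unfold hyLo
      split_ifs with h
      · rfl
      · exact ha F (hsub F h hF)
    have hhiK : ∀ F : Finset α, ¬ F ⊆ K → hyHi i a F = 0 := by
      intro F hF
      unfold hyHi
      split_ifs with h
      · rfl
      · apply ha
        intro h2
        exact hsub F h hF (fun x hx => h2 (Finset.mem_insert_of_mem hx))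
    have hlok : ∀ F : Finset α, k < F.card → hyLo i a F = 0 := by
      intro F hF
      unfold hyLo
      split_ifs with h
      · rfl
      · exact hk F hF
    have hcardI : ∀ F : Finset α, i ∉ F → (insert i F).card = F.card + 1 := fun F h =>
      Finset.card_insert_of_notMem h
    -- moments
    have hEA := ih k (hyLo i a) hlok hloK
    set SA := ∑ F : Finset α, hyLo i a F ^ 2 with hSA
    set SD := ∑ F : Finset α, hyHi i a F ^ 2 with hSD
    have hSA0 : 0 ≤ SA := Finset.sum_nonneg fun _ _ => sq_nonneg _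
    have hSD0 : 0 ≤ SD := Finset.sum_nonneg fun _ _ => sq_nonneg _
    have hEA' : Ex p (fun y => A y ^ 4) ≤ (B ^ k * SA) ^ 2 := by
      rw [mul_pow]; exact hEA
    have hED' : B ^ 2 * Ex p (fun y => D y ^ 4) ≤ (B ^ k * SD) ^ 2 := by
      rcases Nat.eq_zero_or_pos k with hk0 | hk0
      · have hz : ∀ F : Finset α, hyHi i a F = 0 := by
          intro F
          unfold hyHi
          split_ifs with h
          · rfl
          · apply hk
            rw [hcardI F h]; omega
        have : Ex p (fun y => D y ^ 4) = 0 := by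
          have : (fun y => D y ^ 4) = fun _ : α → Bool => (0 : ℝ) := by
            funext y
            simp [hD, hz]
          rw [this, Ex_const]
        rw [this, mul_zero]
        positivity
      · obtain ⟨m, rfl⟩ : ∃ m, k = m + 1 := ⟨k - 1, by omega⟩
        have hhik : ∀ F : Finset α, m < F.card → hyHi i a F = 0 := by
          intro F hF
          unfold hyHi
          split_ifs with h
          · rfl
          · apply hk
            rw [hcardI F h]; omega
        have h3 := ih m (hyHi i a) hhik hhiK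
        calc B ^ 2 * Ex p (fun y => D y ^ 4) ≤ B ^ 2 * ((B ^ m) ^ 2 * SD ^ 2) :=
              mul_le_mul_of_nonneg_left h3 (by positivity)
          _ = (B ^ (m + 1) * SD) ^ 2 := by ring
    have hEA0 : 0 ≤ Ex p (fun y => A y ^ 4) := Ex_nonneg h0.le h1.le (fun _ => by positivity)
    have hED0 : 0 ≤ Ex p (fun y => D y ^ 4) := Ex_nonneg h0.le h1.le (fun _ => by positivity)
    have hEAD0 : 0 ≤ Ex p (fun y => A y ^ 2 * D y ^ 2) :=
      Ex_nonneg h0.le h1.le (fun _ => by positivity)
    have hCS : (Ex p (fun y => A y ^ 2 * D y ^ 2)) ^ 2 ≤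
        Ex p (fun y => A y ^ 4) * Ex p (fun y => D y ^ 4) := by
      have := hy_cs h0.le h1.le (fun y => A y ^ 2) (fun y => D y ^ 2)
      simp only [← pow_mul] at this
      exact this
    have hEAD : B * Ex p (fun y => A y ^ 2 * D y ^ 2) ≤ (B ^ k * SA) * (B ^ k * SD) := by
      have h5 : (B * Ex p (fun y => A y ^ 2 * D y ^ 2)) ^ 2 ≤ ((B ^ k * SA) * (B ^ k * SD)) ^ 2 := by
        calc (B * Ex p (fun y => A y ^ 2 * D y ^ 2)) ^ 2
            = B ^ 2 * (Ex p (fun y => A y ^ 2 * D y ^ 2)) ^ 2 := by ring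
          _ ≤ B ^ 2 * (Ex p (fun y => A y ^ 4) * Ex p (fun y => D y ^ 4)) :=
              mul_le_mul_of_nonneg_left hCS (by positivity)
          _ = Ex p (fun y => A y ^ 4) * (B ^ 2 * Ex p (fun y => D y ^ 4)) := by ring
          _ ≤ (B ^ k * SA) ^ 2 * (B ^ k * SD) ^ 2 :=
              mul_le_mul hEA' hED' (by positivity) (by positivity)
          _ = ((B ^ k * SA) * (B ^ k * SD)) ^ 2 := by ring
      exact hy_le_of_sq h5 (by positivity)
    -- expansion
    have hexp : Ex p (fun y => (∑ F : Finset α, a F * chi p F y) ^ 4) ≤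
        Ex p (fun y => A y ^ 4) + 2 * B * Ex p (fun y => A y ^ 2 * D y ^ 2) +
          B ^ 2 * Ex p (fun y => D y ^ 4) := by
      rw [Ex_avg p i]
      have hAi : ∀ y b, A (Function.update y i b) = A y := fun y b => hy_indep p i _ hlo0 y b
      have hDi : ∀ y b, D (Function.update y i b) = D y := fun y b => hy_indep p i _ hhi0 y b
      have hpt : ∀ y : α → Bool,
          (1 - p) * (∑ F : Finset α, a F * chi p F (Function.update y i false)) ^ 4 +
            p * (∑ F : Finset α, a F * chi p F (Function.update y i true)) ^ 4 ≤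
          (A y ^ 4 + 2 * B * (A y ^ 2 * D y ^ 2)) + B ^ 2 * D y ^ 4 := by
        intro y
        rw [hy_expand p i a (Function.update y i false), hy_expand p i a (Function.update y i true)]
        have e1 := hAi y false
        have e2 := hAi y true
        have e3 := hDi y false
        have e4 := hDi y true
        simp only [hA, hD] at e1 e2 e3 e4
        rw [e1, e2, e3, e4, Function.update_self, Function.update_self]
        exact hy_point h0 h1 (A y) (D y)
      refine (Ex_mono h0.le h1.le hpt).trans (le_of_eq ?_)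
      rw [Ex_add, Ex_add, Ex_mul_left, Ex_mul_left]
    have hfin : ∑ F : Finset α, a F ^ 2 = SA + SD := hy_sq i a
    rw [hfin]
    calc _ ≤ _ := hexp
      _ ≤ (B ^ k * SA) ^ 2 + 2 * ((B ^ k * SA) * (B ^ k * SD)) + (B ^ k * SD) ^ 2 := by linarith
      _ = (B ^ k) ^ 2 * (SA + SD) ^ 2 := by ring

/-- Bonami's lemma for the `p`-biased cube, with constant `B = 1/(p(1-p))`. -/
theorem bonami {p : ℝ} (h0 : 0 < p) (h1 : p < 1) (a : Finset α → ℝ) (k : ℕ)
    (ha : ∀ F : Finset α, k < F.card → a F = 0) :
    Ex p (fun y => (∑ F : Finset α, a F * chi p F y) ^ 4) ≤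
      ((1 / (p * (1 - p))) ^ k) ^ 2 * (∑ F : Finset α, a F ^ 2) ^ 2 :=
  hy_bonami_aux h0 h1 Finset.univ k a ha (fun F hF => absurd (Finset.subset_univ F) hF)

/-- KKL-type bound: low-level weight containing a coordinate of small influence. -/
theorem level_infl {p : ℝ} (h0 : 0 < p) (h1 : p < 1) {f : (α → Bool) → ℝ} (hf : IsSign f)
    (J : Finset α) {i : α} (hi : i ∈ J) (ω : α → Bool) (k : ℕ) :
    ∑ F ∈ J.powerset.filter (fun F => i ∈ F ∧ F.card ≤ k), co p f J F ω ^ 2 ≤
      infl p f J i ω * √(infl p f J i ω) * (1 / (p * (1 - p))) ^ k := by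
  set B := 1 / (p * (1 - p)) with hBdef
  have hB : 1 ≤ B := hy_B_ge h0 h1
  set S := J.powerset.filter (fun F => i ∈ F ∧ F.card ≤ k) with hS
  set x : Finset α → ℝ := fun F => if F ∈ S then co p f J F ω else 0 with hx
  set s := ∑ F ∈ S, co p f J F ω ^ 2 with hs
  have hs0 : 0 ≤ s := Finset.sum_nonneg fun _ _ => sq_nonneg _
  have hsx : ∑ F : Finset α, x F ^ 2 = s := by
    rw [hs, ← Finset.sum_subset (Finset.subset_univ S)]
    · apply Finset.sum_congr rfl
      intro F hF
      simp [hx, hF]
    · intro F _ hF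
      simp [hx, hF]
  have hlo : ∀ F : Finset α, hyLo i x F = 0 := by
    intro F
    unfold hyLo
    split_ifs with h
    · rfl
    · have : F ∉ S := by
        rw [hS, Finset.mem_filter]
        rintro ⟨_, h2, _⟩
        exact h h2
      simp [hx, this]
  set c := hyHi i x with hc
  have hsc : ∑ F : Finset α, c F ^ 2 = s := by
    have := hy_sq i x
    rw [hsx] at this
    simp only [hlo] at this
    rw [this]; simp [hc]
  have hck : ∀ F : Finset α, k < F.card → c F = 0 := by
    intro F hF
    rw [hc]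
    unfold hyHi
    split_ifs with h
    · rfl
    · have : insert i F ∉ S := by
        rw [hS, Finset.mem_filter]
        rintro ⟨_, _, h3⟩
        rw [Finset.card_insert_of_notMem h] at h3
        omega
      simp [hx, this]
  have hc0 : ∀ F : Finset α, i ∈ F → c F = 0 := fun F hF => by simp [hc, hyHi, hF]
  set g : (α → Bool) → ℝ := fun y => ∑ F : Finset α, c F * chi p F y with hg
  have hgi : ∀ y b, g (Function.update y i b) = g y := fun y b => hy_indep p i _ hc0 y b
  have hg4 : Ex p (fun y => g y ^ 4) ≤ (B ^ k) ^ 2 * s ^ 2 := by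
    have := bonami h0 h1 c k hck
    rw [hsc] at this
    exact this
  set u : (α → Bool) → ℝ := fun y => f (J.piecewise y ω) with hu
  have hsE : s = Ex p (fun y => u y * (ph p (y i) * g y)) := by
    have e1 : ∀ y : α → Bool, ph p (y i) * g y = ∑ F : Finset α, x F * chi p F y := by
      intro y
      rw [hy_expand p i x y]
      simp [hlo, hg, hc]
    simp only [e1]
    have e2 : (fun y => u y * ∑ F : Finset α, x F * chi p F y) =
        fun y => ∑ F : Finset α, x F * (u y * chi p F y) := by
      funext y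
      rw [Finset.mul_sum]
      apply Finset.sum_congr rfl
      intro F _
      ring
    rw [e2, Ex_sum]
    rw [← hsx]
    apply Finset.sum_congr rfl
    intro F _
    rw [Ex_mul_left]
    by_cases h : F ∈ S
    · simp only [hx, h, if_true]
      rw [sq]
      rfl
    · simp [hx, h]
  set piv : (α → Bool) → ℝ := fun y => (f (J.piecewise (Function.update y i true) ω) -
    f (J.piecewise (Function.update y i false) ω)) ^ 2 / 4 with hpiv
  have hP : infl p f J i ω = Ex p piv := by
    unfold infl
    rw [hpiv]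
    have : (fun y => (f (J.piecewise (Function.update y i true) ω) -
      f (J.piecewise (Function.update y i false) ω)) ^ 2 / 4) = fun y : α → Bool =>
      (f (J.piecewise (Function.update y i true) ω) -
      f (J.piecewise (Function.update y i false) ω)) ^ 2 * (1 / 4) := by
      funext y; ring
    rw [this, Ex_mul_right]
    ring
  have hpiv2 : ∀ y, piv y ^ 2 = piv y := by
    intro y
    simp only [hpiv]
    rcases hf (J.piecewise (Function.update y i true) ω) with h | h <;>
    rcases hf (J.piecewise (Function.update y i false) ω) with h' | h' <;>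
    rw [h, h'] <;> norm_num
  have hpiv0 : ∀ y, 0 ≤ piv y := fun y => by simp only [hpiv]; positivity
  have hP0 : 0 ≤ Ex p piv := Ex_nonneg h0.le h1.le hpiv0
  have hsle : s ≤ Ex p (fun y => piv y * (piv y * |g y|)) := by
    rw [hsE, Ex_avg p i]
    apply Ex_mono h0.le h1.le
    intro y
    rw [hgi y false, hgi y true, Function.update_self, Function.update_self]
    obtain ⟨t, ht, e1, e2, e3⟩ := hy_param h0 h1
    have hm1 : (1 - p) * ph p false = -(t / (1 + t ^ 2)) := by
      rw [e2, e3]; field_simp; ring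
    have hm2 : p * ph p true = t / (1 + t ^ 2) := by
      rw [e1, e3]; field_simp
    have hr : t / (1 + t ^ 2) ≤ 1 / 2 := by
      rw [div_le_div_iff₀ (by positivity) (by norm_num)]
      nlinarith [sq_nonneg (t - 1)]
    have hr0 : 0 ≤ t / (1 + t ^ 2) := by positivity
    set r := t / (1 + t ^ 2) with hrdef
    have hL : (1 - p) * (u (Function.update y i false) * (ph p false * g y)) +
        p * (u (Function.update y i true) * (ph p true * g y)) =
        r * (u (Function.update y i true) - u (Function.update y i false)) * g y := by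
      calc _ = ((1 - p) * ph p false) * (u (Function.update y i false) * g y) +
            (p * ph p true) * (u (Function.update y i true) * g y) := by ring
        _ = _ := by rw [hm1, hm2]; ring
    rw [hL]
    have hR : piv y * (piv y * |g y|) = piv y * |g y| := by
      rw [← mul_assoc, ← sq, hpiv2]
    rw [hR]
    have habs : |r * (u (Function.update y i true) - u (Function.update y i false))| ≤ piv y := by
      rw [abs_mul, abs_of_nonneg hr0]
      simp only [hpiv, hu]
      rcases hf (J.piecewise (Function.update y i true) ω) with h | h <;>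
      rcases hf (J.piecewise (Function.update y i false) ω) with h' | h' <;>
      rw [h, h'] <;> norm_num <;> linarith
    calc r * (u (Function.update y i true) - u (Function.update y i false)) * g y
        ≤ |r * (u (Function.update y i true) - u (Function.update y i false)) * g y| := le_abs_self _
      _ = |r * (u (Function.update y i true) - u (Function.update y i false))| * |g y| := abs_mul _ _
      _ ≤ piv y * |g y| := mul_le_mul_of_nonneg_right habs (abs_nonneg _)
  set P := Ex p piv with hPdef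
  have hE2 : (Ex p (fun y => piv y * (piv y * |g y|))) ^ 2 ≤ P * Ex p (fun y => piv y * g y ^ 2) := by
    have := hy_cs h0.le h1.le piv (fun y => piv y * |g y|)
    have e1 : (fun y => piv y ^ 2) = piv := funext hpiv2
    have e2 : (fun y => (piv y * |g y|) ^ 2) = fun y => piv y * g y ^ 2 := by
      funext y
      rw [mul_pow, hpiv2, sq_abs]
    rw [e1, e2] at this
    exact this
  have hE3 : (Ex p (fun y => piv y * g y ^ 2)) ^ 2 ≤ P * Ex p (fun y => g y ^ 4) := by
    have := hy_cs h0.le h1.le piv (fun y => g y ^ 2)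
    have e1 : (fun y => piv y ^ 2) = piv := funext hpiv2
    simp only [← pow_mul] at this
    simp only [hpiv2] at this
    exact this
  set T := Ex p (fun y => piv y * g y ^ 2) with hT
  have hT0 : 0 ≤ T := Ex_nonneg h0.le h1.le (fun y => mul_nonneg (hpiv0 y) (sq_nonneg _))
  have hs2 : s ^ 2 ≤ P * T := (pow_le_pow_left₀ hs0 hsle 2).trans hE2
  have hT2 : T ^ 2 ≤ P * ((B ^ k) ^ 2 * s ^ 2) :=
    hE3.trans (mul_le_mul_of_nonneg_left hg4 hP0)
  have hs4 : s ^ 2 * s ^ 2 ≤ (P ^ 3 * (B ^ k) ^ 2) * s ^ 2 := by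
    calc s ^ 2 * s ^ 2 ≤ (P * T) * (P * T) :=
          mul_le_mul hs2 hs2 (sq_nonneg _) (mul_nonneg hP0 hT0)
      _ = P ^ 2 * T ^ 2 := by ring
      _ ≤ P ^ 2 * (P * ((B ^ k) ^ 2 * s ^ 2)) := mul_le_mul_of_nonneg_left hT2 (sq_nonneg _)
      _ = _ := by ring
  rw [hP]
  have hBk : 0 ≤ B ^ k := by positivity
  have hRn : 0 ≤ P * √P * B ^ k := by positivity
  rcases hs0.eq_or_lt with h | h
  · rw [← h]; exact hRn
  · have h6 : s ^ 2 ≤ P ^ 3 * (B ^ k) ^ 2 := le_of_mul_le_mul_right hs4 (by positivity)
    have h7 : (P * √P * B ^ k) ^ 2 = P ^ 3 * (B ^ k) ^ 2 := by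
      rw [mul_pow, mul_pow, Real.sq_sqrt hP0]; ring
    rw [← h7] at h6
    exact hy_le_of_sq h6 hRn

end P063K
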