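import Vale.Agent.P063K.Basic

open Finset

namespace P063K

variable {α : Type*} [Fintype α] [DecidableEq α]

omit [DecidableEq α] in
lemma ra_mem_tset (ω : α → Bool) (i : α) : i ∈ tset ω ↔ ω i = true := by
  simp [tset]

/-- Probability that all of `A` is in the random set and nothing of `B`. -/
lemma ra_prob (δ : ℝ) {A B : Finset α} (h : Disjoint A B) :
    Ex δ (fun ω => if (A ⊆ tset ω ∧ Disjoint B (tset ω)) then (1 : ℝ) else 0) =
      δ ^ A.card * (1 - δ) ^ B.card := by
  set g : α → Bool → ℝ := fun i b => if i ∈ A then (if b then 1 else 0) else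
    (if i ∈ B then (if b then 0 else 1) else 1) with hg
  have h1 : ∀ ω : α → Bool, (if (A ⊆ tset ω ∧ Disjoint B (tset ω)) then (1 : ℝ) else 0) =
      ∏ i, g i (ω i) := by
    intro ω
    split_ifs with hc
    · symm
      apply prod_eq_one
      intro i _
      simp only [hg]
      split_ifs with hA hω hB hω
      · rfl
      · exact absurd ((ra_mem_tset ω i).1 (hc.1 hA)) hω
      · exact absurd ((ra_mem_tset ω i).2 hω) (fun h' => (disjoint_left.1 hc.2) hB h')
      · rfl
      · rfl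
    · symm
      rw [not_and_or] at hc
      rcases hc with hc | hc
      · rw [not_subset] at hc
        obtain ⟨i, hiA, hi⟩ := hc
        apply prod_eq_zero (mem_univ i)
        rw [ra_mem_tset] at hi
        simp [hg, hiA, hi]
      · rw [not_disjoint_iff] at hc
        obtain ⟨i, hiB, hi⟩ := hc
        apply prod_eq_zero (mem_univ i)
        rw [ra_mem_tset] at hi
        have hiA : i ∉ A := fun h' => (disjoint_left.1 h) h' hiB
        simp [hg, hiA, hiB, hi]
  simp only [h1]
  rw [Ex_prod]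
  have h2 : ∀ i : α, (1 - δ) * g i false + δ * g i true =
      (if i ∈ A then δ else 1) * (if i ∈ B then 1 - δ else 1) := by
    intro i
    by_cases hA : i ∈ A
    · have hB : i ∉ B := fun h' => (disjoint_left.1 h) hA h'
      simp [hg, hA, hB]
    · by_cases hB : i ∈ B
      · simp [hg, hA, hB]
      · simp [hg, hA, hB]
  rw [prod_congr rfl (fun i _ => h2 i), prod_mul_distrib]
  congr 1
  · rw [prod_ite_mem, univ_inter, prod_const]
  · rw [prod_ite_mem, univ_inter, prod_const]

/-- The law of `S ∩ tset ω`. -/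
lemma ra_law (δ : ℝ) (S : Finset α) (h : Finset α → ℝ) :
    Ex δ (fun ω => h (S ∩ tset ω)) =
      ∑ F ∈ S.powerset, δ ^ F.card * (1 - δ) ^ (S.card - F.card) * h F := by
  have h1 : ∀ ω : α → Bool, h (S ∩ tset ω) = ∑ F ∈ S.powerset,
      h F * (if (F ⊆ tset ω ∧ Disjoint (S \ F) (tset ω)) then (1 : ℝ) else 0) := by
    intro ω
    rw [sum_eq_single_of_mem (S ∩ tset ω) (by simp)]
    · rw [if_pos, mul_one]
      refine ⟨inter_subset_right, ?_⟩
      rw [disjoint_left]
      intro i hi hi2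
      simp only [mem_sdiff, mem_inter, not_and] at hi
      exact hi.2 hi.1 hi2
    · intro F hF hne
      rw [if_neg, mul_zero]
      rintro ⟨ha, hb⟩
      apply hne
      rw [mem_powerset] at hF
      ext i
      rw [mem_inter]
      constructor
      · intro hi; exact ⟨hF hi, ha hi⟩
      · rintro ⟨hi1, hi2⟩
        by_contra hi3
        exact (disjoint_left.1 hb) (mem_sdiff.2 ⟨hi1, hi3⟩) hi2
  simp only [h1]
  rw [Ex_sum]
  refine sum_congr rfl fun F hF => ?_
  rw [mem_powerset] at hF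
  rw [Ex_mul_left, ra_prob δ disjoint_sdiff, card_sdiff_of_subset hF]
  ring

omit [Fintype α] [DecidableEq α] in
lemma ra_th_nonneg (k : ℕ) (F : Finset α) : 0 ≤ th k F := by
  unfold th
  split_ifs
  · exact div_nonneg zero_le_one (Nat.cast_nonneg _)
  · exact le_rfl

/-- Random set `J = tset ω` of density `δ`: `|S| E[θ(S ∩ J)] ≤ 2/δ`. -/
theorem randC1 {δ : ℝ} (h0 : 0 < δ) (h1 : δ ≤ 1) (k : ℕ) (S : Finset α) :
    (S.card : ℝ) * Ex δ (fun ω => th k (S ∩ tset ω)) ≤ 2 / δ := by
  have hq : 0 ≤ 1 - δ := by linarith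
  set N := S.card with hN
  have hE : Ex δ (fun ω => th k (S ∩ tset ω)) ≤
      Ex δ (fun ω => (fun F : Finset α => 2 / ((F.card : ℝ) + 1)) (S ∩ tset ω)) := by
    refine Ex_mono h0.le h1 fun ω => ?_
    unfold th
    split_ifs with hc
    · have h2 : (1 : ℝ) ≤ ((S ∩ tset ω).card : ℝ) := by exact_mod_cast hc.1
      rw [div_le_div_iff₀ (by linarith) (by linarith)]
      linarith
    · positivity
  rw [ra_law δ S (fun F : Finset α => 2 / ((F.card : ℝ) + 1))] at hE
  have hsum : ∑ F ∈ S.powerset, δ ^ F.card * (1 - δ) ^ (S.card - F.card) *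
      (fun F : Finset α => 2 / ((F.card : ℝ) + 1)) F =
      ∑ j ∈ range (N + 1), (N.choose j : ℝ) * (δ ^ j * (1 - δ) ^ (N - j) *
        (2 / ((j : ℝ) + 1))) := by
    have := Finset.sum_powerset_apply_card (x := S)
      (fun j : ℕ => δ ^ j * (1 - δ) ^ (N - j) * (2 / ((j : ℝ) + 1)))
    simp only [nsmul_eq_mul] at this
    simpa using this
  rw [hsum] at hE
  have hb := add_pow δ (1 - δ) (N + 1)
  have hone : δ + (1 - δ) = 1 := by ring
  rw [hone, one_pow, sum_range_succ'] at hb
  have hterm : ∀ j ∈ range (N + 1), (δ * (N + 1)) * ((N.choose j : ℝ) * (δ ^ j *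
      (1 - δ) ^ (N - j) * (2 / ((j : ℝ) + 1)))) =
      2 * (δ ^ (j + 1) * (1 - δ) ^ (N + 1 - (j + 1)) * ((N + 1).choose (j + 1) : ℝ)) := by
    intro j hj
    have hc : ((N : ℝ) + 1) * (N.choose j : ℝ) = ((N + 1).choose (j + 1) : ℝ) * ((j : ℝ) + 1) := by
      exact_mod_cast Nat.add_one_mul_choose_eq N j
    have hj1 : (j : ℝ) + 1 ≠ 0 := by positivity
    have he : N + 1 - (j + 1) = N - j := by omega
    rw [he]
    calc (δ * (N + 1)) * ((N.choose j : ℝ) * (δ ^ j * (1 - δ) ^ (N - j) * (2 / ((j : ℝ) + 1))))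
        = 2 * (δ ^ (j + 1) * (1 - δ) ^ (N - j)) *
          ((((N : ℝ) + 1) * (N.choose j : ℝ)) / ((j : ℝ) + 1)) := by ring
      _ = _ := by rw [hc, mul_div_assoc, div_self hj1]; ring
  have hle : (δ * (N + 1)) * ∑ j ∈ range (N + 1), (N.choose j : ℝ) * (δ ^ j *
      (1 - δ) ^ (N - j) * (2 / ((j : ℝ) + 1))) ≤ 2 := by
    rw [mul_sum, sum_congr rfl hterm, ← mul_sum]
    have hpos : 0 ≤ δ ^ 0 * (1 - δ) ^ (N + 1 - 0) * ((N + 1).choose 0 : ℝ) := by positivity
    linarith
  have hNn : (0 : ℝ) ≤ N := Nat.cast_nonneg N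
  have hEx0 : 0 ≤ Ex δ (fun ω => th k (S ∩ tset ω)) :=
    Ex_nonneg h0.le h1 fun ω => ra_th_nonneg k _
  rw [le_div_iff₀ h0]
  generalize Ex δ (fun ω => th k (S ∩ tset ω)) = E at hE hEx0 ⊢
  calc (N : ℝ) * E * δ
      ≤ (δ * (N + 1)) * E := by nlinarith [mul_nonneg h0.le hEx0]
    _ ≤ (δ * (N + 1)) * ∑ j ∈ range (N + 1), (N.choose j : ℝ) * (δ ^ j *
      (1 - δ) ^ (N - j) * (2 / ((j : ℝ) + 1))) :=
        mul_le_mul_of_nonneg_left hE (mul_nonneg h0.le (by linarith))
    _ ≤ 2 := hle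

/-- Fiber bound for the tails of minimal degree. -/
lemma ra_fiber {n r : ℕ} (hr : 2 ≤ r) (S : Finset (Edge n r)) (t : Edge n r → Fin n)
    (ht : ∀ e, t e ∈ e.1)
    (hmin : ∀ e, ∀ v ∈ e.1, (S.filter (fun e' => t e ∈ e'.1)).card ≤
      (S.filter (fun e' => v ∈ e'.1)).card) (v : Fin n) :
    ((S.filter (fun e => t e = v)).card : ℝ) ≤
      ((r : ℝ) * (S.card : ℝ)) ^ (((r : ℝ) - 1) / (r : ℝ)) := by
  set A := S.filter (fun e => t e = v) with hA
  set deg : Fin n → ℕ := fun w => (S.filter (fun e' => w ∈ e'.1)).card with hdeg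
  set H : Finset (Fin n) := univ.filter (fun w => deg v ≤ deg w) with hH
  -- double counting
  have hsum : ∑ w : Fin n, deg w = r * S.card := by
    simp only [hdeg, card_filter]
    rw [sum_comm]
    have : ∀ e ∈ S, ∑ w : Fin n, (if w ∈ e.1 then 1 else 0) = r := by
      intro e _
      rw [sum_ite_mem, univ_inter, sum_const, smul_eq_mul, mul_one]
      exact e.2
    rw [sum_congr rfl this, sum_const, smul_eq_mul, mul_comm]
  have hHd : H.card * deg v ≤ r * S.card := by
    rw [← hsum]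
    calc H.card * deg v = ∑ w ∈ H, deg v := by rw [sum_const, smul_eq_mul]
      _ ≤ ∑ w ∈ H, deg w := sum_le_sum fun w hw => (mem_filter.1 hw).2
      _ ≤ ∑ w : Fin n, deg w := sum_le_sum_of_subset (subset_univ _)
  have hAd : A.card ≤ deg v := by
    apply card_le_card
    intro e he
    rw [hA, mem_filter] at he
    rw [mem_filter]
    refine ⟨he.1, ?_⟩
    rw [← he.2]
    exact ht e
  have hAH : A.card ≤ H.card ^ (r - 1) := by
    have h1 : A.card ≤ (powersetCard (r - 1) H).card := by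
      refine card_le_card_of_injOn (fun e => e.1.erase v) ?_ ?_
      · intro e he
        simp only [hA, coe_filter, Set.mem_ofPred_eq] at he
        rw [mem_coe, mem_powersetCard]
        have hv : v ∈ e.1 := by rw [← he.2]; exact ht e
        refine ⟨?_, ?_⟩
        · intro w hw
          rw [hH, mem_filter]
          refine ⟨mem_univ _, ?_⟩
          have := hmin e w (mem_of_mem_erase hw)
          rw [he.2] at this
          exact this
        · rw [card_erase_of_mem hv, e.2]
      · intro e he e' he' hee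
        simp only [hA, coe_filter, Set.mem_ofPred_eq] at he he'
        have hv : v ∈ e.1 := by rw [← he.2]; exact ht e
        have hv' : v ∈ e'.1 := by rw [← he'.2]; exact ht e'
        apply Subtype.ext
        rw [← insert_erase hv, ← insert_erase hv']
        simp only at hee
        rw [hee]
    refine h1.trans ?_
    rw [card_powersetCard]
    exact Nat.choose_le_pow _ _
  -- combine
  have hpow : A.card ^ r ≤ (r * S.card) ^ (r - 1) := by
    obtain ⟨s, rfl⟩ : ∃ s, r = s + 1 := ⟨r - 1, by omega⟩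
    simp only [Nat.add_sub_cancel] at hAH ⊢
    calc A.card ^ (s + 1) = A.card * A.card ^ s := by ring
      _ ≤ H.card ^ s * (deg v) ^ s := Nat.mul_le_mul hAH (Nat.pow_le_pow_left hAd s)
      _ = (H.card * deg v) ^ s := by rw [mul_pow]
      _ ≤ _ := Nat.pow_le_pow_left hHd s
  have hr0 : (0 : ℝ) < r := by exact_mod_cast (show 0 < r by omega)
  have hpow' : ((A.card : ℝ)) ^ (r : ℝ) ≤ ((r : ℝ) * (S.card : ℝ)) ^ ((r : ℝ) - 1) := by
    have h2 : ((r : ℝ) - 1) = ((r - 1 : ℕ) : ℝ) := by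
      rw [Nat.cast_sub (by omega)]; simp
    rw [h2, Real.rpow_natCast, Real.rpow_natCast]
    exact_mod_cast hpow
  have hA0 : (0 : ℝ) ≤ (A.card : ℝ) := Nat.cast_nonneg _
  have hB0 : (0 : ℝ) ≤ (r : ℝ) * (S.card : ℝ) := by positivity
  calc (A.card : ℝ) = ((A.card : ℝ) ^ (r : ℝ)) ^ (1 / (r : ℝ)) := by
        rw [← Real.rpow_mul hA0, mul_one_div, div_self hr0.ne', Real.rpow_one]
    _ ≤ (((r : ℝ) * (S.card : ℝ)) ^ ((r : ℝ) - 1)) ^ (1 / (r : ℝ)) := by gcongr
    _ = _ := by
        rw [← Real.rpow_mul hB0]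
        congr 1
        ring

/-- The number of touched vertices of `S ∩ J` is at least a constant times `|S ∩ J|`, on average,
as long as `δ (r|S|)^{(r-1)/r} ≤ 1/2`. -/
theorem randC2 {n r : ℕ} (hr : 2 ≤ r) {δ : ℝ} (h0 : 0 < δ) (h1 : δ ≤ 1) (k : ℕ)
    (S : Finset (Edge n r)) (hN1 : 1 ≤ δ * (S.card : ℝ)) (hN2 : 8 * δ * (S.card : ℝ) ≤ k)
    (hN3 : δ * ((r : ℝ) * (S.card : ℝ)) ^ (((r : ℝ) - 1) / (r : ℝ)) ≤ 1 / 2) :
    1 / 32 ≤ Ex δ (fun ω => th k (S ∩ tset ω) * (tv (S ∩ tset ω) : ℝ)) := by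
  -- tails
  have htail : ∀ e : Edge n r, ∃ v ∈ e.1, ∀ w ∈ e.1, (S.filter (fun e' => v ∈ e'.1)).card ≤
      (S.filter (fun e' => w ∈ e'.1)).card := by
    intro e
    have hne : e.1.Nonempty := by
      rw [← card_pos, e.2]; omega
    obtain ⟨v, hv, hmin⟩ := exists_min_image e.1
      (fun v => (S.filter (fun e' : Edge n r => v ∈ e'.1)).card) hne
    exact ⟨v, hv, hmin⟩
  choose t ht hmin using htail
  have hfib := ra_fiber hr S t ht hmin
  set A : Edge n r → Finset (Edge n r) := fun e => (S.filter (fun e' => t e' = t e)).erase e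
    with hA
  -- counted edges
  set C : (Edge n r → Bool) → Finset (Edge n r) := fun ω =>
    S.filter (fun e => {e} ⊆ tset ω ∧ Disjoint (A e) (tset ω)) with hC
  have hCtv : ∀ ω, (C ω).card ≤ tv (S ∩ tset ω) := by
    intro ω
    unfold tv
    refine card_le_card_of_injOn t ?_ ?_
    · intro e he
      simp only [hC, coe_filter, Set.mem_ofPred_eq, singleton_subset_iff] at he
      simp only [coe_biUnion, Set.mem_iUnion]
      exact ⟨e, mem_coe.2 (mem_inter.2 ⟨he.1, he.2.1⟩), ht e⟩
    · intro e he e' he' hee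
      simp only [hC, coe_filter, Set.mem_ofPred_eq, singleton_subset_iff] at he he'
      by_contra hne
      have : e' ∈ A e := by
        simp only [hA, mem_erase, mem_filter]
        exact ⟨fun h => hne h.symm, he'.1, hee.symm⟩
      exact (disjoint_left.1 he.2.2) this he'.2.1
  have hCcard : ∀ ω, (C ω).card ≤ (S ∩ tset ω).card := by
    intro ω
    apply card_le_card
    intro e he
    simp only [hC, mem_filter, singleton_subset_iff] at he
    exact mem_inter.2 ⟨he.1, he.2.1⟩
  set μ : ℝ := δ * (S.card : ℝ) with hμ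
  have hμ0 : 0 < μ := by linarith
  -- pointwise inequality
  have hpt : ∀ ω, (1 / (8 * μ)) * (((C ω).card : ℝ) - (1 / (8 * μ)) *
      ((S ∩ tset ω).card : ℝ) ^ 2) ≤ th k (S ∩ tset ω) * (tv (S ∩ tset ω) : ℝ) := by
    intro ω
    set x : ℝ := ((S ∩ tset ω).card : ℝ) with hx
    have hx0 : 0 ≤ x := Nat.cast_nonneg _
    have hCx : ((C ω).card : ℝ) ≤ x := by rw [hx]; exact_mod_cast hCcard ω
    have hCt : ((C ω).card : ℝ) ≤ (tv (S ∩ tset ω) : ℝ) := by exact_mod_cast hCtv ω
    have hC0 : (0 : ℝ) ≤ (C ω).card := Nat.cast_nonneg _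
    have hth0 : 0 ≤ th k (S ∩ tset ω) := ra_th_nonneg k _
    have hi : 0 < 1 / (8 * μ) := by positivity
    by_cases hbig : x ≤ 8 * μ
    · by_cases hz : (S ∩ tset ω).card = 0
      · have hx0' : x = 0 := by rw [hx, hz]; simp
        have hC0' : ((C ω).card : ℝ) = 0 := le_antisymm (by linarith) hC0
        rw [hx0', hC0']
        have : 0 ≤ th k (S ∩ tset ω) * (tv (S ∩ tset ω) : ℝ) := by positivity
        simpa using this
      · have hx1 : 1 ≤ x := by
          rw [hx]; exact_mod_cast Nat.one_le_iff_ne_zero.2 hz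
        have hxk : (S ∩ tset ω).card ≤ k := by
          have : x ≤ k := by rw [hμ] at hbig; linarith
          rw [hx] at this
          exact_mod_cast this
        have hth : th k (S ∩ tset ω) = 1 / x := by
          unfold th
          rw [if_pos ⟨Nat.one_le_iff_ne_zero.2 hz, hxk⟩]
        rw [hth]
        calc (1 / (8 * μ)) * (((C ω).card : ℝ) - (1 / (8 * μ)) * x ^ 2)
            ≤ (1 / (8 * μ)) * ((C ω).card : ℝ) := by
              apply mul_le_mul_of_nonneg_left _ hi.le
              have : 0 ≤ (1 / (8 * μ)) * x ^ 2 := by positivity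
              linarith
          _ ≤ (1 / x) * (tv (S ∩ tset ω) : ℝ) := by
              apply mul_le_mul _ hCt hC0 (by positivity)
              exact one_div_le_one_div_of_le (by linarith) hbig
    · push Not at hbig
      have h3 : x ≤ (1 / (8 * μ)) * x ^ 2 := by
        have : 1 ≤ (1 / (8 * μ)) * x := by
          rw [one_div, inv_mul_eq_div, le_div_iff₀ (by positivity)]
          linarith
        nlinarith
      have h4 : (1 / (8 * μ)) * (((C ω).card : ℝ) - (1 / (8 * μ)) * x ^ 2) ≤ 0 := by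
        apply mul_nonpos_of_nonneg_of_nonpos hi.le
        linarith
      have : 0 ≤ th k (S ∩ tset ω) * (tv (S ∩ tset ω) : ℝ) := by positivity
      linarith
  have hE := Ex_mono h0.le h1 hpt
  rw [Ex_mul_left, Ex_sub, Ex_mul_left] at hE
  -- first moment of the counted edges
  have hEC : μ / 2 ≤ Ex δ (fun ω => ((C ω).card : ℝ)) := by
    have h2 : ∀ ω, ((C ω).card : ℝ) = ∑ e ∈ S,
        (if ({e} ⊆ tset ω ∧ Disjoint (A e) (tset ω)) then (1 : ℝ) else 0) := by
      intro ω
      simp only [hC, card_filter]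
      push_cast
      rfl
    simp only [h2]
    rw [Ex_sum]
    have h3 : ∀ e ∈ S, δ / 2 ≤ Ex δ (fun ω =>
        (if ({e} ⊆ tset ω ∧ Disjoint (A e) (tset ω)) then (1 : ℝ) else 0)) := by
      intro e he
      rw [ra_prob δ (by simp [hA]), card_singleton, pow_one]
      have h4 : ((A e).card : ℝ) ≤ ((r : ℝ) * (S.card : ℝ)) ^ (((r : ℝ) - 1) / (r : ℝ)) := by
        refine le_trans ?_ (hfib (t e))
        exact_mod_cast card_le_card (erase_subset _ _)
      have h5 : 1 / 2 ≤ (1 - δ) ^ (A e).card := by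
        have h6 := one_add_mul_le_pow (show -2 ≤ -δ by linarith) (A e).card
        have h7 : ((A e).card : ℝ) * δ ≤ 1 / 2 := by
          calc ((A e).card : ℝ) * δ ≤
              ((r : ℝ) * (S.card : ℝ)) ^ (((r : ℝ) - 1) / (r : ℝ)) * δ := by gcongr
            _ ≤ 1 / 2 := by linarith
        have h8 : (1 + -δ) = 1 - δ := by ring
        rw [h8] at h6
        linarith
      nlinarith
    calc μ / 2 = ∑ e ∈ S, δ / 2 := by rw [sum_const, nsmul_eq_mul, hμ]; ring
      _ ≤ _ := sum_le_sum h3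
  -- second moment of the size
  have hEX : Ex δ (fun ω => ((S ∩ tset ω).card : ℝ) ^ 2) ≤ μ + μ ^ 2 := by
    have h2 : ∀ ω, ((S ∩ tset ω).card : ℝ) ^ 2 = ∑ e ∈ S, ∑ e' ∈ S,
        (if (({e, e'} : Finset (Edge n r)) ⊆ tset ω ∧ Disjoint ∅ (tset ω)) then (1 : ℝ)
          else 0) := by
      intro ω
      have h3 : ((S ∩ tset ω).card : ℝ) = ∑ e ∈ S, (if e ∈ tset ω then (1 : ℝ) else 0) := by
        rw [← filter_mem_eq_inter, card_filter]
        push_cast
        rfl
      rw [h3, sq, sum_mul_sum]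
      refine sum_congr rfl fun e _ => sum_congr rfl fun e' _ => ?_
      by_cases ha : e ∈ tset ω <;> by_cases hb : e' ∈ tset ω <;>
        simp [insert_subset_iff, ha, hb]
    simp only [h2]
    rw [Ex_sum]
    have h4 : ∀ e ∈ S, Ex δ (fun ω => ∑ e' ∈ S,
        (if (({e, e'} : Finset (Edge n r)) ⊆ tset ω ∧ Disjoint ∅ (tset ω)) then (1 : ℝ)
          else 0)) ≤ δ + δ ^ 2 * (S.card : ℝ) := by
      intro e he
      rw [Ex_sum]
      have h5 : ∀ e' ∈ S, Ex δ (fun ω =>
        (if (({e, e'} : Finset (Edge n r)) ⊆ tset ω ∧ Disjoint ∅ (tset ω)) then (1 : ℝ)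
          else 0)) ≤ (if e = e' then δ else 0) + δ ^ 2 := by
        intro e' _
        rw [ra_prob δ (disjoint_empty_right _), card_empty, pow_zero, mul_one]
        split_ifs with hee
        · subst hee
          simp only [pair_eq_singleton, card_singleton, pow_one]
          nlinarith
        · rw [card_pair hee]
          linarith
      calc _ ≤ ∑ e' ∈ S, ((if e = e' then δ else 0) + δ ^ 2) := sum_le_sum h5
        _ = δ + δ ^ 2 * (S.card : ℝ) := by
          rw [sum_add_distrib, sum_ite_eq, if_pos he, sum_const, nsmul_eq_mul]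
          ring
    calc _ ≤ ∑ e ∈ S, (δ + δ ^ 2 * (S.card : ℝ)) := sum_le_sum h4
      _ = μ + μ ^ 2 := by
        rw [sum_const, nsmul_eq_mul, hμ]; ring
  refine le_trans ?_ hE
  have hi : 0 < 1 / (8 * μ) := by positivity
  have h9 : (1 / (8 * μ)) * Ex δ (fun ω => ((S ∩ tset ω).card : ℝ) ^ 2) ≤ μ / 4 := by
    calc (1 / (8 * μ)) * Ex δ (fun ω => ((S ∩ tset ω).card : ℝ) ^ 2)
        ≤ (1 / (8 * μ)) * (μ + μ ^ 2) := by gcongr
      _ = (1 + μ) / 8 := by field_simp
      _ ≤ μ / 4 := by linarith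
  calc (1 : ℝ) / 32 = (1 / (8 * μ)) * (μ / 4) := by field_simp; norm_num
    _ ≤ _ := by
      apply mul_le_mul_of_nonneg_left _ hi.le
      linarith

end P063K
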