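import Vale.Agent.P063K.Basic

open Finset

namespace P063K

/-- Permutations mapping `A` into `B`. -/
def sy_M {n : ℕ} (A B : Finset (Fin n)) : Finset (Equiv.Perm (Fin n)) :=
  univ.filter (fun σ : Equiv.Perm (Fin n) => ∀ a ∈ A, σ a ∈ B)

lemma sy_mem {n : ℕ} {A B : Finset (Fin n)} {σ : Equiv.Perm (Fin n)} :
    σ ∈ sy_M A B ↔ ∀ a ∈ A, σ a ∈ B := by
  simp [sy_M]

lemma sy_swap_le {n : ℕ} (A B : Finset (Fin n)) {a a' : Fin n} (ha : a ∉ A) (ha' : a' ∉ A) :
    (sy_M (insert a A) B).card ≤ (sy_M (insert a' A) B).card := by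
  apply Finset.card_le_card_of_injOn (fun σ => σ * Equiv.swap a a')
  · intro σ hσ
    rw [mem_coe, sy_mem] at hσ ⊢
    intro b hb
    rw [mem_insert] at hb
    rw [Equiv.Perm.mul_apply]
    rcases hb with rfl | hb
    · rw [Equiv.swap_apply_right]
      exact hσ a (mem_insert_self _ _)
    · have h1 : b ≠ a := by rintro rfl; exact ha hb
      have h2 : b ≠ a' := by rintro rfl; exact ha' hb
      rw [Equiv.swap_apply_of_ne_of_ne h1 h2]
      exact hσ b (mem_insert_of_mem hb)
  · intro σ _ τ _ h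
    exact mul_right_cancel h

lemma sy_swap {n : ℕ} (A B : Finset (Fin n)) {a a' : Fin n} (ha : a ∉ A) (ha' : a' ∉ A) :
    (sy_M (insert a A) B).card = (sy_M (insert a' A) B).card :=
  le_antisymm (sy_swap_le A B ha ha') (sy_swap_le A B ha' ha)

lemma sy_step {n : ℕ} (A B : Finset (Fin n)) {a : Fin n} (ha : a ∉ A) :
    (n - A.card) * (sy_M (insert a A) B).card = (sy_M A B).card * (B.card - A.card) := by
  have h1 : ∑ a' ∈ Aᶜ, (sy_M (insert a' A) B).card =
      (n - A.card) * (sy_M (insert a A) B).card := by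
    rw [sum_congr rfl (fun a' ha' => sy_swap A B (mem_compl.1 ha') ha), sum_const, smul_eq_mul,
      card_compl, Fintype.card_fin]
  rw [← h1]
  have h2 : ∀ a' : Fin n, (sy_M (insert a' A) B).card =
      ∑ σ ∈ sy_M A B, if σ a' ∈ B then 1 else 0 := by
    intro a'
    rw [← card_filter]
    congr 1
    ext σ
    rw [mem_filter, sy_mem, sy_mem]
    simp only [mem_insert, forall_eq_or_imp]
    tauto
  simp only [h2]
  rw [sum_comm]
  have h3 : ∀ σ ∈ sy_M A B, ∑ a' ∈ Aᶜ, (if σ a' ∈ B then 1 else 0) = B.card - A.card := by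
    intro σ hσ
    rw [sy_mem] at hσ
    rw [← card_filter]
    have e1 : Aᶜ.filter (fun a' => σ a' ∈ B) = (B.map σ.symm.toEmbedding) \ A := by
      ext b
      simp only [mem_filter, mem_compl, mem_sdiff, mem_map, Equiv.coe_toEmbedding]
      constructor
      · rintro ⟨h1, h2⟩
        exact ⟨⟨σ b, h2, by simp⟩, h1⟩
      · rintro ⟨⟨c, hc, rfl⟩, h1⟩
        exact ⟨h1, by simpa using hc⟩
    rw [e1, card_sdiff_of_subset, card_map]
    intro b hb
    rw [mem_map]
    exact ⟨σ b, hσ b hb, by simp⟩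
  rw [sum_congr rfl h3, sum_const, smul_eq_mul]

/-- Counting permutations mapping `A` into `B`: the proportion is at most `(|B|/n)^{|A|}`. -/
lemma perm_count (n : ℕ) (A B : Finset (Fin n)) :
    ((univ.filter (fun σ : Equiv.Perm (Fin n) => ∀ a ∈ A, σ a ∈ B)).card : ℝ) * (n : ℝ) ^ A.card ≤
      (n.factorial : ℝ) * (B.card : ℝ) ^ A.card := by
  change ((sy_M A B).card : ℝ) * (n : ℝ) ^ A.card ≤ (n.factorial : ℝ) * (B.card : ℝ) ^ A.card
  induction A using Finset.induction_on with
  | empty =>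
    simp only [card_empty, pow_zero, mul_one]
    have : (sy_M (∅ : Finset (Fin n)) B).card ≤ n.factorial := by
      calc (sy_M (∅ : Finset (Fin n)) B).card ≤ (univ : Finset (Equiv.Perm (Fin n))).card :=
            card_le_card (subset_univ _)
        _ = n.factorial := by rw [card_univ, Fintype.card_perm, Fintype.card_fin]
    exact_mod_cast this
  | insert a A ha ih =>
    have hstep := sy_step A B ha
    have hAn : A.card < n := by
      have := card_le_card (subset_univ (insert a A))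
      rw [card_insert_of_notMem ha, card_univ, Fintype.card_fin] at this
      omega
    have hBn : B.card ≤ n := by
      have := card_le_card (subset_univ B)
      rwa [card_univ, Fintype.card_fin] at this
    rw [card_insert_of_notMem ha, pow_succ, pow_succ]
    -- n * N' ≤ N * |B|
    have key : n * (sy_M (insert a A) B).card ≤ (sy_M A B).card * B.card := by
      have h1 : n * (B.card - A.card) ≤ B.card * (n - A.card) := by
        rcases le_total A.card B.card with h | h
        · obtain ⟨k, hk⟩ := Nat.exists_eq_add_of_le h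
          obtain ⟨l, hl⟩ := Nat.exists_eq_add_of_le hAn.le
          have e1 : B.card - A.card = k := by omega
          have e2 : n - A.card = l := by omega
          rw [e1, e2]
          have : k ≤ l := by omega
          rw [hk]
          calc n * k = (A.card + l) * k := by rw [← hl]
            _ = A.card * k + l * k := by ring
            _ ≤ A.card * l + k * l := by nlinarith
            _ = (A.card + k) * l := by ring
        · rw [Nat.sub_eq_zero_of_le h]
          simp
      have h2 : (n - A.card) * (n * (sy_M (insert a A) B).card) ≤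
          (n - A.card) * ((sy_M A B).card * B.card) := by
        calc (n - A.card) * (n * (sy_M (insert a A) B).card)
            = n * ((n - A.card) * (sy_M (insert a A) B).card) := by ring
          _ = (sy_M A B).card * (n * (B.card - A.card)) := by rw [hstep]; ring
          _ ≤ (sy_M A B).card * (B.card * (n - A.card)) := Nat.mul_le_mul_left _ h1
          _ = (n - A.card) * ((sy_M A B).card * B.card) := by ring
      exact Nat.le_of_mul_le_mul_left h2 (by omega)
    have keyR : (n : ℝ) * (sy_M (insert a A) B).card ≤ (sy_M A B).card * B.card := by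
      exact_mod_cast key
    calc ((sy_M (insert a A) B).card : ℝ) * ((n : ℝ) ^ A.card * n)
        = (n : ℝ) ^ A.card * (n * (sy_M (insert a A) B).card) := by ring
      _ ≤ (n : ℝ) ^ A.card * ((sy_M A B).card * B.card) :=
          mul_le_mul_of_nonneg_left keyR (by positivity)
      _ = ((sy_M A B).card * (n : ℝ) ^ A.card) * B.card := by ring
      _ ≤ ((n.factorial : ℝ) * (B.card : ℝ) ^ A.card) * B.card :=
          mul_le_mul_of_nonneg_right ih (by positivity)
      _ = (n.factorial : ℝ) * ((B.card : ℝ) ^ A.card * B.card) := by ring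

/-- The action as an equivalence. -/
def sy_act {n r : ℕ} (σ : Equiv.Perm (Fin n)) : Equiv.Perm (Edge n r) where
  toFun := act σ
  invFun := act σ.symm
  left_inv := by
    intro e
    apply Subtype.ext
    simp only [act]
    ext a
    simp
  right_inv := by
    intro e
    apply Subtype.ext
    simp only [act]
    ext a
    simp

lemma sy_act_apply {n r : ℕ} (σ : Equiv.Perm (Fin n)) (e : Edge n r) :
    sy_act σ e = act σ e := rfl

/-- The induced equivalence of configurations. -/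
def sy_cfg {n r : ℕ} (σ : Equiv.Perm (Fin n)) : Equiv.Perm (Edge n r → Bool) where
  toFun := fun ω e => ω (sy_act σ e)
  invFun := fun ω e => ω ((sy_act σ).symm e)
  left_inv := by
    intro ω
    funext e
    simp
  right_inv := by
    intro ω
    funext e
    simp

lemma sy_W {n r : ℕ} (p : ℝ) (σ : Equiv.Perm (Fin n)) (ω : Edge n r → Bool) :
    W p (sy_cfg σ ω) = W p ω := by
  unfold W
  exact Equiv.prod_comp (sy_act σ) (fun e => wt p (ω e))

lemma sy_Ex {n r : ℕ} (p : ℝ) (σ : Equiv.Perm (Fin n)) (h : (Edge n r → Bool) → ℝ) :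
    Ex p (fun ω => h (sy_cfg σ ω)) = Ex p h := by
  unfold Ex
  rw [← Equiv.sum_comp (sy_cfg σ) (fun ω => W p ω * h ω)]
  exact sum_congr rfl fun ω _ => by rw [sy_W]

lemma sy_inv {n r : ℕ} {f : (Edge n r → Bool) → ℝ} (hinv : IsInv f) (σ : Equiv.Perm (Fin n))
    (ω : Edge n r → Bool) : f (sy_cfg σ ω) = f ω := hinv σ ω

lemma sy_chi {n r : ℕ} (p : ℝ) (σ : Equiv.Perm (Fin n)) (S : Finset (Edge n r))
    (ω : Edge n r → Bool) :
    chi p S (sy_cfg σ ω) = chi p (S.map (sy_act σ).toEmbedding) ω := by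
  unfold chi
  rw [prod_map]
  rfl

lemma sy_fh {n r : ℕ} (p : ℝ) {f : (Edge n r → Bool) → ℝ} (hinv : IsInv f)
    (σ : Equiv.Perm (Fin n)) (S : Finset (Edge n r)) :
    fh p f (S.map (sy_act σ).toEmbedding) = fh p f S := by
  unfold fh
  rw [← sy_Ex p σ (fun y => f y * chi p S y)]
  simp only [sy_inv hinv, sy_chi]

lemma sy_R {n r : ℕ} (p : ℝ) {f : (Edge n r → Bool) → ℝ} (hinv : IsInv f)
    (σ : Equiv.Perm (Fin n)) (F : Finset (Edge n r)) (Λ : ℕ) :
    ∑ S ∈ univ.filter (fun S : Finset (Edge n r) =>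
        F.map (sy_act σ).toEmbedding ⊆ S ∧ S.card ≤ Λ), fh p f S ^ 2 =
      ∑ S ∈ univ.filter (fun S : Finset (Edge n r) => F ⊆ S ∧ S.card ≤ Λ), fh p f S ^ 2 := by
  symm
  refine sum_bij (fun S _ => S.map (sy_act σ).toEmbedding) ?_ ?_ ?_ ?_
  · intro S hS
    rw [mem_filter] at hS ⊢
    refine ⟨mem_univ _, map_subset_map.2 hS.2.1, ?_⟩
    rw [card_map]
    exact hS.2.2
  · intro S _ T _ h
    exact map_injective _ h
  · intro T hT
    rw [mem_filter] at hT
    refine ⟨T.map (sy_act σ).symm.toEmbedding, ?_, ?_⟩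
    · rw [mem_filter]
      refine ⟨mem_univ _, ?_, ?_⟩
      · intro e he
        rw [mem_map]
        refine ⟨sy_act σ e, hT.2.1 ?_, by simp⟩
        rw [mem_map]
        exact ⟨e, he, rfl⟩
      · rw [card_map]
        exact hT.2.2
    · ext e
      simp
  · intro S _
    rw [sy_fh p hinv]

lemma sy_tv_le {n r : ℕ} (S : Finset (Edge n r)) : tv S ≤ S.card * r := by
  unfold tv
  refine card_biUnion_le.trans ?_
  rw [sum_congr rfl (fun e _ => e.2), sum_const, smul_eq_mul]

lemma sy_count {n r : ℕ} (F S : Finset (Edge n r)) (Λ : ℕ) (hS : S.card ≤ Λ) :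
    ((univ.filter (fun σ : Equiv.Perm (Fin n) =>
        F.map (sy_act σ).toEmbedding ⊆ S)).card : ℝ) * (n : ℝ) ^ tv F ≤
      (n.factorial : ℝ) * ((r * Λ : ℕ) : ℝ) ^ tv F := by
  have hsub : univ.filter (fun σ : Equiv.Perm (Fin n) =>
      F.map (sy_act σ).toEmbedding ⊆ S) ⊆
      univ.filter (fun σ : Equiv.Perm (Fin n) =>
        ∀ a ∈ F.biUnion (fun e => e.1), σ a ∈ S.biUnion (fun e => e.1)) := by
    intro σ hσ
    rw [mem_filter] at hσ ⊢
    refine ⟨mem_univ _, ?_⟩
    intro a ha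
    rw [mem_biUnion] at ha ⊢
    obtain ⟨e, he, hae⟩ := ha
    refine ⟨sy_act σ e, hσ.2 ?_, ?_⟩
    · rw [mem_map]
      exact ⟨e, he, rfl⟩
    · rw [sy_act_apply]
      unfold act
      rw [mem_map]
      exact ⟨a, hae, rfl⟩
  have hc : ((univ.filter (fun σ : Equiv.Perm (Fin n) =>
      F.map (sy_act σ).toEmbedding ⊆ S)).card : ℝ) ≤
      ((univ.filter (fun σ : Equiv.Perm (Fin n) =>
        ∀ a ∈ F.biUnion (fun e => e.1), σ a ∈ S.biUnion (fun e => e.1))).card : ℝ) := by
    exact_mod_cast card_le_card hsub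
  have hp := perm_count n (F.biUnion (fun e => e.1)) (S.biUnion (fun e => e.1))
  have hVS : ((S.biUnion (fun e => e.1)).card : ℝ) ≤ ((r * Λ : ℕ) : ℝ) := by
    have h2 := sy_tv_le S
    unfold tv at h2
    have h3 : S.card * r ≤ r * Λ := by
      rw [mul_comm]
      exact Nat.mul_le_mul_left r hS
    exact_mod_cast h2.trans h3
  have h5 : ((S.biUnion (fun e => e.1)).card : ℝ) ^ tv F ≤ ((r * Λ : ℕ) : ℝ) ^ tv F :=
    pow_le_pow_left₀ (Nat.cast_nonneg _) hVS _
  have h6 : (0 : ℝ) ≤ (n : ℝ) ^ tv F := by positivity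
  have h7 : (0 : ℝ) ≤ (n.factorial : ℝ) := by positivity
  exact (mul_le_mul_of_nonneg_right hc h6).trans (hp.trans (mul_le_mul_of_nonneg_left h5 h7))

/-- By symmetry a set of edges touching many vertices is rarely contained in the spectral
sample. -/
lemma sym_bound {n r : ℕ} {p : ℝ} (h0 : 0 < p) (h1 : p < 1) {f : (Edge n r → Bool) → ℝ}
    (hf : IsSign f) (hinv : IsInv f) (F : Finset (Edge n r)) (Λ : ℕ) :
    (n : ℝ) ^ tv F * ∑ S ∈ univ.filter (fun S : Finset (Edge n r) => F ⊆ S ∧ S.card ≤ Λ),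
      fh p f S ^ 2 ≤ ((r * Λ : ℕ) : ℝ) ^ tv F := by
  set R : ℝ := ∑ S ∈ univ.filter (fun S : Finset (Edge n r) => F ⊆ S ∧ S.card ≤ Λ),
      fh p f S ^ 2 with hR
  have hfac : (0 : ℝ) < n.factorial := by exact_mod_cast Nat.factorial_pos n
  have e1 : (n.factorial : ℝ) * R = ∑ σ : Equiv.Perm (Fin n),
      ∑ S ∈ univ.filter (fun S : Finset (Edge n r) =>
        F.map (sy_act σ).toEmbedding ⊆ S ∧ S.card ≤ Λ), fh p f S ^ 2 := by
    rw [sum_congr rfl (fun σ _ => sy_R p hinv σ F Λ), sum_const, card_univ, Fintype.card_perm,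
      Fintype.card_fin, nsmul_eq_mul]
  have e2 : (n.factorial : ℝ) * R = ∑ S ∈ univ.filter (fun S : Finset (Edge n r) => S.card ≤ Λ),
      fh p f S ^ 2 * ((univ.filter (fun σ : Equiv.Perm (Fin n) =>
        F.map (sy_act σ).toEmbedding ⊆ S)).card : ℝ) := by
    rw [e1]
    have : ∀ σ : Equiv.Perm (Fin n), ∑ S ∈ univ.filter (fun S : Finset (Edge n r) =>
        F.map (sy_act σ).toEmbedding ⊆ S ∧ S.card ≤ Λ), fh p f S ^ 2 =
        ∑ S ∈ univ.filter (fun S : Finset (Edge n r) => S.card ≤ Λ),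
          if F.map (sy_act σ).toEmbedding ⊆ S then fh p f S ^ 2 else 0 := by
      intro σ
      rw [← sum_filter, filter_filter]
      refine sum_congr ?_ fun _ _ => rfl
      ext S
      simp only [mem_filter, mem_univ, true_and]
      tauto
    simp only [this]
    rw [sum_comm]
    refine sum_congr rfl fun S _ => ?_
    rw [← sum_filter, sum_const, nsmul_eq_mul, mul_comm]
  set C : ℝ := (n.factorial : ℝ) * ((r * Λ : ℕ) : ℝ) ^ tv F with hC
  have hC0 : 0 ≤ C := by
    rw [hC]
    exact mul_nonneg hfac.le (pow_nonneg (Nat.cast_nonneg _) _)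
  have e4 : ∑ S ∈ univ.filter (fun S : Finset (Edge n r) => S.card ≤ Λ), fh p f S ^ 2 ≤ 1 := by
    rw [← sum_fh_sq h0 h1 hf]
    exact sum_le_sum_of_subset_of_nonneg (subset_univ _) fun _ _ _ => sq_nonneg _
  have e3 : (n.factorial : ℝ) * ((n : ℝ) ^ tv F * R) ≤ C := by
    have s1 : (n.factorial : ℝ) * ((n : ℝ) ^ tv F * R) =
        ∑ S ∈ univ.filter (fun S : Finset (Edge n r) => S.card ≤ Λ),
          fh p f S ^ 2 * (((univ.filter (fun σ : Equiv.Perm (Fin n) =>
            F.map (sy_act σ).toEmbedding ⊆ S)).card : ℝ) * (n : ℝ) ^ tv F) := by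
      have : (n.factorial : ℝ) * ((n : ℝ) ^ tv F * R) =
        (n : ℝ) ^ tv F * ((n.factorial : ℝ) * R) := by ring
      rw [this, e2, mul_sum]
      exact sum_congr rfl fun S _ => by ring
    have s2 : ∑ S ∈ univ.filter (fun S : Finset (Edge n r) => S.card ≤ Λ),
          fh p f S ^ 2 * (((univ.filter (fun σ : Equiv.Perm (Fin n) =>
            F.map (sy_act σ).toEmbedding ⊆ S)).card : ℝ) * (n : ℝ) ^ tv F) ≤
        ∑ S ∈ univ.filter (fun S : Finset (Edge n r) => S.card ≤ Λ), fh p f S ^ 2 * C := by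
      refine sum_le_sum fun S hS => ?_
      rw [mem_filter] at hS
      exact mul_le_mul_of_nonneg_left (sy_count F S Λ hS.2) (sq_nonneg _)
    rw [← sum_mul] at s2
    have s3 := mul_le_mul_of_nonneg_right e4 hC0
    rw [one_mul] at s3
    rw [s1]
    exact s2.trans s3
  exact le_of_mul_le_mul_left e3 hfac

/-- The pointwise entropy bound. -/
lemma sy_ent {n : ℕ} (hn : 1 ≤ n) (T : ℕ) {a b : ℝ} (ha : 0 ≤ a) (hb : 0 ≤ b) (hab : a + b ≤ 1)
    (hT : (n : ℝ) ^ T * a ≤ √n ^ T) :
    a * (T * Real.log n / 2 - Real.log 2) - b * (T * Real.log n / 2) ≤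
      Real.negMulLog (a + b) := by
  have hn0 : (0 : ℝ) < n := by exact_mod_cast hn
  have hL : 0 ≤ Real.log n := Real.log_nonneg (by exact_mod_cast hn)
  have hc : 0 ≤ (T : ℝ) * Real.log n / 2 := by positivity
  have hent : 0 ≤ Real.negMulLog (a + b) := Real.negMulLog_nonneg (by linarith) hab
  have hlog2 : 0 < Real.log 2 := Real.log_pos (by norm_num)
  rcases lt_or_ge a b with h | h
  · have : a * (T * Real.log n / 2 - Real.log 2) - b * (T * Real.log n / 2) ≤ 0 := by
      nlinarith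
    linarith
  · rcases le_or_gt (T * Real.log n / 2 - Real.log 2) 0 with h2 | h2
    · have : a * (T * Real.log n / 2 - Real.log 2) - b * (T * Real.log n / 2) ≤ 0 := by
        nlinarith
      linarith
    · rcases eq_or_lt_of_le (show 0 ≤ a + b by linarith) with h3 | h3
      · have ha0 : a = 0 := by linarith
        have hb0 : b = 0 := by linarith
        rw [ha0, hb0]
        simp
      · have hsq : (0 : ℝ) < √n := Real.sqrt_pos.2 hn0
        have hsn : √n ^ T * √n ^ T = (n : ℝ) ^ T := by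
          rw [← mul_pow, Real.mul_self_sqrt hn0.le]
        have h4 : √n ^ T * a ≤ 1 := by
          have : √n ^ T * (√n ^ T * a) ≤ √n ^ T * 1 := by
            rw [← mul_assoc, hsn, mul_one]
            exact hT
          exact le_of_mul_le_mul_left this (by positivity)
        have h5 : √n ^ T * (a + b) ≤ 2 := by
          have : √n ^ T * (a + b) ≤ √n ^ T * (2 * a) :=
            mul_le_mul_of_nonneg_left (by linarith) (by positivity)
          linarith
        have h6 : Real.log (√n ^ T * (a + b)) ≤ Real.log 2 :=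
          Real.log_le_log (by positivity) h5
        rw [Real.log_mul (by positivity) (by positivity), Real.log_pow,
          Real.log_sqrt hn0.le] at h6
        have h7 : T * Real.log n / 2 - Real.log 2 ≤ -Real.log (a + b) := by linarith
        unfold Real.negMulLog
        have h8 : (a + b) * (T * Real.log n / 2 - Real.log 2) ≤ (a + b) * (-Real.log (a + b)) :=
          mul_le_mul_of_nonneg_left h7 h3.le
        have h9 : a * (T * Real.log n / 2 - Real.log 2) ≤
            (a + b) * (T * Real.log n / 2 - Real.log 2) :=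
          mul_le_mul_of_nonneg_right (by linarith) h2.le
        have h10 : 0 ≤ b * (T * Real.log n / 2) := by positivity
        linarith

lemma sy_th_nonneg {α : Type*} [DecidableEq α] (k : ℕ) (F : Finset α) : 0 ≤ th k F := by
  unfold th
  split_ifs <;> positivity

lemma sy_th_le_one {α : Type*} [DecidableEq α] (k : ℕ) (F : Finset α) : th k F ≤ 1 := by
  unfold th
  split_ifs with h
  · have : (1 : ℝ) ≤ F.card := by exact_mod_cast h.1
    rw [div_le_one (by linarith)]
    exact this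
  · norm_num

lemma sy_th_empty {α : Type*} [DecidableEq α] (k : ℕ) : th k (∅ : Finset α) = 0 := by
  unfold th
  simp

lemma sy_th_tv {n r : ℕ} (k : ℕ) (F : Finset (Edge n r)) : th k F * (tv F : ℝ) ≤ r := by
  unfold th
  split_ifs with h
  · have h1 : (1 : ℝ) ≤ F.card := by exact_mod_cast h.1
    have h2 : (tv F : ℝ) ≤ F.card * r := by exact_mod_cast sy_tv_le F
    rw [one_div, inv_mul_le_iff₀ (by linarith)]
    exact h2
  · simp

/-- The summand of the lower bound. -/
noncomputable def sy_h {n r : ℕ} (p : ℝ) (f : (Edge n r → Bool) → ℝ) (J : Finset (Edge n r))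
    (k Λ : ℕ) (S : Finset (Edge n r)) : ℝ :=
  (if S.card ≤ Λ then fh p f S ^ 2 * (th k (S ∩ J) * (tv (S ∩ J) : ℝ)) * (Real.log n / 2)
    else -(fh p f S ^ 2 * (r * Real.log n / 2))) -
  (if S.Nonempty then fh p f S ^ 2 else 0)

lemma sy_tot {n r : ℕ} (p : ℝ) (f : (Edge n r → Bool) → ℝ) (J : Finset (Edge n r))
    (k Λ : ℕ) :
    Real.log n / 2 * ∑ S ∈ univ.filter (fun S : Finset (Edge n r) => S.card ≤ Λ),
        fh p f S ^ 2 * (th k (S ∩ J) * (tv (S ∩ J) : ℝ)) - Vr p f -
      r * Real.log n / 2 * ∑ S ∈ univ.filter (fun S : Finset (Edge n r) => Λ < S.card),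
        fh p f S ^ 2 = ∑ S : Finset (Edge n r), sy_h p f J k Λ S := by
  unfold sy_h
  rw [sum_sub_distrib]
  unfold Vr
  rw [sum_filter (p := fun S : Finset (Edge n r) => S.Nonempty)]
  have e1 : ∑ S : Finset (Edge n r), (if S.card ≤ Λ then
      fh p f S ^ 2 * (th k (S ∩ J) * (tv (S ∩ J) : ℝ)) * (Real.log n / 2)
      else -(fh p f S ^ 2 * (r * Real.log n / 2))) =
      Real.log n / 2 * ∑ S ∈ univ.filter (fun S : Finset (Edge n r) => S.card ≤ Λ),
        fh p f S ^ 2 * (th k (S ∩ J) * (tv (S ∩ J) : ℝ)) -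
      r * Real.log n / 2 * ∑ S ∈ univ.filter (fun S : Finset (Edge n r) => Λ < S.card),
        fh p f S ^ 2 := by
    rw [sum_ite, mul_sum, mul_sum, sum_neg_distrib, sub_eq_add_neg]
    congr 1
    · exact sum_congr rfl fun S _ => by ring
    · congr 1
      simp only [not_le]
      exact sum_congr rfl fun S _ => by ring
  rw [e1]
  ring

lemma sy_sumh {n r : ℕ} (p : ℝ) (f : (Edge n r → Bool) → ℝ) (J F : Finset (Edge n r))
    (k Λ : ℕ) :
    ∑ S ∈ univ.filter (fun S : Finset (Edge n r) => S ∩ J = F), sy_h p f J k Λ S =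
      (∑ S ∈ univ.filter (fun S : Finset (Edge n r) => S ∩ J = F ∧ S.card ≤ Λ),
        fh p f S ^ 2) * (th k F * (tv F : ℝ)) * (Real.log n / 2) -
      (∑ S ∈ univ.filter (fun S : Finset (Edge n r) => S ∩ J = F ∧ ¬ S.card ≤ Λ),
        fh p f S ^ 2) * (r * Real.log n / 2) -
      ∑ S ∈ univ.filter (fun S : Finset (Edge n r) => S ∩ J = F),
        (if S.Nonempty then fh p f S ^ 2 else 0) := by
  unfold sy_h
  rw [sum_sub_distrib]
  congr 1
  rw [sum_ite, filter_filter, filter_filter, sum_neg_distrib, sub_eq_add_neg]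
  congr 1
  · rw [sum_mul, sum_mul]
    refine sum_congr rfl fun S hS => ?_
    rw [mem_filter] at hS
    rw [hS.2.1]
  · rw [sum_mul]

lemma sy_final {L r t T a b E : ℝ} (hL : 0 ≤ L) (ha : 0 ≤ a) (hb : 0 ≤ b) (t0 : 0 ≤ t)
    (t1 : t ≤ 1) (t2 : t * T ≤ r)
    (hent : a * (T * L / 2 - Real.log 2) - b * (T * L / 2) ≤ E) :
    a * (t * T) * (L / 2) - b * (r * L / 2) - (a + b) ≤ t * E := by
  have hlog2 : Real.log 2 ≤ 1 := by
    have := Real.log_two_lt_d9
    linarith
  have hlog2' : 0 < Real.log 2 := Real.log_pos (by norm_num)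
  have e4 : t * (a * (T * L / 2 - Real.log 2) - b * (T * L / 2)) ≤ t * E :=
    mul_le_mul_of_nonneg_left hent t0
  have e5 : t * a * Real.log 2 ≤ a := by
    have : t * Real.log 2 ≤ 1 := by nlinarith
    calc t * a * Real.log 2 = (t * Real.log 2) * a := by ring
      _ ≤ 1 * a := mul_le_mul_of_nonneg_right this ha
      _ = a := one_mul a
  have e6 : (t * T) * (b * (L / 2)) ≤ r * (b * (L / 2)) :=
    mul_le_mul_of_nonneg_right t2 (by positivity)
  have e7 : a * (t * T) * (L / 2) - b * (r * L / 2) - (a + b) =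
      t * (a * (T * L / 2 - Real.log 2) - b * (T * L / 2)) + (t * a * Real.log 2 - a) +
      ((t * T) * (b * (L / 2)) - r * (b * (L / 2))) - b := by ring
  rw [e7]
  linarith

/-- Low part of the mass of the fibre over `F`. -/
noncomputable def sy_a {n r : ℕ} (p : ℝ) (f : (Edge n r → Bool) → ℝ) (J : Finset (Edge n r))
    (Λ : ℕ) (F : Finset (Edge n r)) : ℝ :=
  ∑ S ∈ univ.filter (fun S : Finset (Edge n r) => S ∩ J = F ∧ S.card ≤ Λ), fh p f S ^ 2

/-- High part of the mass of the fibre over `F`. -/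
noncomputable def sy_b {n r : ℕ} (p : ℝ) (f : (Edge n r → Bool) → ℝ) (J : Finset (Edge n r))
    (Λ : ℕ) (F : Finset (Edge n r)) : ℝ :=
  ∑ S ∈ univ.filter (fun S : Finset (Edge n r) => S ∩ J = F ∧ ¬ S.card ≤ Λ), fh p f S ^ 2

lemma sy_a_nonneg {n r : ℕ} (p : ℝ) (f : (Edge n r → Bool) → ℝ) (J : Finset (Edge n r))
    (Λ : ℕ) (F : Finset (Edge n r)) : 0 ≤ sy_a p f J Λ F := sum_nonneg fun _ _ => sq_nonneg _

lemma sy_b_nonneg {n r : ℕ} (p : ℝ) (f : (Edge n r → Bool) → ℝ) (J : Finset (Edge n r))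
    (Λ : ℕ) (F : Finset (Edge n r)) : 0 ≤ sy_b p f J Λ F := sum_nonneg fun _ _ => sq_nonneg _

lemma sy_Q {n r : ℕ} {p : ℝ} (h0 : 0 < p) (h1 : p < 1) (f : (Edge n r → Bool) → ℝ)
    (J : Finset (Edge n r)) (Λ : ℕ) (F : Finset (Edge n r)) (hF : F ⊆ J) :
    Q p f J F = sy_a p f J Λ F + sy_b p f J Λ F := by
  rw [Q_eq h0 h1 f hF]
  unfold sy_a sy_b
  rw [← filter_filter, ← filter_filter, sum_filter_add_sum_filter_not]

lemma sy_Q_le {n r : ℕ} {p : ℝ} (h0 : 0 < p) (h1 : p < 1) {f : (Edge n r → Bool) → ℝ}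
    (hf : IsSign f) (J : Finset (Edge n r)) (F : Finset (Edge n r)) (hF : F ⊆ J) :
    Q p f J F ≤ 1 := by
  rw [Q_eq h0 h1 f hF, ← sum_fh_sq h0 h1 hf]
  exact sum_le_sum_of_subset_of_nonneg (subset_univ _) fun _ _ _ => sq_nonneg _

lemma sy_a_le {n r : ℕ} (p : ℝ) (f : (Edge n r → Bool) → ℝ) (J : Finset (Edge n r))
    (Λ : ℕ) (F : Finset (Edge n r)) :
    sy_a p f J Λ F ≤ ∑ S ∈ univ.filter (fun S : Finset (Edge n r) => F ⊆ S ∧ S.card ≤ Λ),
      fh p f S ^ 2 := by
  refine sum_le_sum_of_subset_of_nonneg ?_ fun _ _ _ => sq_nonneg _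
  intro S hS
  rw [mem_filter] at hS ⊢
  refine ⟨mem_univ _, ?_, hS.2.2⟩
  rw [← hS.2.1]
  exact inter_subset_left

lemma sy_a_sym {n r : ℕ} {p : ℝ} (h0 : 0 < p) (h1 : p < 1)
    {f : (Edge n r → Bool) → ℝ} (hf : IsSign f) (hinv : IsInv f) (J : Finset (Edge n r))
    (Λ : ℕ) (hΛ : ((r * Λ : ℕ) : ℝ) ≤ √n) (F : Finset (Edge n r)) :
    (n : ℝ) ^ tv F * sy_a p f J Λ F ≤ √n ^ tv F := by
  have hs := sym_bound h0 h1 hf hinv F Λ
  have h2 := mul_le_mul_of_nonneg_left (sy_a_le p f J Λ F)
    (pow_nonneg (Nat.cast_nonneg n) (tv F) : (0 : ℝ) ≤ (n : ℝ) ^ tv F)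
  have h3 : ((r * Λ : ℕ) : ℝ) ^ tv F ≤ √n ^ tv F := pow_le_pow_left₀ (Nat.cast_nonneg _) hΛ _
  exact h2.trans (hs.trans h3)

lemma sy_ne_nonneg {n r : ℕ} (p : ℝ) (f : (Edge n r → Bool) → ℝ) (J F : Finset (Edge n r)) :
    0 ≤ ∑ S ∈ univ.filter (fun S : Finset (Edge n r) => S ∩ J = F),
        (if S.Nonempty then fh p f S ^ 2 else 0) := by
  refine sum_nonneg fun S _ => ?_
  split_ifs
  · exact sq_nonneg _
  · exact le_refl _

lemma sy_ne_eq {n r : ℕ} {p : ℝ} (h0 : 0 < p) (h1 : p < 1) (f : (Edge n r → Bool) → ℝ)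
    (J F : Finset (Edge n r)) (hF : F ⊆ J) (hFn : F.Nonempty) :
    ∑ S ∈ univ.filter (fun S : Finset (Edge n r) => S ∩ J = F),
        (if S.Nonempty then fh p f S ^ 2 else 0) = Q p f J F := by
  rw [Q_eq h0 h1 f hF]
  refine sum_congr rfl fun S hS => ?_
  rw [mem_filter] at hS
  have : S.Nonempty := by
    rw [← hS.2] at hFn
    exact hFn.mono inter_subset_left
  rw [if_pos this]

lemma sy_fiber {n r : ℕ} (hn : 1 ≤ n) {p : ℝ} (h0 : 0 < p) (h1 : p < 1)
    {f : (Edge n r → Bool) → ℝ} (hf : IsSign f) (hinv : IsInv f) (J : Finset (Edge n r))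
    (k Λ : ℕ) (hΛ : ((r * Λ : ℕ) : ℝ) ≤ √n) (F : Finset (Edge n r)) (hF : F ⊆ J) :
    ∑ S ∈ univ.filter (fun S : Finset (Edge n r) => S ∩ J = F), sy_h p f J k Λ S ≤
      th k F * Real.negMulLog (Q p f J F) := by
  have hL : 0 ≤ Real.log n := Real.log_nonneg (by exact_mod_cast hn)
  rw [sy_sumh]
  have ha0 := sy_a_nonneg p f J Λ F
  have hb0 := sy_b_nonneg p f J Λ F
  have hQ := sy_Q h0 h1 f J Λ F hF
  have hQ1 := sy_Q_le h0 h1 hf J F hF
  have hsym := sy_a_sym h0 h1 hf hinv J Λ hΛ F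
  change sy_a p f J Λ F * (th k F * (tv F : ℝ)) * (Real.log n / 2) -
    sy_b p f J Λ F * (r * Real.log n / 2) - _ ≤ _
  generalize sy_a p f J Λ F = a at *
  generalize sy_b p f J Λ F = b at *
  rw [hQ] at hQ1
  have hent := sy_ent hn (tv F) ha0 hb0 hQ1 hsym
  rcases F.eq_empty_or_nonempty with hFe | hFn
  · have e2 := sy_ne_nonneg p f J F
    have e3 : 0 ≤ b * (r * Real.log n / 2) :=
      mul_nonneg hb0 (div_nonneg (mul_nonneg (Nat.cast_nonneg _) hL) (by norm_num))
    have e4 : th k F = 0 := by rw [hFe]; exact sy_th_empty k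
    rw [e4, zero_mul, mul_zero, zero_mul, zero_mul]
    linarith
  · rw [sy_ne_eq h0 h1 f J F hF hFn, hQ]
    exact sy_final hL ha0 hb0 (sy_th_nonneg k F) (sy_th_le_one k F) (sy_th_tv k F) hent

/-- Lower bound for the weighted entropy of `S ∩ J`. -/
theorem lowerB {n r : ℕ} (hn : 1 ≤ n) (hr : 1 ≤ r) {p : ℝ} (h0 : 0 < p) (h1 : p < 1)
    {f : (Edge n r → Bool) → ℝ} (hf : IsSign f) (hinv : IsInv f) (J : Finset (Edge n r))
    (k Λ : ℕ) (hΛ : ((r * Λ : ℕ) : ℝ) ≤ √n) :
    Real.log n / 2 * ∑ S ∈ univ.filter (fun S : Finset (Edge n r) => S.card ≤ Λ),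
        fh p f S ^ 2 * (th k (S ∩ J) * (tv (S ∩ J) : ℝ)) - Vr p f -
      r * Real.log n / 2 * ∑ S ∈ univ.filter (fun S : Finset (Edge n r) => Λ < S.card),
        fh p f S ^ 2 ≤
    ∑ F ∈ J.powerset, th k F * Real.negMulLog (Q p f J F) := by
  rw [sy_tot]
  have hfib : ∑ F ∈ J.powerset, ∑ S ∈ univ.filter (fun S : Finset (Edge n r) => S ∩ J = F),
      sy_h p f J k Λ S = ∑ S : Finset (Edge n r), sy_h p f J k Λ S := by
    apply sum_fiberwise_of_maps_to
    intro S _
    rw [mem_powerset]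
    exact inter_subset_right
  rw [← hfib]
  refine sum_le_sum fun F hF => ?_
  rw [mem_powerset] at hF
  exact sy_fiber hn h0 h1 hf hinv J k Λ hΛ F hF

/-- All influences of an invariant function are equal. -/
theorem tinf_const {n r : ℕ} {p : ℝ} {f : (Edge n r → Bool) → ℝ} (hinv : IsInv f)
    (e e' : Edge n r) : tinf p f e = tinf p f e' := by
  have hc : e.1.card = e'.1.card := by rw [e.2, e'.2]
  let τ : {x // x ∈ e.1} ≃ {x // x ∈ e'.1} := Finset.equivOfCardEq hc
  let σ : Equiv.Perm (Fin n) := τ.extendSubtype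
  have hσ : sy_act σ e = e' := by
    apply Subtype.ext
    rw [sy_act_apply]
    unfold act
    apply eq_of_subset_of_card_le
    · intro a ha
      rw [mem_map] at ha
      obtain ⟨b, hb, rfl⟩ := ha
      exact τ.extendSubtype_mem b hb
    · rw [card_map, hc]
  have key : ∀ (y : Edge n r → Bool) (b : Bool),
      Function.update (sy_cfg σ y) e b = sy_cfg σ (Function.update y e' b) := by
    intro y b
    funext x
    change Function.update (fun z => y (sy_act σ z)) e b x =
      Function.update y e' b (sy_act σ x)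
    by_cases hx : x = e
    · subst hx
      rw [Function.update_self, hσ, Function.update_self]
    · rw [Function.update_of_ne hx, Function.update_of_ne]
      intro h
      rw [← hσ] at h
      exact hx ((sy_act σ).injective h)
  unfold tinf
  congr 1
  rw [← sy_Ex p σ]
  simp only [key, sy_inv hinv]

end P063K
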