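import Vale.Agent.P063K.Star
import Vale.Agent.P063K.CaseOne
import Vale.Agent.P063K.Sym
import Vale.Agent.P063K.Rand

open Finset

namespace P063K

variable {α : Type*} [Fintype α] [DecidableEq α]

lemma th_nonneg' (k : ℕ) (F : Finset α) : 0 ≤ th k F := by
  unfold th; split_ifs
  · positivity
  · exact le_rfl

/-- The middle levels carry little weight. -/
theorem midLevel {n r : ℕ} (hn : 2 ≤ n) (hr : 2 ≤ r) {p : ℝ} (h0 : 0 < p) (h1 : p < 1)
    {f : (Edge n r → Bool) → ℝ} (hf : IsSign f) (hinv : IsInv f) {δ τ : ℝ} (hδ0 : 0 < δ)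
    (hδ1 : δ ≤ 1) (hτ0 : 0 < τ) (hτ1 : τ ≤ 1) (k Λ m : ℕ) (hmΛ : m ≤ Λ)
    (hΛ : ((r * Λ : ℕ) : ℝ) ≤ √n) (hk : 8 * δ * (m : ℝ) ≤ k)
    (hm : δ * ((r : ℝ) * (m : ℝ)) ^ (((r : ℝ) - 1) / (r : ℝ)) ≤ 1 / 2) :
    Real.log n / 64 * ∑ S ∈ univ.filter
        (fun S : Finset (Edge n r) => 1 ≤ δ * (S.card : ℝ) ∧ S.card ≤ m), fh p f S ^ 2 ≤
      2 * (3 + 1 / √(p * (1 - p))) * (2 / δ) * Vr p f + Vr p f * Real.log (1 / τ) +
        Real.log (1 + ∑ i, tinf p f i) +
        Real.log (Fintype.card (Edge n r) + 1) *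
          (√τ * (1 / (p * (1 - p))) ^ k * ∑ i, tinf p f i) + 8 + Vr p f +
        r * Real.log n / 2 * ∑ S ∈ univ.filter (fun S : Finset (Edge n r) => Λ < S.card),
          fh p f S ^ 2 := by
  have hL : 0 ≤ Real.log n := Real.log_natCast_nonneg n
  set κ : ℝ := 2 * (3 + 1 / √(p * (1 - p))) with hκ
  have hκ0 : 0 ≤ κ := by positivity
  set R : ℝ := Vr p f * Real.log (1 / τ) +
        Real.log (1 + ∑ i, tinf p f i) +
        Real.log (Fintype.card (Edge n r) + 1) *
          (√τ * (1 / (p * (1 - p))) ^ k * ∑ i, tinf p f i) + 8 with hR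
  set H : ℝ := r * Real.log n / 2 * ∑ S ∈ univ.filter (fun S : Finset (Edge n r) => Λ < S.card),
          fh p f S ^ 2 with hH
  -- inequality for every fixed J
  have hJ : ∀ ω : Edge n r → Bool,
      Real.log n / 2 * ∑ S ∈ univ.filter (fun S : Finset (Edge n r) => S.card ≤ Λ),
        fh p f S ^ 2 * (th k (S ∩ tset ω) * (tv (S ∩ tset ω) : ℝ)) ≤
      κ * ∑ S : Finset (Edge n r), fh p f S ^ 2 * ((S.card : ℝ) * th k (S ∩ tset ω)) +
        (R + Vr p f + H) := by
    intro ω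
    have e1 := lowerB (by omega) (by omega) h0 h1 hf hinv (tset ω) k Λ hΛ
    have e2 := star h0 h1 f (tset ω) (th k) (th_nonneg' k)
    have e3 := caseOne h0 h1 hf (tset ω) k hτ0 hτ1
    have e4 : ∑ S : Finset (Edge n r), th k (S ∩ tset ω) *
        (((S \ tset ω).card : ℝ) * fh p f S ^ 2) ≤
        ∑ S : Finset (Edge n r), fh p f S ^ 2 * ((S.card : ℝ) * th k (S ∩ tset ω)) := by
      refine sum_le_sum fun S _ => ?_
      have hc : ((S \ tset ω).card : ℝ) ≤ S.card := by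
        exact_mod_cast card_le_card sdiff_subset
      have ht := th_nonneg' k (S ∩ tset ω)
      calc th k (S ∩ tset ω) * (((S \ tset ω).card : ℝ) * fh p f S ^ 2)
          ≤ th k (S ∩ tset ω) * ((S.card : ℝ) * fh p f S ^ 2) := by gcongr
        _ = _ := by ring
    have e5 := mul_le_mul_of_nonneg_left e4 hκ0
    simp only [hR, hH]
    linarith
  -- take expectations
  have hE := Ex_mono hδ0.le hδ1 hJ
  have hl : Ex δ (fun ω : Edge n r → Bool =>
      Real.log n / 2 * ∑ S ∈ univ.filter (fun S : Finset (Edge n r) => S.card ≤ Λ),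
        fh p f S ^ 2 * (th k (S ∩ tset ω) * (tv (S ∩ tset ω) : ℝ))) =
      Real.log n / 2 * ∑ S ∈ univ.filter (fun S : Finset (Edge n r) => S.card ≤ Λ),
        fh p f S ^ 2 * Ex δ (fun ω => th k (S ∩ tset ω) * (tv (S ∩ tset ω) : ℝ)) := by
    rw [Ex_mul_left, Ex_sum]
    congr 1
    exact sum_congr rfl fun S _ => Ex_mul_left _ _ _
  have hr' : Ex δ (fun ω : Edge n r → Bool =>
      κ * ∑ S : Finset (Edge n r), fh p f S ^ 2 * ((S.card : ℝ) * th k (S ∩ tset ω)) +
        (R + Vr p f + H)) =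
      κ * ∑ S : Finset (Edge n r), fh p f S ^ 2 *
        ((S.card : ℝ) * Ex δ (fun ω => th k (S ∩ tset ω))) + (R + Vr p f + H) := by
    rw [Ex_add, Ex_const, Ex_mul_left, Ex_sum]
    congr 2
    refine sum_congr rfl fun S _ => ?_
    rw [Ex_mul_left, Ex_mul_left]
  rw [hl, hr'] at hE
  -- lower bound of the left side
  have hlow : (1 / 32) * ∑ S ∈ univ.filter
        (fun S : Finset (Edge n r) => 1 ≤ δ * (S.card : ℝ) ∧ S.card ≤ m), fh p f S ^ 2 ≤
      ∑ S ∈ univ.filter (fun S : Finset (Edge n r) => S.card ≤ Λ),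
        fh p f S ^ 2 * Ex δ (fun ω => th k (S ∩ tset ω) * (tv (S ∩ tset ω) : ℝ)) := by
    rw [mul_sum]
    have hsub : univ.filter
        (fun S : Finset (Edge n r) => 1 ≤ δ * (S.card : ℝ) ∧ S.card ≤ m) ⊆
        univ.filter (fun S : Finset (Edge n r) => S.card ≤ Λ) := by
      intro S hS
      simp only [mem_filter, mem_univ, true_and] at hS ⊢
      omega
    refine le_trans (sum_le_sum fun S hS => ?_) (sum_le_sum_of_subset_of_nonneg hsub ?_)
    · simp only [mem_filter, mem_univ, true_and] at hS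
      have hSm : (S.card : ℝ) ≤ m := by exact_mod_cast hS.2
      have h2 := randC2 hr hδ0 hδ1 k S hS.1 (le_trans (by gcongr) hk) (le_trans (by
        have hr0 : (2 : ℝ) ≤ r := by exact_mod_cast hr
        have hexp : 0 ≤ ((r : ℝ) - 1) / (r : ℝ) := by
          apply div_nonneg <;> linarith
        gcongr) hm)
      rw [mul_comm]
      exact mul_le_mul_of_nonneg_left h2 (sq_nonneg _)
    · intro S _ _
      refine mul_nonneg (sq_nonneg _) (Ex_nonneg hδ0.le hδ1 fun ω => ?_)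
      exact mul_nonneg (th_nonneg' _ _) (Nat.cast_nonneg _)
  -- upper bound of the error
  have hup : ∑ S : Finset (Edge n r), fh p f S ^ 2 *
        ((S.card : ℝ) * Ex δ (fun ω => th k (S ∩ tset ω))) ≤ (2 / δ) * Vr p f := by
    unfold Vr
    rw [mul_sum, sum_filter]
    refine sum_le_sum fun S _ => ?_
    split_ifs with hS
    · rw [mul_comm]
      exact mul_le_mul_of_nonneg_right (randC1 hδ0 hδ1 k S) (sq_nonneg _)
    · rw [not_nonempty_iff_eq_empty] at hS
      subst hS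
      simp
  have hup' := mul_le_mul_of_nonneg_left hup hκ0
  have hlow' := mul_le_mul_of_nonneg_left hlow (show 0 ≤ Real.log n / 2 by positivity)
  have : κ * ((2 / δ) * Vr p f) = κ * (2 / δ) * Vr p f := by ring
  rw [this] at hup'
  have e6 : Real.log n / 2 * (1 / 32 * ∑ S ∈ univ.filter
        (fun S : Finset (Edge n r) => 1 ≤ δ * (S.card : ℝ) ∧ S.card ≤ m), fh p f S ^ 2) =
        Real.log n / 64 * ∑ S ∈ univ.filter
        (fun S : Finset (Edge n r) => 1 ≤ δ * (S.card : ℝ) ∧ S.card ≤ m), fh p f S ^ 2 := by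
    ring
  rw [e6] at hlow'
  simp only [hR, hH] at hE
  linarith

end P063K
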