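import Vale.Agent.P063K.Basic

open Finset

namespace P063K

variable {α : Type*} [Fintype α] [DecidableEq α]

lemma st_log (s v : ℝ) (hs : 0 < s) :
    -Real.negMulLog (v ^ 2) - v ^ 2 * Real.log s ≤ 2 * (|v| ^ 3 / √s - v ^ 2) := by
  by_cases hv : v = 0
  · subst hv
    simp
  · have hv2 : 0 < |v| := abs_pos.mpr hv
    have hss : 0 < √s := Real.sqrt_pos.mpr hs
    have h1 : Real.log (|v| / √s) ≤ |v| / √s - 1 := Real.log_le_sub_one_of_pos (by positivity)
    have h2 : Real.log (|v| / √s) = Real.log |v| - Real.log (√s) :=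
      Real.log_div hv2.ne' hss.ne'
    have h3 : Real.log (√s) = Real.log s / 2 := Real.log_sqrt hs.le
    have h4 : Real.log (v ^ 2) = 2 * Real.log |v| := by
      rw [← sq_abs, Real.log_pow]; norm_num
    unfold Real.negMulLog
    rw [h4]
    have h5 : |v| ^ 3 / √s = v ^ 2 * (|v| / √s) := by
      rw [pow_succ, sq_abs]; ring
    rw [h5]
    have h6 : 0 ≤ v ^ 2 := sq_nonneg v
    have h7 : v ^ 2 * Real.log (|v| / √s) ≤ v ^ 2 * (|v| / √s - 1) :=
      mul_le_mul_of_nonneg_left h1 h6
    rw [h2, h3] at h7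
    nlinarith [h7]

lemma st_cube (A w : ℝ) (hA : 0 ≤ A) :
    |A + w| ^ 3 ≤ A ^ 3 + 3 * A ^ 2 * w + 3 * A * w ^ 2 + |w| ^ 3 := by
  rcases le_or_gt 0 (A + w) with h | h
  · rw [abs_of_nonneg h]
    have h1 : w ^ 3 ≤ |w| ^ 3 := by
      rw [← abs_pow]; exact le_abs_self _
    nlinarith [h1]
  · have hw : w < 0 := by linarith
    rw [abs_of_neg h, abs_of_neg hw]
    have h2 : 0 ≤ A * (A ^ 2 + 3 * A * w + 3 * w ^ 2) := by
      apply mul_nonneg hA
      nlinarith [sq_nonneg (A + 3 * w / 2), sq_nonneg w]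
    nlinarith [h2]

lemma st_abs_false {p : ℝ} (h0 : 0 < p) (h1 : p < 1) :
    (1 - p) * |ph p false| ^ 3 = p ^ 2 / √(p * (1 - p)) := by
  have hq : 0 < 1 - p := by linarith
  have hs : 0 < √(p * (1 - p)) := Real.sqrt_pos.mpr (by positivity)
  have e1 : |ph p false| = p / √(p * (1 - p)) := by
    have := sqrt_ph_false h0 h1
    rw [eq_div_iff hs.ne']
    have h2 : |ph p false * √(p * (1 - p))| = |-p| := by rw [this]
    rw [abs_mul, abs_of_pos hs, abs_neg, abs_of_pos h0] at h2
    exact h2
  have e2 : |ph p false| ^ 2 = p / (1 - p) := by rw [sq_abs, ph_false_sq h0 h1]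
  rw [pow_succ, e2, e1]
  field_simp

lemma st_abs_true {p : ℝ} (h0 : 0 < p) (h1 : p < 1) :
    p * |ph p true| ^ 3 = (1 - p) ^ 2 / √(p * (1 - p)) := by
  have hq : 0 < 1 - p := by linarith
  have hs : 0 < √(p * (1 - p)) := Real.sqrt_pos.mpr (by positivity)
  have e1 : |ph p true| = (1 - p) / √(p * (1 - p)) := by
    have := sqrt_ph_true h0 h1
    rw [eq_div_iff hs.ne']
    have h2 : |ph p true * √(p * (1 - p))| = |1 - p| := by rw [this]
    rw [abs_mul, abs_of_pos hs, abs_of_pos hq] at h2
    exact h2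
  have e2 : |ph p true| ^ 2 = (1 - p) / p := by rw [sq_abs, ph_true_sq h0 h1]
  rw [pow_succ, e2, e1]
  field_simp

lemma st_cubic {p : ℝ} (h0 : 0 < p) (h1 : p < 1) (A c : ℝ) (hA : 0 ≤ A) :
    (1 - p) * |A + ph p false * c| ^ 3 + p * |A + ph p true * c| ^ 3 ≤
      A ^ 3 + 3 * A * c ^ 2 + |c| ^ 3 / √(p * (1 - p)) := by
  have hq : 0 < 1 - p := by linarith
  have hs : 0 < √(p * (1 - p)) := Real.sqrt_pos.mpr (by positivity)
  have e1 := q_ph_false h0 h1
  have e2 := p_ph_true h0 h1
  have e3 : (1 - p) * ph p false ^ 2 = p := by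
    rw [ph_false_sq h0 h1]; field_simp
  have e4 : p * ph p true ^ 2 = 1 - p := by
    rw [ph_true_sq h0 h1]; field_simp
  have f1 := mul_le_mul_of_nonneg_left (st_cube A (ph p false * c) hA) hq.le
  have f2 := mul_le_mul_of_nonneg_left (st_cube A (ph p true * c) hA) h0.le
  have g1 := st_abs_false h0 h1
  have g2 := st_abs_true h0 h1
  have habs : ∀ b, |ph p b * c| ^ 3 = |ph p b| ^ 3 * |c| ^ 3 := by
    intro b; rw [abs_mul, mul_pow]
  rw [habs] at f1 f2
  have key : (1 - p) * (A ^ 3 + 3 * A ^ 2 * (ph p false * c) + 3 * A * (ph p false * c) ^ 2 +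
        |ph p false| ^ 3 * |c| ^ 3) +
      p * (A ^ 3 + 3 * A ^ 2 * (ph p true * c) + 3 * A * (ph p true * c) ^ 2 +
        |ph p true| ^ 3 * |c| ^ 3) =
      A ^ 3 + 3 * A ^ 2 * c * ((1 - p) * ph p false + p * ph p true) +
      3 * A * c ^ 2 * ((1 - p) * ph p false ^ 2 + p * ph p true ^ 2) +
      ((1 - p) * |ph p false| ^ 3 + p * |ph p true| ^ 3) * |c| ^ 3 := by ring
  rw [e1, e2, e3, e4, g1, g2] at key
  have h3 : (p ^ 2 / √(p * (1 - p)) + (1 - p) ^ 2 / √(p * (1 - p))) * |c| ^ 3 ≤
      |c| ^ 3 / √(p * (1 - p)) := by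
    rw [← add_div, div_mul_eq_mul_div]
    apply div_le_div_of_nonneg_right _ hs.le
    have hc : 0 ≤ |c| ^ 3 := by positivity
    have : p ^ 2 + (1 - p) ^ 2 ≤ 1 := by nlinarith
    nlinarith
  nlinarith [f1, f2, key, h3]

lemma st_cubic' {p : ℝ} (h0 : 0 < p) (h1 : p < 1) (a c : ℝ) :
    (1 - p) * |a + ph p false * c| ^ 3 + p * |a + ph p true * c| ^ 3 ≤
      |a| ^ 3 + 3 * |a| * c ^ 2 + |c| ^ 3 / √(p * (1 - p)) := by
  rcases le_or_gt 0 a with h | h
  · rw [abs_of_nonneg h]
    exact st_cubic h0 h1 a c h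
  · have h2 := st_cubic h0 h1 (-a) (-c) (by linarith)
    have e : ∀ b, |a + ph p b * c| = |-a + ph p b * (-c)| := by
      intro b
      rw [← abs_neg]
      congr 1
      ring
    rw [e, e, abs_of_neg h]
    simpa using h2

/-- One-bit inequality: revealing one bit gives little information.
`η(x) = -x log x = Real.negMulLog x`. -/
lemma one_bit {p : ℝ} (h0 : 0 < p) (h1 : p < 1) (a c : ℝ) :
    Real.negMulLog (a ^ 2 + c ^ 2) ≤
      (1 - p) * Real.negMulLog ((a + ph p false * c) ^ 2) +
        p * Real.negMulLog ((a + ph p true * c) ^ 2) +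
        2 * (3 + 1 / √(p * (1 - p))) * c ^ 2 := by
  have hq : 0 < 1 - p := by linarith
  have hs : 0 < √(p * (1 - p)) := Real.sqrt_pos.mpr (by positivity)
  have e1 := q_ph_false h0 h1
  have e2 := p_ph_true h0 h1
  have e3 : (1 - p) * ph p false ^ 2 = p := by
    rw [ph_false_sq h0 h1]; field_simp
  have e4 : p * ph p true ^ 2 = 1 - p := by
    rw [ph_true_sq h0 h1]; field_simp
  rcases (add_nonneg (sq_nonneg a) (sq_nonneg c)).eq_or_lt with hz | hpos
  · have ha : a = 0 := by nlinarith [sq_nonneg a, sq_nonneg c]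
    have hc : c = 0 := by nlinarith [sq_nonneg a, sq_nonneg c]
    subst ha; subst hc
    simp
  · set s := a ^ 2 + c ^ 2 with hsdef
    have hEu : (1 - p) * (a + ph p false * c) ^ 2 + p * (a + ph p true * c) ^ 2 = s := by
      calc (1 - p) * (a + ph p false * c) ^ 2 + p * (a + ph p true * c) ^ 2
          = a ^ 2 + 2 * a * c * ((1 - p) * ph p false + p * ph p true) +
            c ^ 2 * ((1 - p) * ph p false ^ 2 + p * ph p true ^ 2) := by ring
        _ = a ^ 2 + c ^ 2 := by rw [e1, e2, e3, e4]; ring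
    have l1 := mul_le_mul_of_nonneg_left (st_log s (a + ph p false * c) hpos) hq.le
    have l2 := mul_le_mul_of_nonneg_left (st_log s (a + ph p true * c) hpos) h0.le
    have hss : 0 < √s := Real.sqrt_pos.mpr hpos
    have hc3 := st_cubic' h0 h1 a c
    have hA : |a| ≤ √s := Real.abs_le_sqrt (by rw [hsdef]; nlinarith [sq_nonneg c])
    have hC : |c| ≤ √s := Real.abs_le_sqrt (by rw [hsdef]; nlinarith [sq_nonneg a])
    have b1 : |a| ^ 3 ≤ √s * a ^ 2 := by
      rw [pow_succ, sq_abs, mul_comm]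
      exact mul_le_mul_of_nonneg_right hA (sq_nonneg a)
    have b2 : 3 * |a| * c ^ 2 ≤ √s * (3 * c ^ 2) := by
      have := mul_le_mul_of_nonneg_right hA (sq_nonneg c)
      nlinarith
    have b3 : |c| ^ 3 / √(p * (1 - p)) ≤ √s * (1 / √(p * (1 - p)) * c ^ 2) := by
      rw [pow_succ, sq_abs]
      have h5 := mul_le_mul_of_nonneg_left hC (sq_nonneg c)
      have h6 := div_le_div_of_nonneg_right h5 hs.le
      calc c ^ 2 * |c| / √(p * (1 - p)) ≤ c ^ 2 * √s / √(p * (1 - p)) := h6
        _ = √s * (1 / √(p * (1 - p)) * c ^ 2) := by ring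
    have b4 : ((1 - p) * |a + ph p false * c| ^ 3 + p * |a + ph p true * c| ^ 3) / √s ≤
        s + (3 + 1 / √(p * (1 - p))) * c ^ 2 := by
      rw [div_le_iff₀ hss]
      have : 0 ≤ √s * c ^ 2 := by positivity
      calc (1 - p) * |a + ph p false * c| ^ 3 + p * |a + ph p true * c| ^ 3
          ≤ |a| ^ 3 + 3 * |a| * c ^ 2 + |c| ^ 3 / √(p * (1 - p)) := hc3
        _ ≤ √s * a ^ 2 + √s * (3 * c ^ 2) + √s * (1 / √(p * (1 - p)) * c ^ 2) := by
            linarith
        _ ≤ (s + (3 + 1 / √(p * (1 - p))) * c ^ 2) * √s := by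
            rw [hsdef]; nlinarith
    have hneg : Real.negMulLog s = -(s * Real.log s) := by
      unfold Real.negMulLog; ring
    rw [hneg]
    have hsum : (1 - p) * (|a + ph p false * c| ^ 3 / √s) + p * (|a + ph p true * c| ^ 3 / √s) =
        ((1 - p) * |a + ph p false * c| ^ 3 + p * |a + ph p true * c| ^ 3) / √s := by ring
    have hlog : (1 - p) * ((a + ph p false * c) ^ 2 * Real.log s) +
        p * ((a + ph p true * c) ^ 2 * Real.log s) = s * Real.log s := by
      rw [← hEu]; ring
    have l3 := add_le_add l1 l2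
    linarith [l3, b4, hsum, hlog, hEu]

lemma st_gibbs_aux {x X s T : ℝ} (hx : 0 ≤ x) (hX : 0 ≤ X) (hxX : X = 0 → x = 0) (hs : 0 < s)
    (hT : 0 < T) :
    x * (Real.log X + Real.log s - Real.log x - Real.log T) ≤ X * s / T - x := by
  rcases hx.eq_or_lt with h | h
  · rw [← h]
    simp only [zero_mul, sub_zero]
    positivity
  · have hX' : 0 < X := lt_of_le_of_ne hX fun h' => h.ne' (hxX h'.symm)
    have h1 : Real.log (X * s / (x * T)) ≤ X * s / (x * T) - 1 :=
      Real.log_le_sub_one_of_pos (by positivity)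
    rw [Real.log_div (by positivity) (by positivity), Real.log_mul hX'.ne' hs.ne',
      Real.log_mul h.ne' hT.ne'] at h1
    have h2 := mul_le_mul_of_nonneg_left h1 hx
    have h3 : x * (X * s / (x * T) - 1) = X * s / T - x := by
      field_simp
    rw [h3] at h2
    linarith

lemma st_logsum {x y X Y : ℝ} (hx : 0 ≤ x) (hy : 0 ≤ y) (hX : 0 ≤ X) (hY : 0 ≤ Y)
    (hxX : X = 0 → x = 0) (hyY : Y = 0 → y = 0) :
    Real.negMulLog x + Real.negMulLog y - Real.negMulLog (x + y) ≤
      -(x * Real.log X) - y * Real.log Y + (x + y) * Real.log (X + Y) := by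
  rcases (add_nonneg hx hy).eq_or_lt with hz | hs
  · have h1 : x = 0 := by linarith
    have h2 : y = 0 := by linarith
    subst h1; subst h2
    simp
  · have hT : 0 < X + Y := by
      refine lt_of_le_of_ne (add_nonneg hX hY) fun h => ?_
      have h1 : X = 0 := by linarith
      have h2 : Y = 0 := by linarith
      have := hxX h1
      have := hyY h2
      linarith
    have g1 := st_gibbs_aux hx hX hxX hs hT
    have g2 := st_gibbs_aux hy hY hyY hs hT
    have g3 : X * (x + y) / (X + Y) + Y * (x + y) / (X + Y) = x + y := by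
      field_simp
    unfold Real.negMulLog
    linarith [g1, g2, g3]

lemma st_W_pos {p : ℝ} (h0 : 0 < p) (h1 : p < 1) (ω : α → Bool) : 0 < W p ω := by
  unfold W
  refine prod_pos fun i _ => ?_
  unfold wt
  split_ifs <;> linarith

lemma st_Ex_zero {p : ℝ} (h0 : 0 < p) (h1 : p < 1) {g : (α → Bool) → ℝ} (hg : ∀ ω, 0 ≤ g ω)
    (h : Ex p g = 0) (ω : α → Bool) : g ω = 0 := by
  unfold Ex at h
  rw [sum_eq_zero_iff_of_nonneg (fun ω _ => mul_nonneg (st_W_pos h0 h1 ω).le (hg ω))] at h
  have := h ω (mem_univ ω)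
  rcases mul_eq_zero.mp this with h' | h'
  · exact absurd h' (st_W_pos h0 h1 ω).ne'
  · exact h'

lemma st_Ex_logsum {p : ℝ} (h0 : 0 < p) (h1 : p < 1) (a c : (α → Bool) → ℝ) :
    Real.negMulLog (Ex p (fun ω => a ω ^ 2) + Ex p (fun ω => c ω ^ 2)) ≤
      Real.negMulLog (Ex p (fun ω => a ω ^ 2)) + Real.negMulLog (Ex p (fun ω => c ω ^ 2)) +
      Ex p (fun ω => Real.negMulLog (a ω ^ 2 + c ω ^ 2)) -
      Ex p (fun ω => Real.negMulLog (a ω ^ 2)) - Ex p (fun ω => Real.negMulLog (c ω ^ 2)) := by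
  set A := Ex p (fun ω => a ω ^ 2) with hA
  set C := Ex p (fun ω => c ω ^ 2) with hC
  have hA0 : 0 ≤ A := Ex_nonneg h0.le h1.le fun _ => sq_nonneg _
  have hC0 : 0 ≤ C := Ex_nonneg h0.le h1.le fun _ => sq_nonneg _
  have key : Ex p (fun ω => Real.negMulLog (a ω ^ 2) + Real.negMulLog (c ω ^ 2) -
      Real.negMulLog (a ω ^ 2 + c ω ^ 2)) ≤
      Ex p (fun ω => -(a ω ^ 2 * Real.log A) - c ω ^ 2 * Real.log C +
        (a ω ^ 2 + c ω ^ 2) * Real.log (A + C)) := by
    refine Ex_mono h0.le h1.le fun ω => ?_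
    refine st_logsum (sq_nonneg _) (sq_nonneg _) hA0 hC0 ?_ ?_
    · intro h
      exact st_Ex_zero h0 h1 (fun ω => sq_nonneg (a ω)) h ω
    · intro h
      exact st_Ex_zero h0 h1 (fun ω => sq_nonneg (c ω)) h ω
  rw [Ex_sub, Ex_add] at key
  have e2 : Ex p (fun ω => -(a ω ^ 2 * Real.log A) - c ω ^ 2 * Real.log C +
        (a ω ^ 2 + c ω ^ 2) * Real.log (A + C)) =
      -(A * Real.log A) - C * Real.log C + (A + C) * Real.log (A + C) := by
    have : (fun ω => -(a ω ^ 2 * Real.log A) - c ω ^ 2 * Real.log C +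
        (a ω ^ 2 + c ω ^ 2) * Real.log (A + C)) =
        (fun ω => a ω ^ 2 * (Real.log (A + C) - Real.log A) +
          c ω ^ 2 * (Real.log (A + C) - Real.log C)) := by
      funext ω; ring
    rw [this, Ex_add, Ex_mul_right, Ex_mul_right, ← hA, ← hC]
    ring
  rw [e2] at key
  have e3 : -(A * Real.log A) = Real.negMulLog A := by unfold Real.negMulLog; ring
  have e4 : C * Real.log C = -Real.negMulLog C := by unfold Real.negMulLog; ring
  have e5 : (A + C) * Real.log (A + C) = -Real.negMulLog (A + C) := by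
    unfold Real.negMulLog; ring
  rw [e3, e4, e5] at key
  linarith

lemma st_step {p : ℝ} (h0 : 0 < p) (h1 : p < 1) (f : (α → Bool) → ℝ) {J F : Finset α} {i : α}
    (hi : i ∉ J) (hF : F ⊆ J) :
    Real.negMulLog (Q p f J F) ≤
      Ex p (fun ω => Real.negMulLog (co p f J F ω ^ 2)) +
      2 * (3 + 1 / √(p * (1 - p))) * Q p f (insert i J) (insert i F) +
      (Real.negMulLog (Q p f (insert i J) F) -
        Ex p (fun ω => Real.negMulLog (co p f (insert i J) F ω ^ 2))) +
      (Real.negMulLog (Q p f (insert i J) (insert i F)) -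
        Ex p (fun ω => Real.negMulLog (co p f (insert i J) (insert i F) ω ^ 2))) := by
  have k1 := st_Ex_logsum h0 h1 (co p f (insert i J) F) (co p f (insert i J) (insert i F))
  have k2 : Ex p (fun ω => Real.negMulLog (co p f (insert i J) F ω ^ 2 +
      co p f (insert i J) (insert i F) ω ^ 2)) ≤
      Ex p (fun ω => Real.negMulLog (co p f J F ω ^ 2)) +
      2 * (3 + 1 / √(p * (1 - p))) * Q p f (insert i J) (insert i F) := by
    rw [Ex_avg p i (fun ω => Real.negMulLog (co p f J F ω ^ 2))]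
    unfold Q
    rw [← Ex_mul_left, ← Ex_add]
    refine Ex_mono h0.le h1.le fun ω => ?_
    rw [co_decomp h0 h1 f hi hF, co_decomp h0 h1 f hi hF]
    exact one_bit h0 h1 _ _
  rw [Q_step h0 h1 f hi hF]
  unfold Q at k2 ⊢
  linarith

lemma st_sumQ {p : ℝ} (h0 : 0 < p) (h1 : p < 1) (f : (α → Bool) → ℝ) {J : Finset α} {i : α}
    (hi : i ∉ J) (θ : Finset α → ℝ) :
    ∑ F ∈ J.powerset, θ F * Q p f (insert i J) (insert i F) =
      ∑ S : Finset α, if i ∈ S then θ (S ∩ J) * fh p f S ^ 2 else 0 := by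
  have e1 : ∀ F ∈ J.powerset, θ F * Q p f (insert i J) (insert i F) =
      ∑ S : Finset α, if S ∩ insert i J = insert i F then θ F * fh p f S ^ 2 else 0 := by
    intro F hF
    rw [mem_powerset] at hF
    rw [Q_eq h0 h1 f (insert_subset_insert i hF), sum_filter, mul_sum]
    refine sum_congr rfl fun S _ => ?_
    split_ifs <;> simp
  rw [sum_congr rfl e1, sum_comm]
  refine sum_congr rfl fun S _ => ?_
  by_cases hS : i ∈ S
  · rw [if_pos hS]
    rw [sum_eq_single (S ∩ J)]
    · rw [if_pos]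
      ext j
      simp only [mem_inter, mem_insert]
      constructor
      · rintro ⟨hjS, hj | hj⟩
        · exact Or.inl hj
        · exact Or.inr ⟨hjS, hj⟩
      · rintro (hj | hj)
        · exact ⟨hj ▸ hS, Or.inl hj⟩
        · exact ⟨hj.1, Or.inr hj.2⟩
    · intro F hF hne
      rw [mem_powerset] at hF
      rw [if_neg]
      intro h
      apply hne
      have hiF : i ∉ F := fun h' => hi (hF h')
      have h2 := congrArg (fun T => T.erase i) h
      simp only [erase_insert hiF] at h2
      rw [← h2]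
      ext j
      simp only [mem_inter, mem_erase, mem_insert]
      constructor
      · rintro ⟨hne, hjS, hj | hj⟩
        · exact absurd hj hne
        · exact ⟨hjS, hj⟩
      · rintro ⟨hjS, hj⟩
        exact ⟨fun h => hi (h ▸ hj), hjS, Or.inr hj⟩
    · intro h
      exact absurd (mem_powerset.mpr inter_subset_right) h
  · rw [if_neg hS]
    refine sum_eq_zero fun F _ => ?_
    rw [if_neg]
    intro h
    apply hS
    have : i ∈ S ∩ insert i J := by rw [h]; exact mem_insert_self i F
    exact (mem_inter.mp this).1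

lemma st_aux {p : ℝ} (h0 : 0 < p) (h1 : p < 1) (f : (α → Bool) → ℝ) (K : Finset α) :
    ∀ θ : Finset α → ℝ, (∀ F, 0 ≤ θ F) →
    ∑ F ∈ Kᶜ.powerset, θ F * Real.negMulLog (Q p f Kᶜ F) ≤
      ∑ F ∈ Kᶜ.powerset, θ F * Ex p (fun ω => Real.negMulLog (co p f Kᶜ F ω ^ 2)) +
        2 * (3 + 1 / √(p * (1 - p))) *
          ∑ S : Finset α, θ (S ∩ Kᶜ) * (((S \ Kᶜ).card : ℝ) * fh p f S ^ 2) := by
  induction K using Finset.induction_on with
  | empty =>
    intro θ _
    have e : ∀ S : Finset α, θ (S ∩ (∅ : Finset α)ᶜ) *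
        (((S \ (∅ : Finset α)ᶜ).card : ℝ) * fh p f S ^ 2) = 0 := by
      intro S
      have : S \ (∅ : Finset α)ᶜ = ∅ := by
        ext j; simp
      rw [this]; simp
    simp only [e, sum_const_zero, mul_zero, add_zero]
    refine le_of_eq (sum_congr rfl fun F _ => ?_)
    rw [compl_empty, Q_univ]
    simp only [co_univ]
    rw [Ex_const]
  | insert i K hiK ih =>
    intro θ hθ
    set J := (insert i K)ᶜ with hJ
    have hins : insert i J = Kᶜ := by
      ext j
      simp only [hJ, mem_insert, mem_compl, not_or]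
      constructor
      · rintro (rfl | h)
        · exact hiK
        · exact h.2
      · intro h
        by_cases hji : j = i
        · left; exact hji
        · right; exact ⟨hji, h⟩
    have hi : i ∉ J := by simp [hJ]
    have IH := ih (fun F => θ (F.erase i)) (fun F => hθ _)
    rw [← hins] at IH
    rw [sum_powerset_insert hi, sum_powerset_insert hi] at IH
    have er1 : ∀ F ∈ J.powerset, F.erase i = F := fun F hF =>
      erase_eq_of_notMem fun h => hi ((mem_powerset.mp hF) h)
    have er2 : ∀ F ∈ J.powerset, (insert i F).erase i = F := fun F hF =>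
      erase_insert fun h => hi ((mem_powerset.mp hF) h)
    have c1 : ∑ F ∈ J.powerset, θ (F.erase i) * Real.negMulLog (Q p f (insert i J) F) =
        ∑ F ∈ J.powerset, θ F * Real.negMulLog (Q p f (insert i J) F) :=
      sum_congr rfl fun F hF => by rw [er1 F hF]
    have c2 : ∑ F ∈ J.powerset, θ ((insert i F).erase i) *
        Real.negMulLog (Q p f (insert i J) (insert i F)) =
        ∑ F ∈ J.powerset, θ F * Real.negMulLog (Q p f (insert i J) (insert i F)) :=
      sum_congr rfl fun F hF => by rw [er2 F hF]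
    have c3 : ∑ F ∈ J.powerset, θ (F.erase i) *
        Ex p (fun ω => Real.negMulLog (co p f (insert i J) F ω ^ 2)) =
        ∑ F ∈ J.powerset, θ F *
        Ex p (fun ω => Real.negMulLog (co p f (insert i J) F ω ^ 2)) :=
      sum_congr rfl fun F hF => by rw [er1 F hF]
    have c4 : ∑ F ∈ J.powerset, θ ((insert i F).erase i) *
        Ex p (fun ω => Real.negMulLog (co p f (insert i J) (insert i F) ω ^ 2)) =
        ∑ F ∈ J.powerset, θ F *
        Ex p (fun ω => Real.negMulLog (co p f (insert i J) (insert i F) ω ^ 2)) :=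
      sum_congr rfl fun F hF => by rw [er2 F hF]
    rw [c1, c2, c3, c4] at IH
    have step : ∑ F ∈ J.powerset, θ F * Real.negMulLog (Q p f J F) ≤
        ∑ F ∈ J.powerset, (θ F * Ex p (fun ω => Real.negMulLog (co p f J F ω ^ 2)) +
          2 * (3 + 1 / √(p * (1 - p))) * (θ F * Q p f (insert i J) (insert i F)) +
          (θ F * Real.negMulLog (Q p f (insert i J) F) -
            θ F * Ex p (fun ω => Real.negMulLog (co p f (insert i J) F ω ^ 2))) +
          (θ F * Real.negMulLog (Q p f (insert i J) (insert i F)) -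
            θ F * Ex p (fun ω =>
              Real.negMulLog (co p f (insert i J) (insert i F) ω ^ 2)))) := by
      refine sum_le_sum fun F hF => ?_
      have := mul_le_mul_of_nonneg_left (st_step h0 h1 f hi (mem_powerset.mp hF)) (hθ F)
      refine this.trans (le_of_eq ?_)
      ring
    rw [sum_add_distrib, sum_add_distrib, sum_add_distrib, sum_sub_distrib, sum_sub_distrib,
      ← mul_sum, st_sumQ h0 h1 f hi θ] at step
    have hlast : ∑ S : Finset α, θ (S ∩ J) * (((S \ J).card : ℝ) * fh p f S ^ 2) =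
        (∑ S : Finset α, if i ∈ S then θ (S ∩ J) * fh p f S ^ 2 else 0) +
        ∑ S : Finset α, θ ((S ∩ insert i J).erase i) *
          (((S \ insert i J).card : ℝ) * fh p f S ^ 2) := by
      rw [← sum_add_distrib]
      refine sum_congr rfl fun S _ => ?_
      have g1 : (S ∩ insert i J).erase i = S ∩ J := by
        ext j
        simp only [mem_inter, mem_erase, mem_insert]
        constructor
        · rintro ⟨hne, hjS, hj | hj⟩
          · exact absurd hj hne
          · exact ⟨hjS, hj⟩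
        · rintro ⟨hjS, hj⟩
          exact ⟨fun h => hi (h ▸ hj), hjS, Or.inr hj⟩
      rw [g1]
      by_cases hS : i ∈ S
      · rw [if_pos hS]
        have g2 : S \ J = insert i (S \ insert i J) := by
          ext j
          simp only [mem_sdiff, mem_insert, not_or]
          constructor
          · rintro ⟨hjS, hj⟩
            by_cases hji : j = i
            · left; exact hji
            · right; exact ⟨hjS, hji, hj⟩
          · rintro (hj | ⟨hjS, hji, hj⟩)
            · rw [hj]; exact ⟨hS, hi⟩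
            · exact ⟨hjS, hj⟩
        have g3 : (S \ J).card = (S \ insert i J).card + 1 := by
          rw [g2, card_insert_of_notMem]
          simp
        rw [g3]
        push_cast
        ring
      · rw [if_neg hS]
        have g2 : S \ J = S \ insert i J := by
          ext j
          simp only [mem_sdiff, mem_insert, not_or]
          constructor
          · rintro ⟨hjS, hj⟩
            exact ⟨hjS, fun h => hS (h ▸ hjS), hj⟩
          · rintro ⟨hjS, _, hj⟩
            exact ⟨hjS, hj⟩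
        rw [g2]
        ring
    rw [hlast, mul_add]
    linarith [step, IH]

/-- Information inequality (star). -/
theorem star {p : ℝ} (h0 : 0 < p) (h1 : p < 1) (f : (α → Bool) → ℝ) (J : Finset α)
    (θ : Finset α → ℝ) (hθ : ∀ F, 0 ≤ θ F) :
    ∑ F ∈ J.powerset, θ F * Real.negMulLog (Q p f J F) ≤
      ∑ F ∈ J.powerset, θ F * Ex p (fun ω => Real.negMulLog (co p f J F ω ^ 2)) +
        2 * (3 + 1 / √(p * (1 - p))) *
          ∑ S : Finset α, θ (S ∩ J) * (((S \ J).card : ℝ) * fh p f S ^ 2) := by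
  have := st_aux h0 h1 f Jᶜ θ hθ
  rwa [compl_compl] at this

end P063K
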