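import Vale.Agent.P063K.Basic
import Vale.Agent.H5.P063Main

open Finset

namespace P063K

open Vale.Agent.H5.P063

section general
variable {α : Type*} [Fintype α] [DecidableEq α]

lemma wi_wt_deriv (b : Bool) (p : ℝ) :
    HasDerivAt (fun p => wt p b) (if b then 1 else -1) p := by
  cases b
  · have h : (fun p : ℝ => wt p false) = fun p => 1 - p := by funext p; simp [wt]
    rw [h]
    simpa using (hasDerivAt_id p).const_sub 1
  · have h : (fun p : ℝ => wt p true) = fun p => p := by funext p; simp [wt]
    rw [h]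
    simpa using hasDerivAt_id' p

lemma wi_wt_cont (b : Bool) : Continuous (fun p => wt p b) := by
  cases b
  · have h : (fun p : ℝ => wt p false) = fun p => 1 - p := by funext p; simp [wt]
    rw [h]; fun_prop
  · have h : (fun p : ℝ => wt p true) = fun p => p := by funext p; simp [wt]
    rw [h]; fun_prop

lemma wi_Ex_cont (h : (α → Bool) → ℝ) : Continuous (fun p => Ex p h) := by
  unfold Ex W
  refine continuous_finsetSum _ fun ω _ => ?_
  exact (continuous_finsetProd _ fun i _ => wi_wt_cont (ω i)).mul continuous_const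

/-- Russo's formula. -/
lemma wi_russo {p : ℝ} (h0 : 0 < p) (h1 : p < 1) (h : (α → Bool) → ℝ) :
    HasDerivAt (fun p => Ex p h) (∑ i : α, Ex p (fun y => h (Function.update y i true) -
      h (Function.update y i false))) p := by
  have hd : HasDerivAt (fun p => Ex p h) (∑ ω : α → Bool,
      (∑ i : α, (∏ j ∈ univ.erase i, wt p (ω j)) * (if ω i then 1 else -1)) * h ω) p := by
    unfold Ex
    refine HasDerivAt.fun_sum fun ω _ => ?_
    refine HasDerivAt.mul_const ?_ _
    unfold W
    have := HasDerivAt.fun_finsetProd (u := (univ : Finset α)) (f := fun i p => wt p (ω i))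
      (f' := fun i => if ω i then 1 else -1) (x := p) (fun i _ => wi_wt_deriv (ω i) p)
    simpa [smul_eq_mul] using this
  convert hd using 1
  have hq : (1 - p) ≠ 0 := by linarith
  have hp : p ≠ 0 := h0.ne'
  have e1 : ∀ i : α, Ex p (fun y => h (Function.update y i true) -
      h (Function.update y i false)) =
      ∑ ω : α → Bool, (∏ j ∈ univ.erase i, wt p (ω j)) * (if ω i then 1 else -1) * h ω := by
    intro i
    have e2 : ∑ ω : α → Bool, (∏ j ∈ univ.erase i, wt p (ω j)) * (if ω i then 1 else -1) * h ω =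
        Ex p (fun ω => (if ω i then 1 else -1) / wt p (ω i) * h ω) := by
      unfold Ex
      refine sum_congr rfl fun ω _ => ?_
      rw [W_split p i]
      have hw : wt p (ω i) ≠ 0 := by
        unfold wt; split_ifs <;> assumption
      field_simp
    rw [e2, Ex_avg p i (fun ω => (if ω i then 1 else -1) / wt p (ω i) * h ω)]
    congr 1
    funext y
    have key : ∀ X Y : ℝ, Y - X = (1 - p) * (-1 / (1 - p) * X) + p * (1 / p * Y) := by
      intro X Y
      field_simp
      ring
    simp only [Function.update_self, wt, Bool.false_eq_true, if_false, if_true]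
    exact key _ _
  simp only [e1]
  rw [sum_comm]
  refine sum_congr rfl fun ω _ => ?_
  rw [sum_mul]

lemma wi_fh_empty (p : ℝ) (f : (α → Bool) → ℝ) : fh p f ∅ = Ex p f := by
  unfold fh chi
  simp

lemma wi_Vr {p : ℝ} (h0 : 0 < p) (h1 : p < 1) {f : (α → Bool) → ℝ} (hf : IsSign f) :
    Vr p f = 1 - (Ex p f) ^ 2 := by
  have h := sum_fh_sq h0 h1 hf
  unfold Vr
  rw [← Finset.sum_filter_add_sum_filter_not univ (fun S : Finset α => S.Nonempty)] at h
  have e : ∑ S ∈ univ.filter (fun S : Finset α => ¬ S.Nonempty), fh p f S ^ 2 = (Ex p f) ^ 2 := by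
    have : univ.filter (fun S : Finset α => ¬ S.Nonempty) = {∅} := by
      ext S
      simp [Finset.not_nonempty_iff_eq_empty]
    rw [this, sum_singleton, wi_fh_empty]
  rw [e] at h
  linarith

end general

/-- The edge set of a configuration. -/
def wiConf {n r : ℕ} (ω : Edge n r → Bool) : Finset (Finset (Fin n)) :=
  (tset ω).map (Function.Embedding.subtype _)

lemma wi_mem_conf {n r : ℕ} (ω : Edge n r → Bool) (x : Finset (Fin n)) :
    x ∈ wiConf ω ↔ ∃ h : x.card = r, ω ⟨x, h⟩ = true := by
  unfold wiConf tset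
  simp only [mem_map, mem_filter, mem_univ, true_and, Function.Embedding.subtype_apply]
  constructor
  · rintro ⟨e, he, rfl⟩
    exact ⟨e.2, he⟩
  · rintro ⟨h, he⟩
    exact ⟨⟨x, h⟩, he, rfl⟩

lemma wi_conf_sub {n r : ℕ} (ω : Edge n r → Bool) : wiConf ω ⊆ edges n r := by
  intro x hx
  obtain ⟨h, _⟩ := (wi_mem_conf ω x).mp hx
  unfold edges
  rw [mem_powersetCard]
  exact ⟨subset_univ _, h⟩

lemma wi_conf_act {n r : ℕ} (σ : Equiv.Perm (Fin n)) (ω : Edge n r → Bool) :
    (wiConf (fun e => ω (act σ e))).image (fun e => e.image σ) = wiConf ω := by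
  ext x
  rw [mem_image]
  constructor
  · rintro ⟨y, hy, rfl⟩
    obtain ⟨h, hω⟩ := (wi_mem_conf _ _).mp hy
    rw [wi_mem_conf]
    refine ⟨by rw [card_image_of_injective _ σ.injective]; exact h, ?_⟩
    convert hω using 2
    apply Subtype.ext
    simp only [act]
    rw [Finset.map_eq_image]
    rfl
  · intro hx
    obtain ⟨h, hω⟩ := (wi_mem_conf _ _).mp hx
    refine ⟨x.image σ.symm, ?_, ?_⟩
    · rw [wi_mem_conf]
      refine ⟨by rw [card_image_of_injective _ σ.symm.injective]; exact h, ?_⟩
      convert hω using 2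
      apply Subtype.ext
      simp only [act]
      rw [Finset.map_eq_image, Finset.image_image]
      conv_rhs => rw [← Finset.image_id (s := x)]
      congr 1
      funext z
      simp
    · simp only [Finset.image_image]
      conv_rhs => rw [← Finset.image_id (s := x)]
      congr 1
      funext z
      simp

lemma wi_act_symm {n r : ℕ} (σ : Equiv.Perm (Fin n)) (e : Edge n r) :
    act σ (act σ.symm e) = e := by
  apply Subtype.ext
  simp only [act, Finset.map_map]
  conv_rhs => rw [← Finset.map_refl (s := e.1)]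
  congr 1
  ext z
  simp

open Classical in
/-- Indicator of a property. -/
noncomputable def wiInd {n r : ℕ} (P : Set (Finset (Finset (Fin n)))) (ω : Edge n r → Bool) : ℝ :=
  if wiConf ω ∈ P then 1 else 0

/-- The `±1`-valued version. -/
noncomputable def wiF {n r : ℕ} (P : Set (Finset (Finset (Fin n)))) (ω : Edge n r → Bool) : ℝ :=
  2 * wiInd P ω - 1

lemma wi_ind_cases {n r : ℕ} (P : Set (Finset (Finset (Fin n)))) (ω : Edge n r → Bool) :
    wiInd P ω = 0 ∨ wiInd P ω = 1 := by
  unfold wiInd
  split_ifs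
  · right; rfl
  · left; rfl

lemma wi_sign {n r : ℕ} (P : Set (Finset (Finset (Fin n)))) :
    IsSign (wiF (n := n) (r := r) P) := by
  intro ω
  unfold wiF
  rcases wi_ind_cases P ω with h | h <;> rw [h] <;> norm_num

lemma wi_inv {n r : ℕ} {P : Set (Finset (Finset (Fin n)))} (hP : IsProperty n r P) :
    IsInv (wiF (n := n) (r := r) P) := by
  intro σ ω
  unfold wiF wiInd
  have : (wiConf (fun e => ω (act σ e)) ∈ P) ↔ (wiConf ω ∈ P) := by
    constructor
    · intro h
      have := hP.invariant σ _ h
      rwa [wi_conf_act] at this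
    · intro h
      have h2 := hP.invariant σ.symm _ h
      have h3 := wi_conf_act σ.symm (fun e => ω (act σ e))
      simp only [wi_act_symm] at h3
      have h4 : (wiConf ω).image (fun e => e.image σ.symm) = wiConf (fun e => ω (act σ e)) := h3
      rw [← h4]
      exact h2
  by_cases h : wiConf ω ∈ P
  · rw [if_pos h, if_pos (this.mpr h)]
  · rw [if_neg h, if_neg (fun h' => h (this.mp h'))]

lemma wi_card_edges (n r : ℕ) : (edges n r).card = Fintype.card (Edge n r) := by
  unfold edges
  rw [card_powersetCard]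
  simp

lemma wi_W {n r : ℕ} (p : ℝ) (ω : Edge n r → Bool) :
    W p ω = p ^ (wiConf ω).card * (1 - p) ^ ((edges n r).card - (wiConf ω).card) := by
  unfold W wt
  rw [Finset.prod_ite, prod_const, prod_const]
  have h1 : (wiConf ω).card = (univ.filter (fun i => ω i = true)).card := by
    unfold wiConf tset
    rw [card_map]
  have h2 : (univ.filter (fun i => ω i = true)).card + (univ.filter (fun i => ¬ ω i = true)).card =
      (edges n r).card := by
    rw [wi_card_edges]
    exact Finset.card_filter_add_card_filter_not _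
  rw [h1]
  congr 2
  omega

lemma wi_mu {n r : ℕ} (p : ℝ) (P : Set (Finset (Finset (Fin n)))) :
    mu n r p P = Ex p (wiInd (n := n) (r := r) P) := by
  classical
  unfold mu Ex
  have e : ∀ ω : Edge n r → Bool, W p ω * wiInd P ω = if wiConf ω ∈ P then
      p ^ (wiConf ω).card * (1 - p) ^ ((edges n r).card - (wiConf ω).card) else 0 := by
    intro ω
    rw [wi_W]
    unfold wiInd
    split_ifs <;> simp
  simp only [e]
  rw [Finset.sum_filter]
  symm
  refine Finset.sum_nbij' (i := fun ω => wiConf ω) (j := fun G => fun e => decide (e.1 ∈ G))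
    ?_ ?_ ?_ ?_ ?_
  · intro ω _
    rw [mem_powerset]
    exact wi_conf_sub ω
  · intro G _
    exact mem_univ _
  · intro ω _
    funext e
    have := wi_mem_conf ω e.1
    by_cases h : ω e = true
    · rw [h]
      simp only [decide_eq_true_eq]
      rw [this]
      exact ⟨e.2, h⟩
    · have h' : ω e = false := by simpa using h
      rw [h']
      simp only [decide_eq_false_iff_not]
      rw [this]
      rintro ⟨_, h2⟩
      exact h h2
  · intro G hG
    ext x
    rw [wi_mem_conf]
    constructor
    · rintro ⟨_, h⟩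
      simpa using h
    · intro hx
      have h := mem_powerset.mp hG hx
      unfold edges at h
      rw [mem_powersetCard] at h
      exact ⟨h.2, by simpa using hx⟩
  · intro ω _
    rfl

lemma wi_mono_upd {n r : ℕ} {P : Set (Finset (Finset (Fin n)))} (hinc : IsIncreasing n r P)
    (y : Edge n r → Bool) (e : Edge n r) :
    wiInd P (Function.update y e false) ≤ wiInd P (Function.update y e true) := by
  unfold wiInd
  have hsub : wiConf (Function.update y e false) ⊆ wiConf (Function.update y e true) := by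
    intro x hx
    rw [wi_mem_conf] at hx ⊢
    obtain ⟨h, hx⟩ := hx
    refine ⟨h, ?_⟩
    by_cases hxe : (⟨x, h⟩ : Edge n r) = e
    · rw [hxe, Function.update_self]
    · rw [Function.update_of_ne hxe] at hx ⊢
      exact hx
  split_ifs with h1 h2
  · exact le_rfl
  · exact absurd (hinc _ h1 _ hsub (wi_conf_sub _)) h2
  · norm_num
  · exact le_rfl

lemma wi_tinf {n r : ℕ} (p : ℝ) {P : Set (Finset (Finset (Fin n)))} (hinc : IsIncreasing n r P)
    (e : Edge n r) :
    tinf p (wiF P) e = Ex p (fun y => wiInd P (Function.update y e true) -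
      wiInd P (Function.update y e false)) := by
  unfold tinf
  have : ∀ y : Edge n r → Bool, (wiF P (Function.update y e true) -
      wiF P (Function.update y e false)) ^ 2 = 4 * (wiInd P (Function.update y e true) -
      wiInd P (Function.update y e false)) := by
    intro y
    have h := wi_mono_upd hinc y e
    unfold wiF
    rcases wi_ind_cases P (Function.update y e true) with h1 | h1
    · rcases wi_ind_cases P (Function.update y e false) with h2 | h2
      · rw [h1, h2]; norm_num
      · exfalso; rw [h1, h2] at h; norm_num at h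
    · rcases wi_ind_cases P (Function.update y e false) with h2 | h2
      · rw [h1, h2]; norm_num
      · rw [h1, h2]; norm_num
  simp only [this]
  rw [Ex_mul_left]
  ring

/-- From the total influence bound to the threshold width (Russo's formula and the mean value
inequality). -/
theorem width_of_infl
    (H : ∀ r : ℕ, 2 ≤ r → ∀ ε : ℝ, 0 < ε → ε < 1 / 2 →
      ∃ c : ℝ, 0 < c ∧ ∃ n0 : ℕ, ∀ n : ℕ, n0 ≤ n → ∀ f : (Edge n r → Bool) → ℝ, IsSign f →
        IsInv f → ∀ p : ℝ, 0 < p → p < 1 → 4 * ε * (1 - ε) ≤ Vr p f →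
          c * (Real.log n) ^ ((r : ℝ) / ((r : ℝ) - 1)) ≤ ∑ i, tinf p f i) :
    ∀ r : ℕ, 2 ≤ r → ∀ ε : ℝ, 0 < ε → ε < 1 / 2 → ∃ C : ℝ, 0 < C ∧ ∀ n : ℕ, r ≤ n →
      ∀ P : Set (Finset (Finset (Fin n))), IsProperty n r P → IsIncreasing n r P →
        IsNontrivial n r P → width n r P ε ≤ C * (Real.log n) ^ (-((r : ℝ) / ((r : ℝ) - 1))) := by
  intro r hr ε hε0 hε1
  obtain ⟨c, hc, n0, hn0⟩ := H r hr ε hε0 hε1
  set a : ℝ := (r : ℝ) / ((r : ℝ) - 1) with ha
  have hr2 : (2 : ℝ) ≤ r := by exact_mod_cast hr
  have ha0 : 0 < a := by rw [ha]; apply div_pos <;> linarith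
  set N : ℕ := max n0 2 with hN
  have hN2 : (2 : ℝ) ≤ N := by exact_mod_cast le_max_right n0 2
  have hlogN : 0 < Real.log N := Real.log_pos (by linarith)
  refine ⟨max (1 / c) ((Real.log N) ^ a), lt_of_lt_of_le (by positivity) (le_max_left _ _), ?_⟩
  intro n hrn P hP hinc hnt
  have hn2 : (2 : ℝ) ≤ n := by exact_mod_cast (hr.trans hrn)
  have hlogn : 0 < Real.log n := Real.log_pos (by linarith)
  have hpow : 0 < (Real.log n) ^ a := Real.rpow_pos_of_pos hlogn _
  -- basic facts on m
  set m : ℝ → ℝ := fun p => Ex p (wiInd (n := n) (r := r) P) with hm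
  have hmu : ∀ p, mu n r p P = m p := fun p => wi_mu p P
  have hfull : edges n r ∈ P := by
    obtain ⟨⟨G, hG⟩, _⟩ := hnt
    exact hinc G hG _ (hP.sub G hG) (subset_refl _)
  have hm1 : m 1 = 1 := by rw [← hmu]; exact mu_one n r P hfull
  have hmle : ∀ p, 0 ≤ p → p ≤ 1 → m p ≤ 1 := by
    intro p h0 h1
    have := Ex_mono (α := Edge n r) h0 h1 (g := wiInd P) (h := fun _ => 1) (fun ω => by
      rcases wi_ind_cases P ω with h | h <;> rw [h] <;> norm_num)
    rwa [Ex_const] at this
  have hmge : ∀ p, 0 ≤ p → p ≤ 1 → 0 ≤ m p := by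
    intro p h0 h1
    exact Ex_nonneg h0 h1 (fun ω => by
      rcases wi_ind_cases P ω with h | h <;> rw [h] <;> norm_num)
  have hcont : Continuous m := wi_Ex_cont _
  have hder : ∀ p, 0 < p → p < 1 → HasDerivAt m (∑ i, tinf p (wiF (n := n) (r := r) P) i) p := by
    intro p h0 h1
    have := wi_russo h0 h1 (wiInd (n := n) (r := r) P)
    simpa only [wi_tinf p hinc] using this
  have hmono : MonotoneOn m (Set.Icc 0 1) := by
    apply monotoneOn_of_deriv_nonneg (convex_Icc 0 1) hcont.continuousOn
    · intro p hp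
      rw [interior_Icc] at hp
      exact (hder p hp.1 hp.2).differentiableAt.differentiableWithinAt
    · intro p hp
      rw [interior_Icc] at hp
      rw [(hder p hp.1 hp.2).deriv]
      exact Finset.sum_nonneg fun i _ => tinf_nonneg hp.1.le hp.2.le _ _
  -- the two critical probabilities
  set A : Set ℝ := {p : ℝ | p ∈ Set.Icc (0 : ℝ) 1 ∧ ε ≤ mu n r p P} with hA
  set B : Set ℝ := {p : ℝ | p ∈ Set.Icc (0 : ℝ) 1 ∧ 1 - ε ≤ mu n r p P} with hB
  have hw : width n r P ε = sInf B - sInf A := rfl
  have hAB : B ⊆ A := fun p hp => ⟨hp.1, by have := hp.2; linarith⟩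
  have h1B : (1 : ℝ) ∈ B := ⟨⟨by norm_num, le_rfl⟩, by rw [hmu, hm1]; linarith⟩
  have hAbdd : BddBelow A := ⟨0, fun p hp => hp.1.1⟩
  have hBbdd : BddBelow B := ⟨0, fun p hp => hp.1.1⟩
  have hBne : B.Nonempty := ⟨1, h1B⟩
  have hAne : A.Nonempty := ⟨1, hAB h1B⟩
  have ha0' : 0 ≤ sInf A := le_csInf hAne fun p hp => hp.1.1
  have hb1 : sInf B ≤ 1 := csInf_le hBbdd h1B
  have hab : sInf A ≤ sInf B := csInf_le_csInf hAbdd hBne hAB
  rw [hw]
  by_cases hcase : n0 ≤ n
  · -- large n
    have key : (sInf B - sInf A) * (c * (Real.log n) ^ a) ≤ 1 := by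
      rcases hab.eq_or_lt with h | h
      · rw [h]; simp
      · obtain ⟨ξ, hξ, hξ2⟩ := exists_deriv_eq_slope m h hcont.continuousOn (by
          intro p hp
          exact (hder p (lt_of_le_of_lt ha0' hp.1) (lt_of_lt_of_le hp.2 hb1)).differentiableAt.differentiableWithinAt)
        have hξ0 : 0 < ξ := lt_of_le_of_lt ha0' hξ.1
        have hξ1 : ξ < 1 := lt_of_lt_of_le hξ.2 hb1
        rw [(hder ξ hξ0 hξ1).deriv] at hξ2
        have hup : m ξ < 1 - ε := by
          by_contra hcon
          push Not at hcon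
          have : ξ ∈ B := ⟨⟨hξ0.le, hξ1.le⟩, by rw [hmu]; exact hcon⟩
          exact absurd (csInf_le hBbdd this) (not_le.mpr hξ.2)
        have hlow : ε ≤ m ξ := by
          obtain ⟨q, hq, hqξ⟩ := exists_lt_of_csInf_lt hAne hξ.1
          have h1 := hq.2
          rw [hmu] at h1
          exact h1.trans (hmono hq.1 ⟨hξ0.le, hξ1.le⟩ hqξ.le)
        have hVr : 4 * ε * (1 - ε) ≤ Vr ξ (wiF (n := n) (r := r) P) := by
          rw [wi_Vr hξ0 hξ1 (wi_sign P)]
          have hE : Ex ξ (wiF (n := n) (r := r) P) = 2 * m ξ - 1 := by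
            have : (wiF (n := n) (r := r) P) = fun ω => 2 * wiInd P ω - 1 := rfl
            rw [this, Ex_sub ξ (fun ω => 2 * wiInd P ω) (fun _ => 1), Ex_mul_left, Ex_const]
          rw [hE]
          nlinarith
        have hI := hn0 n hcase (wiF P) (wi_sign P) (wi_inv hP) ξ hξ0 hξ1 hVr
        rw [hξ2, le_div_iff₀ (by linarith)] at hI
        have h1 := hmle (sInf B) (ha0'.trans hab) hb1
        have h2 := hmge (sInf A) ha0' (hab.trans hb1)
        linarith
    rw [Real.rpow_neg hlogn.le]
    calc sInf B - sInf A ≤ 1 / (c * (Real.log n) ^ a) := by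
          rw [le_div_iff₀ (by positivity)]; exact key
      _ = 1 / c * ((Real.log n) ^ a)⁻¹ := by field_simp
      _ ≤ _ := mul_le_mul_of_nonneg_right (le_max_left _ _) (by positivity)
  · -- small n
    push Not at hcase
    have hnN : (n : ℝ) ≤ N := by exact_mod_cast hcase.le.trans (le_max_left n0 2)
    have hle : (Real.log n) ^ a ≤ (Real.log N) ^ a :=
      Real.rpow_le_rpow hlogn.le (Real.log_le_log (by linarith) hnN) ha0.le
    rw [Real.rpow_neg hlogn.le]
    calc sInf B - sInf A ≤ 1 := by linarith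
      _ = (Real.log n) ^ a * ((Real.log n) ^ a)⁻¹ := by field_simp
      _ ≤ (Real.log N) ^ a * ((Real.log n) ^ a)⁻¹ :=
          mul_le_mul_of_nonneg_right hle (by positivity)
      _ ≤ _ := mul_le_mul_of_nonneg_right (le_max_right _ _) (by positivity)

end P063K
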